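import Vale.Agent.KR.MpBasic

/-!
# Norm shrinking by unitary averages (notes, section 4 D)
* `gt_gen`: `gt_sa` for the family of real and imaginary parts indexed by `I × Bool`; `a² + b² = (x* x + x x*)/2`.
* `TrD.sep`: `dom`. `TrD.right`: `star_le` twice and `mul_le`.
* `dix`: with `Ξ` from `TrD.vec`, let `Tb b s` mean `0 ≤ b` and `∑ i, qf (u b u*) (c Ξ i) ≤ 4 s ‖ev c‖²` for all unitaries `u` and central projections `c`.
  It holds for `b = ∑ x x*`, `s = ‖∑ x* x‖`, and passes to `avg l b`; also `‖avg l b‖ ≤ ‖b‖`. One step: `t = 21 s > 0`, `e = cut b t`, `comparison e (1 - e)`;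
  `c = 1 - z` has `‖ev c‖² ≤ 5 ‖ev (e c)‖² ≤ (20 s/t) ‖ev c‖²`, so `c = 0`; `u = v + v* + (1 - e - v v*)`; `‖avg [u] b‖ ≤ (max ‖b‖ t + t)/2`.
  Iterate (`avg (l ++ l') b = avg l (avg l' b)`), then induct over the finitely many families.
-/

namespace Vale.Agent.KR

open Vale.Agent.P104 Finset
open scoped InnerProductSpace

variable {H : Type*} [NormedAddCommGroup H] [InnerProductSpace ℂ H] [CompleteSpace H]
  {M : VonNeumannAlgebra H}
variable {F : Type*} [NormedAddCommGroup F] [InnerProductSpace ℂ F]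

theorem gt_gen {A : Type*} [CStarAlgebra A] (V : A →L[ℂ] F) {I : Type*} [Fintype I] (x : I → A) :
    ∑ i, ‖V (x i)‖ ^ 2 ≤
      3 * ‖V‖ ^ 2 * (‖∑ i, star (x i) * x i‖ + ‖∑ i, x i * star (x i)‖) := by
  let h : I × Bool → A := fun p => if p.2 then (realPart (x p.1) : A) else (imaginaryPart (x p.1) : A)
  have h1 := gt_sa V h fun p => by
    simp only [h]
    split_ifs
    exacts [(realPart (x p.1)).2, (imaginaryPart (x p.1)).2]
  have h2 : ∑ p, h p * h p =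
      (2⁻¹ : ℝ) • (∑ i, star (x i) * x i + ∑ i, x i * star (x i)) := by
    rw [Fintype.sum_prod_type, ← sum_add_distrib, smul_sum]
    refine sum_congr rfl fun i _ => ?_
    simp only [h, Fintype.sum_bool, if_true, Bool.false_eq_true, if_false]
    rw [star_mul_self_add_self_mul_star, ← Nat.cast_smul_eq_nsmul ℝ, smul_smul]
    norm_num
  have h3 : ∑ i, ‖V (x i)‖ ^ 2 ≤ 2 * ∑ p, ‖V (h p)‖ ^ 2 := by
    rw [Fintype.sum_prod_type, mul_sum]
    refine sum_le_sum fun i _ => ?_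
    simp only [h, Fintype.sum_bool, if_true, Bool.false_eq_true, if_false]
    have : ‖V (x i)‖ ≤ ‖V (realPart (x i))‖ + ‖V (imaginaryPart (x i))‖ := by
      conv_lhs => rw [← realPart_add_I_smul_imaginaryPart (x i), map_add, map_smul]
      refine (norm_add_le _ _).trans ?_
      rw [norm_smul, Complex.norm_I, one_mul]
    nlinarith [sq_nonneg (‖V (realPart (x i))‖ - ‖V (imaginaryPart (x i))‖), norm_nonneg (V (x i))]
  rw [h2, norm_smul, norm_inv, Real.norm_two] at h1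
  have h4 := norm_add_le (∑ i, star (x i) * x i) (∑ i, x i * star (x i))
  nlinarith [sq_nonneg ‖V‖]

theorem TrD.sep {Q : QT M F} (hQ : TrD M Q) {y : M} (h : Q.ev y = 0) : y = 0 := by
  refine Subtype.ext (ContinuousLinearMap.ext fun η => norm_le_zero_iff.1 ?_)
  refine le_of_forall_pos_le_add fun ε hε => ?_
  obtain ⟨C, -, hC⟩ := hQ.dom η (ε / (‖y‖ + 1)) (by positivity)
  refine (hC y).trans ?_
  rw [h, norm_zero, mul_zero, div_mul_eq_mul_div, add_le_add_iff_left, div_le_iff₀ (by positivity)]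
  nlinarith

theorem TrD.right {Q : QT M F} (hQ : TrD M Q) (a b : M) :
    ‖Q.ev (a * b)‖ ≤ 4 * ‖b‖ * ‖Q.ev a‖ := by
  have h1 := Q.star_le (star b * star a)
  have h2 := hQ.mul_le (star b) (star a)
  have h3 := Q.star_le a
  rw [star_mul, star_star, star_star] at h1
  rw [norm_star] at h2
  nlinarith [norm_nonneg b]

theorem TrD.ctr {Q : QT M F} (hQ : TrD M Q) {a : M} (ha : ‖a‖ ≤ 1) : Q.Ctr a := fun b =>
  (hQ.mul_le a b).trans (mul_le_of_le_one_left (norm_nonneg _) ha)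

/-- the invariant of the iteration -/
structure DixT {k : ℕ} (Ξ : Fin k → H) (b : M) (s : ℝ) : Prop where
  sa : IsSelfAdjoint (b : H →L[ℂ] H)
  pos : ∀ ξ, 0 ≤ qf (b : H →L[ℂ] H) ξ
  le : ∀ u ∈ unitary M, ∀ c, CProj M c →
    ∑ i, qf (b : H →L[ℂ] H) (star (u : H →L[ℂ] H) (c (Ξ i))) ≤ 4 * s * ∑ i, ‖c (Ξ i)‖ ^ 2

theorem dix_qf (u b : M) (ξ : H) :
    qf (((2⁻¹ : ℂ) • (b + u * b * star u) : M) : H →L[ℂ] H) ξ =
      (qf (b : H →L[ℂ] H) ξ + qf (b : H →L[ℂ] H) (star (u : H →L[ℂ] H) ξ)) / 2 := by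
  have : (((2⁻¹ : ℂ) • (b + u * b * star u) : M) : H →L[ℂ] H) =
      (2⁻¹ : ℝ) • ((b : H →L[ℂ] H) + star (star (u : H →L[ℂ] H)) * b * star (u : H →L[ℂ] H)) := by
    rw [star_star, ← Complex.coe_smul]
    push_cast
    rfl
  rw [this, qf_rsmul, qf_add, qf_conj]
  ring

theorem DixT.step {k : ℕ} {Ξ : Fin k → H} {b : M} {s : ℝ} (h : DixT Ξ b s) {u : M}
    (hu : u ∈ unitary M) : DixT Ξ ((2⁻¹ : ℂ) • (b + u * b * star u)) s := by
  refine ⟨?_, fun ξ => ?_, fun w hw c hc => ?_⟩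
  · have : IsSelfAdjoint (2⁻¹ : ℂ) := by simp [IsSelfAdjoint]
    exact this.smul (h.sa.add (h.sa.conjugate _))
  · rw [dix_qf]
    exact div_nonneg (add_nonneg (h.pos _) (h.pos _)) zero_le_two
  · have h1 := h.le w hw c hc
    have h2 := h.le (w * u) (mul_mem hw hu) c hc
    simp only [dix_qf, ← sum_div, sum_add_distrib]
    simp only [Core.coe_mul, star_mul, mul_apply_eq_comp] at h2
    linarith

theorem DixT.avg {k : ℕ} {Ξ : Fin k → H} {b : M} {s : ℝ} (h : DixT Ξ b s) :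
    ∀ l : List M, (∀ u ∈ l, u ∈ unitary M) → DixT Ξ (avg l b) s
  | [], _ => h
  | u :: l, hl => (h.avg l fun w hw => hl w (List.mem_cons_of_mem _ hw)).step
      (hl u List.mem_cons_self)

theorem dix_append (l l' : List M) (b : M) : avg (l ++ l') b = avg l (avg l' b) := by
  induction l with
  | nil => rfl
  | cons u l ih => simp only [List.cons_append, avg, ih]

theorem dix_norm (b : M) : ∀ l : List M, (∀ u ∈ l, u ∈ unitary M) → ‖avg l b‖ ≤ ‖b‖
  | [], _ => le_rfl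
  | u :: l, hl => by
    have h1 := dix_norm b l fun w hw => hl w (List.mem_cons_of_mem _ hw)
    have hu := hl u List.mem_cons_self
    have h2 := norm_add_le (avg l b) (u * avg l b * star u)
    rw [CStarRing.norm_mul_mem_unitary _ (Unitary.star_mem hu), CStarRing.norm_mem_unitary_mul _ hu] at h2
    rw [avg, norm_smul, norm_inv, Complex.norm_two]
    linarith

theorem dix_init {Q : QT M F} {k : ℕ} {Ξ : Fin k → H}
    (hΞ : ∀ y : M, ‖Q.ev y‖ ^ 2 = ∑ i, ‖(y : H →L[ℂ] H) (Ξ i)‖ ^ 2) {n : ℕ} (x : Fin n → M) :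
    DixT Ξ (∑ j, x j * star (x j)) ‖∑ j, star (x j) * x j‖ := by
  have h1 : ∀ ξ, qf ((∑ j, x j * star (x j) : M) : H →L[ℂ] H) ξ =
      ∑ j, ‖star (x j : H →L[ℂ] H) ξ‖ ^ 2 := fun ξ => by
    rw [Core.coe_sum, qf_sum]
    exact sum_congr rfl fun j _ => (QTrace.normsq_right _ _).symm
  refine ⟨?_, fun ξ => ?_, fun u hu c hc => ?_⟩
  · rw [Core.coe_sum]
    exact isSelfAdjoint_sum _ fun j _ => IsSelfAdjoint.mul_star_self _
  · rw [h1]; positivity
  · have h2 : ∀ j, ∑ i, ‖star (x j : H →L[ℂ] H) (star (u : H →L[ℂ] H) (c (Ξ i)))‖ ^ 2 ≤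
        4 * ∑ i, ‖(x j : H →L[ℂ] H) (c (Ξ i))‖ ^ 2 := fun j => by
      have a1 := Gamma_star_sq Q (u * (x j * ⟨c, hc.mem⟩))
      rw [Q.norm_unitary hu, hΞ, hΞ] at a1
      have : star ((u : H →L[ℂ] H) * (x j * c)) =
          star (x j : H →L[ℂ] H) * (star (u : H →L[ℂ] H) * c) := by
        rw [← mul_assoc, ← hc.comm (mul_mem u.2 (x j).2), star_mul, hc.proj.isSelfAdjoint.star_eq,
          ← mul_assoc, ← star_mul]
      simp only [Core.coe_star, Core.coe_mul, this] at a1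
      exact a1
    simp only [h1]
    rw [sum_comm, mul_assoc, mul_sum _ _ ‖_‖]
    refine (sum_le_sum fun j _ => h2 j).trans ?_
    rw [← mul_sum, sum_comm]
    refine mul_le_mul_of_nonneg_left (sum_le_sum fun i _ => ?_) (by norm_num)
    refine le_trans (le_of_eq ?_) ((le_abs_self _).trans
      (abs_qf_le ((∑ j, star (x j) * x j : M) : H →L[ℂ] H) (c (Ξ i))))
    rw [Core.coe_sum, qf_sum]
    exact sum_congr rfl fun j _ => QTrace.normsq_left _ _

/-- the swap unitary -/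
theorem dix_swap {e v : H →L[ℂ] H} (he : IsStarProjection e) (heM : e ∈ M) (hv : v ∈ M)
    (h1 : star v * v = e) (h2 : (1 - e) * v = v) :
    ∃ u ∈ unitary M, ∀ ξ, ‖e (star (u : H →L[ℂ] H) ξ)‖ ≤ ‖ξ - e ξ‖ := by
  obtain ⟨hp, h3⟩ := compare_piso he h1
  have h4 : e * v = 0 := by rw [← h2, ← mul_assoc, he.mul_one_sub_self, zero_mul]
  have h5 : star v * e = 0 := by
    simpa only [star_mul, he.isSelfAdjoint.star_eq, star_zero] using congrArg star h4
  have h6 : e * star v = star v := compare_star_right he h3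
  have h7 : v * v = 0 := by rw [← h3, mul_assoc, ← mul_assoc e, h4, zero_mul, mul_zero]
  have h8 : star v * star v = 0 := by rw [← star_mul, h7, star_zero]
  have hee := he.isIdempotentElem.eq
  let u : H →L[ℂ] H := v + star v + (1 - e - v * star v)
  have hs : star u = u := by
    simp only [u, star_add, star_sub, star_mul, star_star, star_one, he.isSelfAdjoint.star_eq]
    abel
  have huu : u * u = 1 := by
    have a1 : ∀ y, star v * (v * y) = e * y := fun y => by rw [← mul_assoc, h1]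
    have a2 : ∀ y, v * (v * y) = 0 := fun y => by rw [← mul_assoc, h7, zero_mul]
    have a3 : ∀ y, e * (v * y) = 0 := fun y => by rw [← mul_assoc, h4, zero_mul]
    simp only [u, mul_add, add_mul, mul_sub, sub_mul, mul_one, one_mul, mul_assoc, h1, h3, h4, h5,
      h6, h7, h8, hee, a1, a2, a3, mul_zero]
    abel
  have huM : u ∈ M :=
    add_mem (add_mem hv (star_mem hv)) (sub_mem (sub_mem (one_mem M) heM) (mul_mem hv (star_mem hv)))
  refine ⟨⟨u, huM⟩, Core.unitary_iff.2 ⟨by rw [hs, huu], by rw [hs, huu]⟩, fun ξ => ?_⟩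
  have h9 : e * u = star v * (1 - e) := by
    simp only [u, mul_add, mul_sub, mul_one, ← mul_assoc, h4, h5, h6, hee, zero_mul]
    abel
  change ‖(e * star u) ξ‖ ≤ _
  rw [hs, h9]
  exact hp.star.norm_apply_le (ξ - e ξ)

theorem DixT.shrink {Q : QT M F} (hQ : TrD M Q) {k : ℕ} {Ξ : Fin k → H}
    (hΞ : ∀ y : M, ‖Q.ev y‖ ^ 2 = ∑ i, ‖(y : H →L[ℂ] H) (Ξ i)‖ ^ 2) {b : M} {s : ℝ} (hs : 0 < s)
    (h : DixT Ξ b s) {D : ℝ} (hD : 0 ≤ D) (hb : ‖b‖ ≤ 21 * s + D) :
    ∃ u ∈ unitary M, ‖(2⁻¹ : ℂ) • (b + u * b * star u)‖ ≤ 21 * s + D / 2 := by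
  obtain ⟨e, heM, he, hc, h1, h2, -⟩ := cut M b.2 h.sa (21 * s)
  obtain ⟨z, hz, ⟨v, hv, v1, v2⟩, w, hw, w1, w2⟩ :=
    comparison M he he.one_sub heM (sub_mem (one_mem M) heM)
  have hz1 : 1 - z = 0 := by
    have hc' := hz.one_sub
    generalize 1 - z = c at *
    have hcw : star w = star w * (e * c) := by
      have a1 := (compare_piso (he.one_sub.mul hc'.proj
        (hc'.comm (sub_mem (one_mem M) heM)).symm) w1).2
      have a2 : w * c = w := by rw [← a1, mul_assoc, mul_assoc, hc'.proj.isIdempotentElem.eq]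
      rw [← mul_assoc, compare_star_left he w2, ← hc'.comm (star_mem hw)]
      exact (compare_star_right hc'.proj a2).symm
    have hwp : PIso w := (compare_piso (he.one_sub.mul hc'.proj
        (hc'.comm (sub_mem (one_mem M) heM)).symm) w1).1
    have a1 : ∀ ξ, ‖c ξ - e (c ξ)‖ ^ 2 = ‖w ξ‖ ^ 2 := fun ξ => by
      rw [QTrace.normsq_left w, w1, polar_qf_proj (he.one_sub.mul hc'.proj
        (hc'.comm (sub_mem (one_mem M) heM)).symm)]
      rfl
    have a2 := Gamma_star_sq Q (star ⟨w, hw⟩)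
    rw [star_star, hΞ, hΞ] at a2
    have a3 : ∑ i, ‖star w (Ξ i)‖ ^ 2 ≤ ∑ i, ‖e (c (Ξ i))‖ ^ 2 := sum_le_sum fun i _ => by
      rw [hcw]
      gcongr
      exact hwp.star.norm_apply_le _
    have a4 : ∑ i, ‖c (Ξ i)‖ ^ 2 = ∑ i, ‖e (c (Ξ i))‖ ^ 2 + ∑ i, ‖w (Ξ i)‖ ^ 2 := by
      rw [← sum_add_distrib]
      exact sum_congr rfl fun i _ => by rw [polar_pyth he, a1]
    have a5 : 21 * s * ∑ i, ‖e (c (Ξ i))‖ ^ 2 ≤ 4 * s * ∑ i, ‖c (Ξ i)‖ ^ 2 := by
      refine le_trans ?_ (h.le 1 (one_mem _) c hc')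
      rw [mul_sum]
      refine sum_le_sum fun i _ => (h1 _).trans ?_
      have := polar_split he hc (c (Ξ i))
      have := h.pos (c (Ξ i) - e (c (Ξ i)))
      simp only [OneMemClass.coe_one, star_one, one_apply_eq_self]
      linarith
    have a6 : ∑ i, ‖c (Ξ i)‖ ^ 2 ≤ 0 := by
      simp only [Core.coe_star] at a2
      nlinarith
    rw [← hΞ ⟨c, hc'.mem⟩] at a6
    exact congrArg Subtype.val (hQ.sep (norm_eq_zero.1 (pow_eq_zero_iff two_ne_zero |>.1
      (le_antisymm a6 (sq_nonneg _)))))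
  rw [← sub_eq_zero.1 hz1, mul_one] at v1
  obtain ⟨u, hu, hue⟩ := dix_swap he heM hv v1 v2
  refine ⟨u, hu, norm_le_of_qf (h.step hu).sa (by positivity) fun ξ => ?_⟩
  have h3 : ∀ ζ, qf (b : H →L[ℂ] H) ζ ≤ 21 * s * ‖ζ‖ ^ 2 + D * ‖e ζ‖ ^ 2 := fun ζ => by
    have a1 := (le_abs_self _).trans (abs_qf_le (b : H →L[ℂ] H) (e ζ))
    have a2 : ‖(b : H →L[ℂ] H)‖ * ‖e ζ‖ ^ 2 ≤ (21 * s + D) * ‖e ζ‖ ^ 2 := by gcongr; exact hb
    rw [polar_split he hc, polar_pyth he ζ]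
    linarith [h2 ζ]
  have h4 : ‖star (u : H →L[ℂ] H) ξ‖ ^ 2 = ‖ξ‖ ^ 2 := by
    rw [QTrace.normsq_right, (Core.unitary_iff.1 hu).2, qf_one]
  have h5 := pow_le_pow_left₀ (norm_nonneg _) (hue ξ) 2
  have h6 := h3 (star (u : H →L[ℂ] H) ξ)
  have h7 := polar_pyth he ξ
  rw [abs_of_nonneg ((h.step hu).pos ξ), dix_qf]
  rw [h4] at h6
  nlinarith [h3 ξ]

theorem DixT.small {Q : QT M F} (hQ : TrD M Q) {k : ℕ} {Ξ : Fin k → H}
    (hΞ : ∀ y : M, ‖Q.ev y‖ ^ 2 = ∑ i, ‖(y : H →L[ℂ] H) (Ξ i)‖ ^ 2) {b : M} {s : ℝ} (hs : 0 < s)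
    (h : DixT Ξ b s) : ∃ l : List M, (∀ u ∈ l, u ∈ unitary M) ∧ ‖KR.avg l b‖ ≤ 22 * s := by
  have h1 : ∀ n : ℕ, ∃ l : List M, (∀ u ∈ l, u ∈ unitary M) ∧
      ‖KR.avg l b‖ ≤ 21 * s + ‖b‖ * (1 / 2) ^ n := by
    intro n
    induction n with
    | zero => exact ⟨[], by simp, by simp only [KR.avg]; linarith⟩
    | succ n ih =>
      obtain ⟨l, hl, hn⟩ := ih
      obtain ⟨u, hu, h2⟩ := (h.avg l hl).shrink hQ hΞ hs (by positivity) hn
      exact ⟨u :: l, List.forall_mem_cons.2 ⟨hu, hl⟩, h2.trans_eq (by ring)⟩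
  obtain ⟨n, hn⟩ := exists_pow_lt_of_lt_one (x := s / (‖b‖ + 1)) (y := 1 / 2) (by positivity)
    (by norm_num)
  obtain ⟨l, hl, h2⟩ := h1 n
  rw [lt_div_iff₀ (by positivity)] at hn
  have : (0 : ℝ) ≤ (1 / 2) ^ n := by positivity
  exact ⟨l, hl, by nlinarith⟩

theorem dix {Q : QT M F} (hQ : TrD M Q) (s : Finset (Σ n : ℕ, Fin n → M)) :
    ∃ l : List M, (∀ u ∈ l, u ∈ unitary M) ∧ ∀ x ∈ s,
      ‖avg l (∑ i, x.2 i * star (x.2 i))‖ ≤ 22 * ‖∑ i, star (x.2 i) * x.2 i‖ := by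
  classical
  obtain ⟨k, Ξ, hΞ⟩ := hQ.vec
  induction s using Finset.induction_on with
  | empty => exact ⟨[], by simp, by simp⟩
  | insert y s _ ih =>
    obtain ⟨l, hl, h1⟩ := ih
    have h2 : ∃ l' : List M, (∀ u ∈ l', u ∈ unitary M) ∧
        ‖avg l' (avg l (∑ i, y.2 i * star (y.2 i)))‖ ≤ 22 * ‖∑ i, star (y.2 i) * y.2 i‖ := by
      have h3 := (dix_init hΞ y.2).avg l hl
      rcases (norm_nonneg (∑ i, star (y.2 i) * y.2 i)).eq_or_lt with h0 | h0
      · refine ⟨[], by simp, (dix_norm _ l hl).trans ?_⟩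
        have : ∀ i, y.2 i = 0 := fun i => Subtype.ext (ContinuousLinearMap.ext fun ξ => by
          have a1 := (le_abs_self _).trans
            (abs_qf_le ((∑ j, star (y.2 j) * y.2 j : M) : H →L[ℂ] H) ξ)
          rw [show ‖((∑ j, star (y.2 j) * y.2 j : M) : H →L[ℂ] H)‖ = 0 from h0.symm, zero_mul,
            Core.coe_sum, qf_sum] at a1
          simp only [Core.coe_mul, Core.coe_star, qf_star_mul_self] at a1
          have a2 := (single_le_sum (f := fun j => ‖(y.2 j : H →L[ℂ] H) ξ‖ ^ 2)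
            (fun j _ => sq_nonneg _) (mem_univ i)).trans a1
          exact norm_eq_zero.1 (pow_eq_zero_iff two_ne_zero |>.1 (le_antisymm a2 (sq_nonneg _))))
        simp [this]
      · exact h3.small hQ hΞ h0
    obtain ⟨l', hl', h3⟩ := h2
    refine ⟨l' ++ l, fun u hu => (List.mem_append.1 hu).elim (hl' u) (hl u), fun x hx => ?_⟩
    rw [dix_append]
    rcases mem_insert.1 hx with rfl | hx
    · exact h3
    · exact (dix_norm _ l' hl').trans (h1 x hx)

end Vale.Agent.KR
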