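import Vale.Agent.KR.MpTop

/-!
# Averaging over finite groups in `Mp M`
* `four`: `CStarAlgebra.exists_sum_four_unitary` in the closed star subalgebra `StarSubalgebra.centralizer ℂ S` of `M`.
* `pinch_mem`: `u = 1 - 2 l`, `ψ' = (ψ + tau u ψ)/2`.
* `central_mod`, `modOn_all`: `Minl.all`.
* `twirl_mod`: `γ x = gam ε x + (1 - z)`, `z = ∑ ε a a` (`Gamma_add_compl`, `gam_star_mul`, `gam_sum`, `sgn_orth`, `Gamma_perm_sum`),
  `ψ' = avg of tau (γ x) ψ` (`Inv.avg_mem`), `ψ' y = D⁻¹ ∑ a b, ε b a ψ (ε a b y) + (1 - z) ψ ((1 - z) y)`.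
-/

namespace Vale.Agent.KR

open Vale.Agent.P104 Finset
open scoped InnerProductSpace

variable {H : Type*} [NormedAddCommGroup H] [InnerProductSpace ℂ H] [CompleteSpace H]
  {M : VonNeumannAlgebra H}
variable {F : Type*} [NormedAddCommGroup F] [InnerProductSpace ℂ F]

theorem four (S : Set M) (hS : ∀ s ∈ S, star s ∈ S) {a : M} (ha : ∀ s ∈ S, a * s = s * a) :
    ∃ (u : Fin 4 → UG S) (c : Fin 4 → ℂ), a = ∑ i, c i • (u i).1 ∧ ∀ i, ‖c i‖ ≤ ‖a‖ / 2 := by
  have hc : IsClosed (StarSubalgebra.centralizer ℂ S : Set M) := by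
    rw [StarSubalgebra.coe_centralizer]
    exact Set.isClosed_centralizer _
  have hm : a ∈ StarSubalgebra.centralizer ℂ S :=
    (StarSubalgebra.mem_centralizer_iff ℂ).2 fun s hs => ⟨(ha s hs).symm, (ha _ (hS s hs)).symm⟩
  obtain ⟨u, c, h1, h2⟩ := CStarAlgebra.exists_sum_four_unitary
    (⟨a, hm⟩ : StarSubalgebra.centralizer ℂ S)
  refine ⟨fun i => ⟨(u i).1.1, ⟨congrArg Subtype.val (u i).2.1, congrArg Subtype.val (u i).2.2⟩,
    fun s hs => (((StarSubalgebra.mem_centralizer_iff ℂ).1 (u i).1.2 s hs).1).symm⟩, c, ?_, h2⟩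
  have h3 := congrArg Subtype.val h1
  rw [AddSubmonoidClass.coe_finsetSum] at h3
  exact h3

theorem fixed_iff {ψ : Mp M} :
    (∀ u : UG (∅ : Set M), act ∅ u ψ = ψ) ↔ ∀ a x : M, ψ (a * x) = a * ψ x := by
  refine ⟨fun h a x => ?_, fun h u => Mp.ext fun x => ?_⟩
  · obtain ⟨u, c, h1, -⟩ := four (∅ : Set M) (fun _ h => h.elim) (a := a) fun _ h => h.elim
    have h2 : ∀ i, ψ ((u i).1 * x) = (u i).1 * ψ x := fun i => by
      conv_rhs => rw [← h (u i)]
      rw [act, tau_apply, ← mul_assoc, (u i).2.1.2, one_mul]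
    rw [h1, Finset.sum_mul, Finset.sum_mul, map_sum]
    exact Finset.sum_congr rfl fun i _ => by rw [smul_mul_assoc, smul_mul_assoc, map_smul, h2]
  · rw [act, tau_apply, h, ← mul_assoc, u.2.1.1, one_mul]

theorem pinch_mem {KK : Set (Mp M)} (hK : Inv (act (∅ : Set M)) KK) {l : M}
    (hl : IsStarProjection (l : H →L[ℂ] H)) {ψ : Mp M} (hψ : ψ ∈ KK) :
    ∃ ψ' ∈ KK, ∀ x, ψ' x = l * ψ (l * x) + (1 - l) * ψ ((1 - l) * x) := by
  have h1 : star l = l := Subtype.ext hl.isSelfAdjoint.star_eq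
  have h2 : l * l = l := Subtype.ext hl.isIdempotentElem.eq
  have h3 : star (1 - l - l) = 1 - l - l := by rw [star_sub, star_sub, star_one, h1]
  have h4 : (1 - l - l) * (1 - l - l) = 1 := by
    simp only [mul_sub, sub_mul, one_mul, mul_one, h2]
    abel
  have hu : 1 - l - l ∈ unitary M := ⟨by rw [h3, h4], by rw [h3, h4]⟩
  refine ⟨_, hK.cvx hψ (hK.tau_mem hu hψ) (a := 1 / 2) (b := 1 / 2) (by norm_num) (by norm_num)
    (by norm_num), fun x => ?_⟩
  have e1 : ψ x = ψ (l * x) + ψ ((1 - l) * x) := by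
    rw [← map_add, ← add_mul, add_sub_cancel, one_mul]
  have e2 : ψ ((1 - l - l) * x) = ψ ((1 - l) * x) - ψ (l * x) := by rw [← map_sub, ← sub_mul]
  rw [Mp.add_apply, Mp.rsmul_apply, Mp.rsmul_apply, tau_apply, h3, e2, e1]
  simp only [mul_sub, sub_mul 1 l (ψ _), sub_mul (1 - l) l (ψ _), one_mul]
  push_cast
  module

theorem central_mod {KK : Set (Mp M)} (hK : Minl (act (∅ : Set M)) KK) {z : M}
    (hz : CProj M (z : H →L[ℂ] H)) : ∀ ψ ∈ KK, ∀ x, ψ (z * x) = z * ψ x := by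
  have h2 : z * z = z := Subtype.ext hz.proj.isIdempotentElem.eq
  have hc : ∀ y : M, z * y = y * z := fun y => Subtype.ext (hz.comm y.2)
  have key := hK.all (C := ⋂ x, {ψ : Mp M | 1 * ψ (z * x) = z * ψ x}) ?_
    (isClosed_iInter fun x => isClosed_mod _ _ _ _) (convex_iInter fun x => convex_mod _ _ _ _) ?_
  · intro ψ hψ x
    simpa using Set.mem_iInter.1 (key ψ hψ) x
  · obtain ⟨ψ, hψ⟩ := hK.ne
    obtain ⟨ψ', h3, h4⟩ := pinch_mem hK.toInv hz.proj hψ
    refine ⟨ψ', h3, Set.mem_iInter.2 fun x => ?_⟩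
    simp only [Set.mem_ofPred_eq, h4, one_mul, mul_add, ← mul_assoc, sub_mul 1 z z, mul_sub z 1 z,
      mul_one, h2, sub_self, zero_mul, map_zero, mul_zero]
  · intro u ψ _ h
    refine Set.mem_iInter.2 fun x => ?_
    have h5 : 1 * ψ (z * (u.1 * x)) = z * ψ (u.1 * x) := Set.mem_iInter.1 h (u.1 * x)
    simp only [Set.mem_ofPred_eq, act, tau_apply, one_mul] at h5 ⊢
    rw [← mul_assoc u.1, ← hc, mul_assoc, h5, ← mul_assoc, ← hc, mul_assoc]

theorem twirl_mod {KK : Set (Mp M)} (hK : Inv (act (∅ : Set M)) KK) {I : Type*} [Fintype I]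
    [DecidableEq I] {ε : I → I → M} (hε : MUnits ε) :
    ∃ ψ ∈ KK, ∀ a b x, ψ (ε a b * x) = ε a b * ψ x := by
  obtain ⟨ψ, hψ⟩ := hK.ne
  set z : M := ∑ a, ε a a with hz
  have hzl : ∀ a b, z * ε a b = ε a b := fun a b => by
    simp only [hz, Finset.sum_mul, hε.mul, Finset.sum_ite_eq', Finset.mem_univ, if_true]
  have hzr : ∀ a b, ε a b * z = ε a b := fun a b => by
    simp only [hz, Finset.mul_sum, hε.mul, Finset.sum_ite_eq, Finset.mem_univ, if_true]
  have hzs : star z = z := by simp only [hz, star_sum, hε.star_eq]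
  obtain ⟨hu, -⟩ := Gamma_add_compl (gam ε) z hzs
    (by conv_lhs => rw [hz, Finset.sum_mul, ← hz]
        simp only [hzr]
        rfl)
    (gam_star_mul hε) (gam_mul_star hε)
    (fun x => by simp only [gam, Finset.sum_mul, smul_mul_assoc, hzr])
    (fun x => by simp only [gam, Finset.mul_sum, mul_smul_comm, hzl]) (gam_sum ε)
  refine ⟨_, hK.avg_mem (fun g => tau (gam ε g + (1 - z)) ψ) fun g => hK.tau_mem (hu g) hψ,
    fun c d x => ?_⟩
  have e1 : ∀ y, ∑ g, tau (gam ε g + (1 - z)) ψ y = ∑ g, star (gam ε g) * ψ (gam ε g * y) +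
      Fintype.card (Equiv.Perm I × (I → Bool)) • ((1 - z) * ψ ((1 - z) * y)) := fun y => by
    simp only [tau_apply, star_add, star_sub, star_one, hzs, add_mul, map_add, mul_add,
      Finset.sum_add_distrib]
    rw [← Finset.mul_sum, ← map_sum, ← Finset.sum_mul, ← Finset.sum_mul, ← star_sum, gam_sum]
    simp
  have e2 : ∀ y, Fintype.card I • ∑ g, star (gam ε g) * ψ (gam ε g * y) =
      (Fintype.card (I → Bool) : ℂ) • Fintype.card (Equiv.Perm I) •
        ∑ b, ∑ a, ε b a * ψ (ε a b * y) := fun y => by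
    have h1 : ∀ π : Equiv.Perm I, ∑ g : I → Bool, star (gam ε (π, g)) * ψ (gam ε (π, g) * y) =
        (Fintype.card (I → Bool) : ℂ) • ∑ b, ε b (π b) * ψ (ε (π b) b * y) := fun π => by
      have h2 := Gamma_sign_sandwich (fun b => ε b (π b)) (fun b => ψ (ε (π b) b * y)) 1
      simp only [mul_one] at h2
      rw [← h2]
      refine Finset.sum_congr rfl fun g _ => ?_
      rw [Gamma_star_gam hε]
      simp only [gam, Finset.sum_mul _ _ y, map_sum, smul_mul_assoc, map_smul]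
    rw [Fintype.sum_prod_type]
    simp only [h1]
    rw [← Finset.smul_sum, smul_comm, Finset.sum_comm, Finset.smul_sum, Finset.smul_sum (r :=
      Fintype.card (Equiv.Perm I))]
    exact congrArg _ (Finset.sum_congr rfl fun b _ =>
      Gamma_perm_sum (fun a => ε b a * ψ (ε a b * y)) b)
  have e3 : ∑ b, ∑ a, ε b a * ψ (ε a b * (ε c d * x)) = ∑ a, ε c a * ψ (ε a d * x) := by
    rw [Finset.sum_eq_single c]
    · exact Finset.sum_congr rfl fun a _ => by rw [← mul_assoc, hε.mul, if_pos rfl]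
    · intro b _ hb
      exact Finset.sum_eq_zero fun a _ => by
        rw [← mul_assoc, hε.mul, if_neg hb, zero_mul, map_zero, mul_zero]
    · simp
  have e4 : ε c d * ∑ b, ∑ a, ε b a * ψ (ε a b * x) = ∑ a, ε c a * ψ (ε a d * x) := by
    rw [Finset.mul_sum, Finset.sum_eq_single d]
    · rw [Finset.mul_sum]
      exact Finset.sum_congr rfl fun a _ => by rw [← mul_assoc, hε.mul, if_pos rfl]
    · intro b _ hb
      rw [Finset.mul_sum]
      exact Finset.sum_eq_zero fun a _ => by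
        rw [← mul_assoc, hε.mul, if_neg (Ne.symm hb), zero_mul]
    · simp
  have e5 : ∑ g, star (gam ε g) * ψ (gam ε g * (ε c d * x)) =
      ε c d * ∑ g, star (gam ε g) * ψ (gam ε g * x) := by
    have : Nonempty I := ⟨c⟩
    have hD : (Fintype.card I : ℂ) ≠ 0 := by exact_mod_cast Fintype.card_ne_zero
    refine smul_right_injective M hD ?_
    simp only [Nat.cast_smul_eq_nsmul]
    rw [← mul_smul_comm, e2, e2, e3, mul_smul_comm, mul_smul_comm, e4]
  have e6 : (1 - z) * (ε c d * x) = 0 := by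
    rw [← mul_assoc, sub_mul, one_mul, hzl, sub_self, zero_mul]
  have e7 : ε c d * (1 - z) = 0 := by rw [mul_sub, mul_one, hzr, sub_self]
  rw [Mp.rsmul_apply, Mp.rsmul_apply, Mp.sum_apply, Mp.sum_apply, e1, e1, e5, e6, mul_smul_comm,
    mul_add, mul_smul_comm, ← mul_assoc (ε c d) (1 - z), e7, map_zero, mul_zero, zero_mul]

theorem modOn_all {KK : Set (Mp M)} (hK : Minl (act (∅ : Set M)) KK) {z : H →L[ℂ] H}
    (hz : CProj M z) {ψ₀ : Mp M} (h₀ : ψ₀ ∈ KK) (h : ModOn z ψ₀) : ∀ ψ ∈ KK, ModOn z ψ := by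
  let w : M := ⟨z, hz.mem⟩
  have hc : ∀ y : M, w * y = y * w := fun y => Subtype.ext (hz.comm y.2)
  have hiff : ∀ ψ : Mp M, ModOn z ψ ↔
      ψ ∈ ⋂ a, ⋂ x, {ψ : Mp M | w * ψ (a * x) = (w * a) * ψ x} := fun ψ => by
    simp only [Set.mem_iInter, Set.mem_ofPred_eq, mul_assoc]
    exact forall₂_congr fun a x => (Subtype.ext_iff (a1 := w * ψ (a * x))
      (a2 := w * (a * ψ x))).symm
  simp only [hiff] at h ⊢
  refine hK.all ⟨ψ₀, h₀, h⟩
    (isClosed_iInter fun _ => isClosed_iInter fun _ => isClosed_mod _ _ _ _)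
    (convex_iInter fun _ => convex_iInter fun _ => convex_mod _ _ _ _) fun u ψ _ h1 => ?_
  simp only [Set.mem_iInter, Set.mem_ofPred_eq, act, tau_apply] at h1 ⊢
  intro a x
  have e : ∀ y : M, w * (star u.1 * ψ (u.1 * y)) = w * ψ y := fun y => by
    rw [← mul_assoc, hc, mul_assoc, h1, hc, mul_assoc, ← mul_assoc, u.2.1.1, one_mul]
  rw [e, h1, hc a, mul_assoc, mul_assoc, e]

end Vale.Agent.KR
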