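import Vale.Agent.KR.Defs

/-!
# Small projections (notes, section 2)
* `join`: `polar` of `y = (1 - l) x`; `(1 - a a*) y y* (1 - a a*) = 0`.
* `exists_split`: maximal orthogonal family of nonzero central `PropInf` projections (`exists_maximal_pairwise`),
  `compare_sum_propInf`; the sum `Q` is central since `(1 - Q) x q = 0` gives `(1 - Q) x Q = 0`; `pi_central`.
* `exists_isos`: `t^i s`.
* `sp_fin`: copy the proof of `covering` (`P104/Compare.lean`) with `e` in place of `z₀`: maximal family `v* v = f`, `e v = v`, finite by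
  `seq_zero`, `comparison (e - ∑ v v*) f`; `w = (v z)*` and the last piece `a`; `∑ w* w = e z`.
* `cover`: induction with `QQ` and `join`: `a = a p`, so `q + a a*` is in `QQ`. `QQ.sp`: for `f ≤ q`, `f c i ≠ 0` for some `i`, `connect` gives
  `v` with `f v = v = v p`; apply `SP` to `v* v ≤ p`; new family `v w j (c i)* q` (norm `≤ 1` as `c i (c i)* ≤ q`).
-/

namespace Vale.Agent.KR

open Vale.Agent.P104 Finset
open scoped InnerProductSpace

variable {H : Type*} [NormedAddCommGroup H] [InnerProductSpace ℂ H] [CompleteSpace H]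
  {M : VonNeumannAlgebra H}

theorem join (M : VonNeumannAlgebra H) {l x : H →L[ℂ] H} (hl : IsStarProjection l) (hlM : l ∈ M)
    (hx : x ∈ M) : ∃ a ∈ M, PIso a ∧ l * a = 0 ∧ (l + a * star a) * x = x ∧
      ∀ y, x * y = 0 → a * y = 0 := by
  obtain ⟨a, haM, ha, h1, -, h2, h3⟩ := polar M (mul_mem (sub_mem (one_mem M) hlM) hx)
  have hla : l * a = 0 := h2 l (by rw [← mul_assoc, hl.mul_one_sub_self, zero_mul])
  have hal : star a * l = 0 := by
    simpa only [star_mul, hl.isSelfAdjoint.star_eq, star_zero] using congrArg star hla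
  have hP : (1 - a * star a) * a = 0 := by rw [sub_mul, one_mul, ha, sub_self]
  have h4 : star ((1 - a * star a) * ((1 - l) * x)) = 0 := eq_zero_of_star_mul_self (by
    rw [star_star, star_mul, mul_assoc, ← mul_assoc ((1 - l) * x), ← h1, ← mul_assoc,
      ← mul_assoc, ← mul_assoc, hP, zero_mul, zero_mul, zero_mul])
  rw [star_eq_zero, sub_mul, one_mul, mul_assoc a, ← mul_assoc (star a), mul_sub (star a), hal,
    mul_one, sub_zero, sub_eq_zero] at h4
  refine ⟨a, haM, ha, hla, ?_, fun y hy => h3 y (by rw [mul_assoc, hy, mul_zero])⟩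
  rw [add_mul, mul_assoc, ← h4, sub_mul, one_mul, add_sub_cancel]

theorem exists_split (M : VonNeumannAlgebra H) :
    ∃ z, CProj M z ∧ PropInf M z ∧ NoPI M (1 - z) := by
  obtain ⟨F, hF, hFo, hmax⟩ := exists_maximal_pairwise {q | CProj M q ∧ PropInf M q}
    (fun a b => a * b = 0 ∧ b * a = 0) (fun a b h => h.symm)
  obtain ⟨Q, hQ, h1, h2, h3⟩ := compare_sum_propInf M (fun i : F => (i : H →L[ℂ] H))
    (fun i => (hF i.2).2) (fun i j h => (hFo i.2 j.2 (Subtype.coe_injective.ne h)).1)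
  have k : ∀ x ∈ M, x * Q = Q * x * Q := fun x hx => by
    have := h3 ((1 - Q) * x) fun i => by
      rw [mul_assoc, ← (hF i.2).1.comm hx, ← mul_assoc, sub_mul, one_mul, h1, sub_self, zero_mul]
    rwa [sub_mul, one_mul, sub_mul, sub_eq_zero] at this
  have hc : CProj M Q := ⟨hQ.1, compare_propInf_mem hQ,
    VonNeumannAlgebra.mem_commutant_iff.2 fun x hx => by
      have := congrArg star (k _ (star_mem hx))
      simp only [star_mul, star_star, hQ.1.isSelfAdjoint.star_eq] at this
      exact (k x hx).trans ((mul_assoc _ _ _).trans this.symm)⟩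
  refine ⟨Q, hc, hQ, fun p hp hz => by_contra fun hp0 => ?_⟩
  obtain ⟨z, hz1, hz0, hz2, hz3⟩ := pi_central M hc.one_sub hp hp0 hz
  have hb : ∀ b ∈ F, b * z = 0 := fun b hb => by
    rw [← hz2, ← mul_assoc, mul_sub, mul_one, h2 ⟨b, hb⟩, sub_self, zero_mul]
  exact hz0 (hz1.proj.isIdempotentElem.eq.symm.trans (hb z (hmax z ⟨hz1, hz3⟩ fun b hb' =>
    ⟨by rw [hz1.comm (hF hb').1.mem, hb b hb'], hb b hb'⟩)))

theorem exists_isos {z : H →L[ℂ] H} (hz : PropInf M z) (N : ℕ) :
    ∃ s : Fin N → M, (∀ i j, star (s i : H →L[ℂ] H) * s j = if i = j then z else 0) ∧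
      ∀ i, z * s i = s i := by
  obtain ⟨-, s, hs, t, ht, h1, h2, h3, h4, h5⟩ := hz
  have h3' : star t * s = 0 := by simpa using congrArg star h3
  have k1 : ∀ j : ℕ, z * (t ^ j * s) = t ^ j * s := fun j => by
    cases j with
    | zero => rw [pow_zero, one_mul, h4]
    | succ j => rw [pow_succ', ← mul_assoc, ← mul_assoc, h5]
  have k2 : ∀ i j : ℕ, star (t ^ i * s) * (t ^ j * s) = if i = j then z else 0 := fun i => by
    induction i with
    | zero =>
      intro j
      cases j with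
      | zero => simpa using h1
      | succ j =>
        rw [pow_zero, one_mul, pow_succ', ← mul_assoc, ← mul_assoc, h3, zero_mul, zero_mul,
          if_neg (Nat.succ_ne_zero j).symm]
    | succ i ih =>
      intro j
      rw [pow_succ', mul_assoc, star_mul, mul_assoc]
      cases j with
      | zero => rw [pow_zero, one_mul, h3', mul_zero, if_neg (Nat.succ_ne_zero i)]
      | succ j =>
        rw [pow_succ', mul_assoc t, ← mul_assoc (star t), h2, k1, ih]
        simp only [Nat.add_right_cancel_iff]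
  exact ⟨fun i => ⟨t ^ (i : ℕ) * s, mul_mem (pow_mem ht _) hs⟩,
    fun i j => by simpa only [Fin.ext_iff] using k2 i j, fun i => k1 i⟩

theorem small_fin {I : Type*} [Fintype I] {f q z : H →L[ℂ] H} (w : I → H →L[ℂ] H)
    (h1 : ∀ j, w j ∈ M) (h2 : ∀ j, ‖w j‖ ≤ 1) (h3 : ∀ j, f * w j = w j) (h4 : ∀ j, w j * q = w j)
    (h5 : ∀ ζ, q ζ = ζ → z ζ = ζ → ‖ζ‖ ^ 2 ≤ ∑ j, ‖w j ζ‖ ^ 2) :
    ∃ (n : ℕ) (w : Fin n → H →L[ℂ] H), (∀ j, w j ∈ M) ∧ (∀ j, ‖w j‖ ≤ 1) ∧ (∀ j, f * w j = w j) ∧
      (∀ j, w j * q = w j) ∧ ∀ ζ, q ζ = ζ → z ζ = ζ → ‖ζ‖ ^ 2 ≤ ∑ j, ‖w j ζ‖ ^ 2 :=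
  ⟨_, fun j => w ((Fintype.equivFin I).symm j), fun _ => h1 _, fun _ => h2 _, fun _ => h3 _,
    fun _ => h4 _, fun ζ a b => (h5 ζ a b).trans_eq
      ((Fintype.equivFin I).symm.sum_comp fun j => ‖w j ζ‖ ^ 2).symm⟩

theorem small_qf {I : Type*} [Fintype I] (c : I → H →L[ℂ] H) (ζ : H) :
    ∑ i, ‖star (c i) ζ‖ ^ 2 = qf (∑ i, c i * star (c i)) ζ := by
  simp only [qf_sum, ← qf_star_mul_self, star_star]

theorem sp_fin {e : H →L[ℂ] H} (he : IsStarProjection e) (heM : e ∈ M) (hN : NoPI M e) :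
    SP M e := by
  classical
  intro p hpM hp hp0 hpz
  obtain ⟨F, hF, hFo, hmax⟩ := exists_maximal_pairwise
    {v : H →L[ℂ] H | v ∈ M ∧ star v * v = p ∧ e * v = v}
    (fun a b => star a * b = 0) (fun a b h => by simpa using congrArg star h)
  have hfin : F.Finite := by
    by_contra hinf
    let n := Set.Infinite.natEmbedding F hinf
    refine hp0 (seq_zero M hN hp (fun i => (n i : H →L[ℂ] H)) (fun i => (hF (n i).2).1)
      (fun i => (hF (n i).2).2.2) fun i j => ?_)
    split_ifs with h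
    · rw [h]; exact (hF (n j).2).2.1
    · exact hFo (n i).2 (n j).2 (Subtype.coe_injective.ne (n.injective.ne h))
  have := hfin.fintype
  have hP := fun v : F => compare_piso hp (hF v.2).2.1
  set E : H →L[ℂ] H := ∑ v : F, (v : H →L[ℂ] H) * star (v : H →L[ℂ] H) with hE
  have hvE : ∀ v : F, star (v : H →L[ℂ] H) * E = star (v : H →L[ℂ] H) := by
    intro v
    rw [hE, Finset.mul_sum, Finset.sum_eq_single v]
    · have := (hP v).1.star
      unfold PIso at this
      rwa [star_star, mul_assoc] at this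
    · intro u _ hu
      rw [← mul_assoc, hFo v.2 u.2 (Subtype.coe_injective.ne hu.symm), zero_mul]
    · simp
  have hEp : IsStarProjection E := by
    refine ⟨?_, ?_⟩
    · show E * E = E
      conv_lhs => rw [hE, Finset.sum_mul]
      simp only [mul_assoc, ← hE, hvE]
    · show star E = E
      simp only [hE, star_sum, star_mul, star_star]
  have hEM : E ∈ M := sum_mem fun v _ => mul_mem (hF v.2).1 (star_mem (hF v.2).1)
  have hzE : e * E = E := by
    rw [hE, Finset.mul_sum]
    exact Finset.sum_congr rfl fun v _ => by rw [← mul_assoc, (hF v.2).2.2]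
  have hf : IsStarProjection (e - E) := compare_sub he hEp hzE
  have hfM : e - E ∈ M := sub_mem heM hEM
  have hef : e * (e - E) = e - E := by rw [mul_sub, he.isIdempotentElem.eq, hzE]
  obtain ⟨z, hz, ⟨a, haM, ha1, ha2⟩, w, hwM, hw1, hw2⟩ := comparison M hf hp hfM hpM
  have ha : PIso a := (compare_piso (hf.mul hz.proj (hz.comm hfM).symm) ha1).1
  refine ⟨z, hz, fun h => ?_, small_fin (I := Option F)
    (fun o => star (o.elim (star a) fun v => (v : H →L[ℂ] H))) ?_ ?_ ?_ ?_ fun ζ h1 h2 => ?_⟩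
  · rw [mul_sub, mul_one, h, sub_zero] at hw1
    have b1 : ∀ v ∈ F, star v * w = 0 := fun v hv => by
      rw [← hw2, ← mul_assoc, mul_sub, hvE ⟨v, hv⟩, compare_star_left he (hF hv).2.2, sub_self,
        zero_mul]
    have b2 : w ∈ F := hmax w ⟨hwM, hw1, by rw [← hw2, ← mul_assoc, hef]⟩
      fun v hv => by simpa using congrArg star (b1 v hv)
    exact hp0 (hw1.symm.trans (b1 w b2))
  · rintro (_ | v)
    exacts [star_mem (star_mem haM), star_mem (hF v.2).1]
  · rintro (_ | v)
    exacts [ha.star.star.norm_le, (hP v).1.star.norm_le]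
  · rintro (_ | v)
    exacts [compare_star_right hp (compare_star_left hp ha2), compare_star_right hp (hP v).2]
  · rintro (_ | v)
    · refine compare_star_left he ?_
      have b := ha.star
      unfold PIso at b
      rw [star_star, ha1] at b
      show e * star a = star a
      rw [← b, ← mul_assoc, ← mul_assoc, hef]
    · exact compare_star_left he (hF v.2).2.2
  · rw [small_qf, Fintype.sum_option]
    show _ ≤ qf (star a * star (star a) + E) ζ
    rw [star_star, ha1, ← qf_one]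
    simp [qf, h1, h2]

theorem QQ.sp {p q : H →L[ℂ] H} (hp : IsStarProjection p) (hpM : p ∈ M) (h : SP M p)
    (hq : QQ M p q) : SP M q := by
  obtain ⟨hq, n, c, hc, hcp, hs⟩ := hq
  intro f hfM hf hf0 hqf
  have hfq : f * q = f := by
    simpa only [hf.isSelfAdjoint.star_eq] using compare_star_left hq hqf
  obtain ⟨i, hi⟩ : ∃ i, f * c i * p ≠ 0 := by
    by_contra k
    simp only [not_exists, not_not, mul_assoc, hcp] at k
    rw [← hs, Finset.mul_sum] at hfq
    simp only [← mul_assoc, k, zero_mul, Finset.sum_const_zero] at hfq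
    exact hf0 hfq.symm
  obtain ⟨v, hvM, hv, hv0, hfv, hvp⟩ := connect M hp hf hpM hfM (hc i) hi
  obtain ⟨z, hz, hz0, m, w, w1, w2, w3, -, w5⟩ := h _ (mul_mem (star_mem hvM) hvM) hv.proj_left
    (fun k => hv0 (eq_zero_of_star_mul_self k)) (by rw [← mul_assoc, compare_star_right hp hvp])
  have k1 : ∀ ζ, ∑ i, ‖star (c i) ζ‖ ^ 2 = ‖q ζ‖ ^ 2 := fun ζ => by
    rw [small_qf, hs, polar_qf_proj hq]
  have k2 : ∀ i, ‖star (c i)‖ ≤ 1 := fun i =>
    ContinuousLinearMap.opNorm_le_bound _ zero_le_one fun ζ => by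
      rw [one_mul]
      exact (sq_le_sq₀ (norm_nonneg _) (norm_nonneg _)).1
        ((Finset.single_le_sum (f := fun i => ‖star (c i) ζ‖ ^ 2) (fun _ _ => sq_nonneg _)
          (mem_univ i)).trans (k1 ζ).le) |>.trans ((PIso.of_proj hq).norm_apply_le ζ)
  refine ⟨z, hz, fun k => hz0 ?_, small_fin (I := Fin n × Fin m)
    (fun j => v * w j.2 * star (c j.1) * q) (fun j => ?_) (fun j => ?_) (fun j => ?_)
    (fun j => ?_) fun ζ h1 h2 => ?_⟩
  · rw [mul_assoc, ← hz.comm hvM, ← hfv, ← mul_assoc z, hz.comm hfM, k, zero_mul, mul_zero]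
  · exact mul_mem (mul_mem (mul_mem hvM (w1 _)) (star_mem (hc _)))
      (hs ▸ sum_mem fun i _ => mul_mem (hc i) (star_mem (hc i)))
  · exact (norm_mul_le _ _).trans (mul_le_one₀ ((norm_mul_le _ _).trans (mul_le_one₀
      ((norm_mul_le _ _).trans (mul_le_one₀ hv.norm_le (norm_nonneg _) (w2 _))) (norm_nonneg _)
      (k2 _))) (norm_nonneg _) (PIso.of_proj hq).norm_le)
  · simp only [← mul_assoc, hfv]
  · rw [mul_assoc _ q, hq.isIdempotentElem.eq]
  · rw [Fintype.sum_prod_type, ← h1, ← k1]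
    refine Finset.sum_le_sum fun i _ => (w5 _ ?_ ?_).trans_eq (Finset.sum_congr rfl fun j _ => ?_)
    · rw [← mul_apply_eq_comp, compare_star_right hp (hcp i)]
    · rw [← mul_apply_eq_comp, hz.comm (star_mem (hc i)), mul_apply_eq_comp, h2]
    · simp only [mul_apply_eq_comp, h1]
      rw [← qf_star_mul_self, ← mul_apply_eq_comp v, ← qf_star_mul_self, star_mul, mul_assoc,
        ← mul_assoc (star v), w3]

theorem cover {p : H →L[ℂ] H} (hp : IsStarProjection p) (hpM : p ∈ M) (h : SP M p) {I : Type*}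
    (s : Finset I) (x : I → H →L[ℂ] H) (hx : ∀ i, x i ∈ M) (hxp : ∀ i, x i * p = x i) :
    ∃ q ∈ M, IsStarProjection q ∧ SP M q ∧ (∀ i ∈ s, q * x i = x i) ∧
      ∀ z, CProj M z → z * p = p → z * q = q := by
  classical
  obtain ⟨q, hq, h1⟩ : ∃ q, QQ M p q ∧ ∀ i ∈ s, q * x i = x i := by
    induction s using Finset.induction_on with
    | empty => exact ⟨0, ⟨IsStarProjection.zero _, 0, Fin.elim0, fun i => i.elim0,
        fun i => i.elim0, Fin.sum_univ_zero _⟩, by simp⟩
    | insert k s _ ih =>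
      obtain ⟨q, ⟨hq, n, c, hc, hcp, hs⟩, h1⟩ := ih
      obtain ⟨a, haM, ha, h2, h3, h4⟩ := join M hq
        (hs ▸ sum_mem fun i _ => mul_mem (hc i) (star_mem (hc i))) (hx k)
      have h5 := h4 (1 - p) (by rw [mul_sub, mul_one, hxp, sub_self])
      rw [mul_sub, mul_one, sub_eq_zero] at h5
      have h6 : star a * q = 0 := by
        simpa only [star_mul, hq.isSelfAdjoint.star_eq, star_zero] using congrArg star h2
      refine ⟨q + a * star a, ⟨hq.add ha.proj_right (by rw [← mul_assoc, h2, zero_mul]), n + 1,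
        Fin.cons a c, fun i => Fin.cases haM hc i, fun i => Fin.cases h5.symm hcp i, ?_⟩,
        fun i hi => ?_⟩
      · simp only [Fin.sum_univ_succ, Fin.cons_zero, Fin.cons_succ, hs, add_comm]
      · rcases Finset.mem_insert.1 hi with rfl | hi
        · exact h3
        · rw [← h1 i hi, ← mul_assoc, add_mul, hq.isIdempotentElem.eq, mul_assoc, h6, mul_zero,
            add_zero]
  have h2 := hq.sp hp hpM h
  obtain ⟨hq, n, c, hc, hcp, hs⟩ := hq
  refine ⟨q, hs ▸ sum_mem fun i _ => mul_mem (hc i) (star_mem (hc i)), hq, h2, h1,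
    fun z hz hzp => ?_⟩
  rw [← hs, Finset.mul_sum]
  refine Finset.sum_congr rfl fun i _ => ?_
  rw [← mul_assoc, ← hcp i, ← mul_assoc z, hz.comm (hc i), mul_assoc (c i), hzp]

end Vale.Agent.KR
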