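import Vale.Agent.KR.Defs

/-!
# The kernel (notes, section 1)
* `exists_ker`: `n` levels, `J = 2^n`, `c j = ∑ l ∈ range n, if j < 2^l then (2^l)⁻¹ else 0`, `Λ = n`. For `|z| = 1`, `L = 2^l`,
  `A = L⁻¹ ∑ j<L, z^(j+1)`: `|A - conj A| ≤ 2 min(y, 2/y)`, `y = L |1 - z|` (first: `|A - conj A| ≤ 2|A - 1|`, `|z^j - 1| ≤ j|z - 1|`;
  second: `(1 - z) ∑ z^(j+1) = z - z^(L+1)`). `min(y,2/y) ≤ 10 (h(2y) - h y)`, `h y = y/(1+y)`; telescope. `z = 1` is trivial.
* `Ker.unitary`: `cfc` of the normal element `u`, `norm_cfc_le`, `unitary.spectrum_subset_circle`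
  (or Gelfand characters; any proof is fine).
* `Ker.toep`: average over roots of unity (`roots_orth` in `P104/Roots.lean`, order `N > 2 (max index + J)`): with
  `b θ = ∑ i ∈ s, ω^(θ i) β i`, `P θ = symbol at ω^θ`, the vector `P θ • b θ = ∑ k ω^(θ k) γ k` after a shift by `ω^(θ J)`,
  and Parseval twice. Alternatively apply `Ker.unitary` to the cyclic shift (for this one may first pass to the completion or to
  the finite dimensional span of the `β i`).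
-/

namespace Vale.Agent.KR

open Vale.Agent.P104 Finset
open scoped InnerProductSpace

theorem ker_pow_sub {z : ℂ} (hz : ‖z‖ = 1) (j : ℕ) : ‖z ^ j - 1‖ ≤ j * ‖z - 1‖ := by
  induction j with
  | zero => simp
  | succ j ih =>
    have : z ^ (j + 1) - 1 = z * (z ^ j - 1) + (z - 1) := by ring
    rw [this]
    refine (norm_add_le _ _).trans ?_
    rw [norm_mul, hz]
    push_cast
    linarith

theorem ker_geom {z : ℂ} (hz : ‖z‖ = 1) (L : ℕ) :
    ‖z - 1‖ * ‖∑ j ∈ range L, z ^ (j + 1)‖ ≤ 2 := by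
  have : (z - 1) * ∑ j ∈ range L, z ^ (j + 1) = z ^ (L + 1) - z := by
    simp only [pow_succ' z]
    rw [← mul_sum, mul_left_comm, mul_geom_sum]
    ring
  rw [← norm_mul, this]
  refine (norm_sub_le _ _).trans ?_
  rw [norm_pow, hz]
  norm_num

theorem ker_level {z : ℂ} (hz : ‖z‖ = 1) {L : ℕ} (hL : 0 < L) :
    ‖(L : ℂ)⁻¹ * ∑ j ∈ range L, (z ^ (j + 1) - (starRingEnd ℂ) z ^ (j + 1))‖ ≤
      20 * (2 * (L * ‖z - 1‖) / (1 + 2 * (L * ‖z - 1‖)) - L * ‖z - 1‖ / (1 + L * ‖z - 1‖)) := by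
  have hL' : (0 : ℝ) < L := by exact_mod_cast hL
  have hz' : ‖(starRingEnd ℂ) z‖ = 1 := by rw [Complex.norm_conj, hz]
  have ht : ‖(starRingEnd ℂ) z - 1‖ = ‖z - 1‖ := by
    rw [← Complex.norm_conj (z - 1), map_sub, map_one]
  set t := ‖z - 1‖ with htd
  have ht0 : 0 ≤ t := norm_nonneg _
  set S := ∑ j ∈ range L, (z ^ (j + 1) - (starRingEnd ℂ) z ^ (j + 1)) with hS
  have h1 : ‖S‖ ≤ L * (2 * (L * t)) := by
    refine (norm_sum_le _ _).trans ?_
    have : ∀ j ∈ range L, ‖z ^ (j + 1) - (starRingEnd ℂ) z ^ (j + 1)‖ ≤ 2 * (L * t) := by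
      intro j hj
      have hj' : ((j + 1 : ℕ) : ℝ) ≤ L := by exact_mod_cast mem_range.1 hj
      have e1 := ker_pow_sub hz (j + 1)
      have e2 := ker_pow_sub hz' (j + 1)
      rw [ht] at e2
      have e3 := norm_sub_le_norm_sub_add_norm_sub (z ^ (j + 1)) 1 ((starRingEnd ℂ) z ^ (j + 1))
      rw [norm_sub_rev 1] at e3
      have e4 := mul_le_mul_of_nonneg_right hj' ht0
      linarith
    refine (sum_le_sum this).trans_eq ?_
    simp
  have h2 : t * ‖S‖ ≤ 4 := by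
    have e1 := ker_geom hz L
    have e2 := ker_geom hz' L
    rw [ht] at e2
    have e3 := mul_le_mul_of_nonneg_left (norm_sub_le (∑ j ∈ range L, z ^ (j + 1))
      (∑ j ∈ range L, (starRingEnd ℂ) z ^ (j + 1))) ht0
    rw [hS, sum_sub_distrib]
    linarith
  rw [norm_mul, norm_inv, Complex.norm_natCast]
  set a := (L : ℝ)⁻¹ * ‖S‖ with ha
  set y := L * t with hy
  have hy0 : 0 ≤ y := by positivity
  have ha0 : 0 ≤ a := by positivity
  have h3 : a ≤ 2 * y := by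
    rw [ha, inv_mul_le_iff₀ hL']
    exact h1
  have h4 : y * a ≤ 4 := by
    have : y * a = t * ‖S‖ := by
      rw [ha, hy]
      field_simp
    rwa [this]
  have h5 : a ≤ 3 := by nlinarith
  have h6 : 2 * y / (1 + 2 * y) - y / (1 + y) = y / ((1 + 2 * y) * (1 + y)) := by
    field_simp
    ring
  rw [h6, ← mul_div_assoc, le_div_iff₀ (by positivity)]
  nlinarith [mul_le_mul_of_nonneg_left h4 hy0, mul_le_mul_of_nonneg_left h5 hy0]

theorem exists_ker (Λ₀ : ℝ) : ∃ J c Λ, Ker J c Λ ∧ Λ₀ ≤ Λ ∧ 0 < Λ := by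
  set n := ⌈Λ₀⌉₊ + 1 with hn
  let c : ℕ → ℝ := fun j => ∑ l ∈ range n, if j < 2 ^ l then ((2 : ℝ) ^ l)⁻¹ else 0
  have hc : ∀ g : ℕ → ℂ, ∑ j ∈ range (2 ^ n), (c j : ℂ) * g j =
      ∑ l ∈ range n, ((2 : ℂ) ^ l)⁻¹ * ∑ j ∈ range (2 ^ l), g j := by
    intro g
    simp only [c, Complex.ofReal_sum, sum_mul]
    rw [sum_comm]
    refine sum_congr rfl fun l hl => ?_
    have hl' : 2 ^ l ≤ 2 ^ n := Nat.pow_le_pow_right two_pos (mem_range.1 hl).le
    rw [mul_sum, ← sum_subset (range_mono hl')]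
    · refine sum_congr rfl fun j hj => ?_
      rw [if_pos (mem_range.1 hj)]
      push_cast
      rfl
    · intro j _ hj
      rw [if_neg (by simpa using hj)]
      simp
  refine ⟨2 ^ n, c, n, ⟨by positivity, fun j => sum_nonneg fun l _ => ?_, fun j hj => ?_, ?_,
    fun z hz => ?_⟩, ?_, ?_⟩
  · split_ifs <;> positivity
  · refine sum_eq_zero fun l hl => if_neg ?_
    have : 2 ^ l ≤ 2 ^ n := Nat.pow_le_pow_right two_pos (mem_range.1 hl).le
    omega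
  · apply Complex.ofReal_injective
    have := hc fun _ => 1
    simp only [mul_one, sum_const, card_range, nsmul_eq_mul, Nat.cast_pow, Nat.cast_ofNat] at this
    rw [Complex.ofReal_sum, this, sum_congr rfl fun l _ => inv_mul_cancel₀ (pow_ne_zero l two_ne_zero)]
    simp
  · rw [hc]
    refine (norm_sum_le _ _).trans ?_
    set t := ‖z - 1‖ with ht
    have ht0 : 0 ≤ t := norm_nonneg _
    let h : ℕ → ℝ := fun l => 2 ^ l * t / (1 + 2 ^ l * t)
    have h1 : ∀ l ∈ range n, ‖((2 : ℂ) ^ l)⁻¹ * ∑ j ∈ range (2 ^ l),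
        (z ^ (j + 1) - (starRingEnd ℂ) z ^ (j + 1))‖ ≤ 20 * (h (l + 1) - h l) := by
      intro l _
      have := ker_level hz (L := 2 ^ l) (by positivity)
      rw [← ht] at this
      push_cast at this
      simp only [h]
      rw [pow_succ (2 : ℝ) l, mul_comm ((2 : ℝ) ^ l) 2, mul_assoc]
      exact this
    refine (sum_le_sum h1).trans ?_
    rw [← mul_sum, sum_range_sub]
    have h2 : h n ≤ 1 := by
      simp only [h]
      rw [div_le_one (by positivity)]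
      linarith
    have h3 : 0 ≤ h 0 := by positivity
    linarith
  · rw [hn]
    push_cast
    linarith [Nat.le_ceil Λ₀]
  · rw [hn]
    positivity

theorem Ker.unitary {J : ℕ} {c : ℕ → ℝ} {Λ : ℝ} (hk : Ker J c Λ) {A : Type*} [CStarAlgebra A]
    {u : A} (hu : u ∈ unitary A) :
    ‖∑ j ∈ range J, (c j : ℂ) • (u ^ (j + 1) - star u ^ (j + 1))‖ ≤ 20 := by
  have hn : IsStarNormal u := isStarNormal_of_mem_unitary hu
  have h1 : ∑ j ∈ range J, (c j : ℂ) • (u ^ (j + 1) - star u ^ (j + 1)) =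
      cfc (∑ j ∈ range J, fun z : ℂ => (c j : ℂ) * (z ^ (j + 1) - star z ^ (j + 1))) u := by
    rw [cfc_sum _ _ _ fun j _ => by fun_prop]
    refine sum_congr rfl fun j _ => ?_
    rw [cfc_const_mul .., cfc_sub .., cfc_pow .., cfc_pow .., cfc_star, cfc_id' ..]
  rw [h1]
  refine norm_cfc_le (by norm_num) fun z hz => ?_
  rw [Finset.sum_apply]
  exact hk.bound z (spectrum.norm_eq_one_of_unitary hu hz)

theorem ker_sq {F : Type*} [NormedAddCommGroup F] [InnerProductSpace ℂ F] (x : F) :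
    ((‖x‖ : ℝ) : ℂ) ^ 2 = ⟪x, x⟫_ℂ := (inner_self_eq_norm_sq_to_K (𝕜 := ℂ) x).symm

theorem ker_bil {F : Type*} [NormedAddCommGroup F] [InnerProductSpace ℂ F] (N : ℕ) (ω : ℂ)
    (P : ℕ → ℂ) (t s : Finset ℕ) (γ β : ℕ → F) :
    ∑ θ ∈ range N, P θ * ⟪∑ k ∈ t, ω ^ (θ * k) • γ k, ∑ i ∈ s, ω ^ (θ * i) • β i⟫_ℂ =
      ∑ k ∈ t, ∑ i ∈ s, (∑ θ ∈ range N, P θ * ((starRingEnd ℂ) (ω ^ (θ * k)) * ω ^ (θ * i))) *
        ⟪γ k, β i⟫_ℂ := by
  simp only [sum_inner, inner_sum, inner_smul_left, inner_smul_right, mul_sum, sum_mul]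
  rw [sum_comm]
  refine (sum_congr rfl fun i _ => sum_comm).trans ?_
  rw [sum_comm]
  refine sum_congr rfl fun k _ => sum_congr rfl fun i _ => sum_congr rfl fun θ _ => ?_
  ring

theorem ker_parseval {F : Type*} [NormedAddCommGroup F] [InnerProductSpace ℂ F] {N : ℕ} {ω : ℂ}
    (hω : ∀ l < N, ∀ k < N, ∑ θ ∈ range N, (starRingEnd ℂ) (ω ^ (θ * l)) * ω ^ (θ * k) =
      if l = k then (N : ℂ) else 0) (s : Finset ℕ) (hs : ∀ i ∈ s, i < N) (β : ℕ → F) :
    ∑ θ ∈ range N, ‖∑ i ∈ s, ω ^ (θ * i) • β i‖ ^ 2 = N * ∑ i ∈ s, ‖β i‖ ^ 2 := by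
  have h := ker_bil N ω (fun _ => 1) s s β β
  simp only [one_mul] at h
  apply Complex.ofReal_injective
  push_cast
  simp only [ker_sq]
  rw [h, mul_sum]
  refine sum_congr rfl fun k hk => ?_
  rw [sum_eq_single k, hω k (hs k hk) k (hs k hk), if_pos rfl]
  · intro i hi hik
    rw [hω k (hs k hk) i (hs i hi), if_neg hik.symm, zero_mul]
  · exact fun h => (h hk).elim

theorem Ker.orth {J : ℕ} {c : ℕ → ℝ} {Λ : ℝ} (hk : Ker J c Λ) {N : ℕ} {ω : ℂ}
    (hω : ∀ l < N, ∀ k < N, ∑ θ ∈ range N, (starRingEnd ℂ) (ω ^ (θ * l)) * ω ^ (θ * k) =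
      if l = k then (N : ℂ) else 0) {i k : ℕ} (hi : i + J < N) (hk' : k + J < N) :
    ∑ θ ∈ range N, (∑ j ∈ range J, (c j : ℂ) *
      ((ω ^ θ) ^ (j + 1) - (starRingEnd ℂ) (ω ^ θ) ^ (j + 1))) *
        ((starRingEnd ℂ) (ω ^ (θ * k)) * ω ^ (θ * i)) = N * (kw c i k : ℂ) := by
  simp only [sum_mul]
  rw [sum_comm]
  have h1 : ∀ j ∈ range J, ∑ θ ∈ range N, (c j : ℂ) *
      ((ω ^ θ) ^ (j + 1) - (starRingEnd ℂ) (ω ^ θ) ^ (j + 1)) *
        ((starRingEnd ℂ) (ω ^ (θ * k)) * ω ^ (θ * i)) =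
      (if k = i + j + 1 then N * (c j : ℂ) else 0) -
        (if k + j + 1 = i then N * (c j : ℂ) else 0) := by
    intro j hj
    have hj' := mem_range.1 hj
    have e1 := hω k (by omega) (i + j + 1) (by omega)
    have e2 := hω (k + j + 1) (by omega) i (by omega)
    have e3 : ∀ p : Prop, ∀ [Decidable p], (if p then N * (c j : ℂ) else 0) =
        (c j : ℂ) * if p then (N : ℂ) else 0 := by
      intro p _
      split_ifs <;> ring
    rw [e3, e3, ← e1, ← e2, mul_sum, mul_sum, ← sum_sub_distrib]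
    refine sum_congr rfl fun θ _ => ?_
    simp only [map_pow]
    ring
  rw [sum_congr rfl h1, sum_sub_distrib]
  have h2 : ∀ a b : ℕ, ∑ j ∈ range J, (if a = b + j + 1 then N * (c j : ℂ) else 0) =
      if b < a then N * (c (a - b - 1) : ℂ) else 0 := by
    intro a b
    split_ifs with h
    · rw [sum_eq_single (a - b - 1), if_pos (by omega)]
      · exact fun j _ hj => if_neg (by omega)
      · intro hj
        rw [hk.zero _ (by simpa using hj)]
        simp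
    · exact sum_eq_zero fun j _ => if_neg (by omega)
  simp only [eq_comm (b := i)]
  rw [h2, h2, kw]
  split_ifs <;> first | omega | simp

theorem Ker.toep {J : ℕ} {c : ℕ → ℝ} {Λ : ℝ} (hk : Ker J c Λ) {F : Type*} [NormedAddCommGroup F]
    [InnerProductSpace ℂ F] (s t : Finset ℕ) (β : ℕ → F) :
    ∑ k ∈ t, ‖∑ i ∈ s, (kw c i k : ℂ) • β i‖ ^ 2 ≤ 400 * ∑ i ∈ s, ‖β i‖ ^ 2 := by
  obtain ⟨N, hN⟩ : ∃ N, N = s.sup id + t.sup id + J + 1 := ⟨_, rfl⟩
  have hs : ∀ i ∈ s, i + J < N := fun i hi => by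
    have : i ≤ s.sup id := le_sup (f := id) hi
    omega
  have ht : ∀ i ∈ t, i + J < N := fun i hi => by
    have : i ≤ t.sup id := le_sup (f := id) hi
    omega
  have hN0 : 0 < N := by omega
  have hN' : (0 : ℝ) < N := by exact_mod_cast hN0
  obtain ⟨ω, hω1, hω⟩ := roots_orth hN0
  set γ : ℕ → F := fun k => ∑ i ∈ s, (kw c i k : ℂ) • β i with hγ
  let P : ℕ → ℂ := fun θ => ∑ j ∈ range J, (c j : ℂ) *
    ((ω ^ θ) ^ (j + 1) - (starRingEnd ℂ) (ω ^ θ) ^ (j + 1))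
  have hP : ∀ θ, ‖P θ‖ ≤ 20 := fun θ => hk.bound _ (by rw [norm_pow, hω1, one_pow])
  have h1 := ker_bil N ω P t s γ β
  have h2 : ∑ k ∈ t, ∑ i ∈ s, (∑ θ ∈ range N, P θ * ((starRingEnd ℂ) (ω ^ (θ * k)) * ω ^ (θ * i))) *
      ⟪γ k, β i⟫_ℂ = ((N * ∑ k ∈ t, ‖γ k‖ ^ 2 : ℝ) : ℂ) := by
    push_cast
    rw [mul_sum]
    refine sum_congr rfl fun k hk' => ?_
    rw [ker_sq, show ⟪γ k, γ k⟫_ℂ = ⟪γ k, ∑ i ∈ s, (kw c i k : ℂ) • β i⟫_ℂ from rfl, inner_sum, mul_sum]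
    refine sum_congr rfl fun i hi => ?_
    rw [hk.orth hω (hs i hi) (ht k hk'), inner_smul_right, mul_assoc]
  have h3 : N * ∑ k ∈ t, ‖γ k‖ ^ 2 ≤ ∑ θ ∈ range N,
      (‖∑ k ∈ t, ω ^ (θ * k) • γ k‖ ^ 2 / 2 + 200 * ‖∑ i ∈ s, ω ^ (θ * i) • β i‖ ^ 2) := by
    refine (le_abs_self _).trans ?_
    rw [← Real.norm_eq_abs, ← Complex.norm_real, ← h2, ← h1]
    refine (norm_sum_le _ _).trans (sum_le_sum fun θ _ => ?_)
    rw [norm_mul]
    refine (mul_le_mul (hP θ) (norm_inner_le_norm _ _) (norm_nonneg _) (by norm_num)).trans ?_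
    nlinarith [sq_nonneg (‖∑ k ∈ t, ω ^ (θ * k) • γ k‖ - 20 * ‖∑ i ∈ s, ω ^ (θ * i) • β i‖)]
  rw [sum_add_distrib, ← sum_div, ← mul_sum, ker_parseval hω t (fun i hi => by
    have := ht i hi; omega), ker_parseval hω s (fun i hi => by have := hs i hi; omega)] at h3
  refine le_of_mul_le_mul_left ?_ hN'
  linarith

end Vale.Agent.KR
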