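import Vale.Agent.KR.HG
import Vale.Agent.KR.Ker
import Vale.Agent.KR.Dix

/-!
# Almost all rows are almost modular (notes, section 4 AU)
Take `Ker J c Λ` with `Λ δ² > 4000 (K² + 1)`, `n = 3 J`, `p = ε a₀ a₀`. If more than `3J` rows are bad, enumerate `3J` of them injectively, `ρ : ℕ → Fin m` injective on
`range (3J)`, with `h i`, `b i = ε a₀ (ρ i) s`, `δ i = tau (h i) ψ - ψ`, `δ ‖ev p‖ < ‖ev (δ i (b i))‖`, so `ev p ≠ 0` (`TrD.right`; `δ i (b i) = p δ i (b i)`).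
`hg` with `P = {ψ, tau (h i) ψ}`, `T i = {ζ ↦ re <ev y, ev (ζ (g b i))> : g ∈ UG, p y = y, ‖y‖ ≤ 2K}`, `c₀ = δ² ‖ev p‖²`; for `u` take `y = u* δ i (b i)`, `g = u*`.
Upper bound for `∑ i k, kw c i k <ev (g k y i), ev (ψ (g k b' i))>`, `b' i = g' i b i`: for signs `σ`, `x = ∑ k i, kw c i k σ i • ε (ρ k) a₀ g k b' i` has `‖x‖ ≤ 20` (`Ker.toep`,
`∑ ‖b' i ξ‖² ≤ ‖ξ‖²`), `cc = ∑ k, ε (ρ k) a₀ g k`, `cc* cc = 3J p`, `Y = ∑ σ i y i`; the average over `σ` of `<ev (cc Y), ev (ψ x)>` is the sum (`sgn_orth`);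
`‖ev (cc* ψ x)‖ ≤ 2 ‖ψ x‖ ‖ev cc‖ ≤ 40 K √(3J) ‖ev p‖`, average of `‖ev Y‖²` is `≤ J (8K)² ‖ev p‖²` (`Gamma_sign_norm`). So `J Λ c₀/4 ≤ 320 √3 K² J ‖ev p‖²`.
-/

namespace Vale.Agent.KR

open Vale.Agent.P104 Finset
open scoped InnerProductSpace

variable {H : Type*} [NormedAddCommGroup H] [InnerProductSpace ℂ H] [CompleteSpace H]
  {M : VonNeumannAlgebra H}
variable {F : Type*} [NormedAddCommGroup F] [InnerProductSpace ℂ F]

theorem au_col (s : Finset ℕ) (w : ℕ → H →L[ℂ] H)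
    (h : ∀ k ∈ s, ∀ k' ∈ s, k ≠ k' → star (w k) * w k' = 0) (hn : ∀ k ∈ s, ‖w k‖ ≤ 1)
    (ξ : ℕ → H) : ‖∑ k ∈ s, w k (ξ k)‖ ^ 2 ≤ ∑ k ∈ s, ‖ξ k‖ ^ 2 := by
  rw [← inner_self_eq_norm_sq (𝕜 := ℂ), sum_inner, map_sum]
  refine sum_le_sum fun k hk => ?_
  rw [inner_sum, sum_eq_single k, inner_self_eq_norm_sq]
  · refine pow_le_pow_left₀ (norm_nonneg _) (((w k).le_opNorm _).trans ?_) 2
    exact mul_le_of_le_one_left (norm_nonneg _) (hn k hk)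
  · intro k' hk' hne
    rw [← inner_star_right, ← mul_apply_eq_comp, h k hk k' hk' hne.symm]
    simp
  · exact fun h' => absurd hk h'

theorem au_row (s : Finset ℕ) (v : ℕ → H →L[ℂ] H)
    (h : ∀ k ∈ s, ∀ k' ∈ s, k ≠ k' → v k * star (v k') = 0) (hn : ∀ k ∈ s, ‖v k‖ ≤ 1) (η : H) :
    ∑ k ∈ s, ‖v k η‖ ^ 2 ≤ ‖η‖ ^ 2 := by
  have h1 := au_col s (fun k => star (v k)) (fun k hk k' hk' hne => by
    rw [star_star]; exact h k hk k' hk' hne) (fun k hk => by rw [norm_star]; exact hn k hk)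
    fun k => v k η
  have h2 : ∑ k ∈ s, ‖v k η‖ ^ 2 = RCLike.re ⟪η, ∑ k ∈ s, star (v k) (v k η)⟫_ℂ := by
    rw [inner_sum, map_sum]
    refine sum_congr rfl fun k _ => ?_
    rw [inner_star_right, inner_self_eq_norm_sq]
  have h3 := re_inner_le_norm (𝕜 := ℂ) η (∑ k ∈ s, star (v k) (v k η))
  rw [← h2] at h3
  nlinarith [sq_nonneg (‖η‖ - ‖∑ k ∈ s, star (v k) (v k η)‖)]

theorem au_norm_le {p w : M} (hp : p * p = p) (hw : star w * w = p) : ‖w‖ ≤ 1 := by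
  refine PIso.norm_le (v := (w : H →L[ℂ] H)) (PIso.of_idem ?_)
  have h1 : star (w : H →L[ℂ] H) * w = p := congrArg Subtype.val hw
  rw [h1]
  exact congrArg Subtype.val hp

theorem au_upper {Q : QT M F} (hQ : TrD M Q) {K : ℝ} (hK0 : 0 ≤ K) {J : ℕ} {c : ℕ → ℝ} {Λ : ℝ}
    (hk : Ker J c Λ) {p : M} (hp : p * p = p) (hp' : star p = p) (s t : Finset ℕ) (w b : ℕ → M)
    (hw : ∀ k ∈ t, ∀ k' ∈ t, star (w k) * w k' = if k = k' then p else 0)
    (hb : ∀ ξ, ∑ i ∈ s, ‖(b i : H →L[ℂ] H) ξ‖ ^ 2 ≤ ‖ξ‖ ^ 2) {ψ : Mp M} (hψ : ψ ∈ Ball M K)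
    (R : ℕ → ℕ → M)
    (hR : ∀ k ∈ t, ∀ k' ∈ t, ∀ i ∈ s, star (w k) * ψ (w k' * b i) = if k = k' then R k i else 0) :
    ∑ i ∈ s, ‖Q.ev (∑ k ∈ t, (kw c i k : ℂ) • R k i)‖ ^ 2 ≤
      1600 * K ^ 2 * t.card * ‖Q.ev p‖ ^ 2 := by
  have hcc : ‖Q.ev (∑ k ∈ t, w k)‖ ^ 2 = t.card * ‖Q.ev p‖ ^ 2 := by
    have h1 := Q.norm_sq_mul (∑ k ∈ t, w k) 1
    have h2 := Q.norm_sq_mul p 1
    have h3 : star (∑ k ∈ t, w k) * ∑ k ∈ t, w k = (t.card : ℂ) • p := by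
      rw [star_sum, sum_mul_sum, Nat.cast_smul_eq_nsmul, ← sum_const]
      refine sum_congr rfl fun k hk => ?_
      rw [sum_congr rfl (hw k hk), sum_ite_eq, if_pos hk]
    rw [mul_one, mul_one] at h1 h2
    rw [hp', hp] at h2
    rw [h1, h2, h3, map_smul, inner_smul_right]
    simp
  have key : ∀ e : ℕ → ℂ, (∀ i, ‖e i‖ = 1) →
      ‖∑ i ∈ s, e i • Q.ev (∑ k ∈ t, (kw c i k : ℂ) • R k i)‖ ^ 2 ≤
        1600 * K ^ 2 * t.card * ‖Q.ev p‖ ^ 2 := by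
    intro e he
    set x : M := ∑ k ∈ t, ∑ i ∈ s, ((kw c i k : ℂ) * e i) • (w k * b i) with hx
    have hxn : ‖x‖ ≤ 20 := by
      refine ContinuousLinearMap.opNorm_le_bound (x : H →L[ℂ] H) (by norm_num) fun ξ => ?_
      have h1 : (x : H →L[ℂ] H) ξ = ∑ k ∈ t, (w k : H →L[ℂ] H)
          (∑ i ∈ s, (kw c i k : ℂ) • e i • (b i : H →L[ℂ] H) ξ) := by
        simp [hx, mul_smul]
      have h2 := au_col t (fun k => (w k : H →L[ℂ] H)) (fun k hk k' hk' hne => by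
        have := hw k hk k' hk'
        rw [if_neg hne] at this
        exact congrArg Subtype.val this)
        (fun k hk => au_norm_le hp ((hw k hk k hk).trans (if_pos rfl)))
        fun k => ∑ i ∈ s, (kw c i k : ℂ) • e i • (b i : H →L[ℂ] H) ξ
      have h3 := hk.toep s t fun i => e i • (b i : H →L[ℂ] H) ξ
      simp only [norm_smul, he, one_mul] at h3
      refine abs_le_of_sq_le_sq' ?_ (by positivity) |>.2
      rw [h1]
      nlinarith [hb ξ]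
    have h4 : star (∑ k ∈ t, w k) * ψ x = ∑ i ∈ s, e i • ∑ k ∈ t, (kw c i k : ℂ) • R k i := by
      simp only [hx, map_sum, map_smul, star_sum, sum_mul, mul_sum, mul_smul_comm, smul_sum]
      rw [sum_comm (s := s)]
      refine sum_congr rfl fun k hk => sum_congr rfl fun i hi => ?_
      rw [sum_eq_single k, hR k hk k hk i hi, if_pos rfl, smul_smul, mul_comm]
      · intro k' hk' hne
        rw [hR k' hk' k hk i hi, if_neg hne, smul_zero]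
      · exact fun h' => absurd hk h'
    have h5 : ‖Q.ev (star (∑ k ∈ t, w k) * ψ x)‖ ≤ 40 * K * ‖Q.ev (∑ k ∈ t, w k)‖ := by
      have h6 := Q.star_le (star (ψ x) * ∑ k ∈ t, w k)
      rw [star_mul, star_star] at h6
      have h7 := hQ.mul_le (star (ψ x)) (∑ k ∈ t, w k)
      have h8 : ‖star (ψ x)‖ = ‖ψ x‖ := norm_star (ψ x : H →L[ℂ] H)
      have h9 : ‖ψ x‖ ≤ K * 20 := (hψ x).trans (mul_le_mul_of_nonneg_left hxn hK0)
      rw [h8] at h7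
      nlinarith [norm_nonneg (Q.ev (∑ k ∈ t, w k))]
    simp only [← map_smul, ← map_sum]
    rw [← h4]
    have h10 := pow_le_pow_left₀ (norm_nonneg _) h5 2
    rw [mul_pow, hcc] at h10
    linarith
  classical
  have h1 := Gamma_sign_norm fun i : s => Q.ev (∑ k ∈ t, (kw c i k : ℂ) • R k i)
  rw [sum_coe_sort s fun i => ‖Q.ev (∑ k ∈ t, (kw c i k : ℂ) • R k i)‖ ^ 2] at h1
  have h2 := sum_le_card_nsmul univ
    (fun σ : s → Bool => ‖∑ i : s, sgn (σ i) • Q.ev (∑ k ∈ t, (kw c i k : ℂ) • R k i)‖ ^ 2)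
    (1600 * K ^ 2 * t.card * ‖Q.ev p‖ ^ 2) fun σ _ => by
      have h3 := key (fun i => if h : i ∈ s then sgn (σ ⟨i, h⟩) else 1) fun i => by
        split_ifs with h
        · cases σ ⟨i, h⟩ <;> simp [sgn]
        · simp
      rw [← sum_coe_sort s] at h3
      simpa only [coe_mem, dite_true] using h3
  rw [h1, card_univ, nsmul_eq_mul] at h2
  exact le_of_mul_le_mul_left h2 (Nat.cast_pos.2 Fintype.card_pos)

/-- The test functionals. -/
noncomputable def auT {Q : QT M F} (hQ : TrD M Q) (y x : M) : Mp M →L[ℝ] ℝ where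
  toFun ζ := (⟪Q.ev y, Q.ev (ζ x)⟫_ℂ).re
  map_add' ζ ζ' := by rw [Mp.add_apply, map_add, inner_add_right, Complex.add_re]
  map_smul' r ζ := by
    rw [Mp.rsmul_apply, map_smul, inner_smul_right, Complex.re_ofReal_mul]
    rfl
  cont := Complex.continuous_re.comp (hQ.cont x _)

theorem auT_apply {Q : QT M F} (hQ : TrD M Q) (y x : M) (ζ : Mp M) :
    auT hQ y x ζ = (⟪Q.ev y, Q.ev (ζ x)⟫_ℂ).re := rfl

/-- The inverse of a unitary. -/
noncomputable def auInv {S : Set M} (u : UG S) : UG S :=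
  ⟨star u.1, Unitary.star_mem u.2.1, fun s hs => by
    have h1 : star u.1 * u.1 = 1 := u.2.1.1
    have h2 : u.1 * star u.1 = 1 := u.2.1.2
    calc star u.1 * s = star u.1 * (s * u.1) * star u.1 := by
          rw [mul_assoc, mul_assoc, h2, mul_one]
      _ = s * star u.1 := by rw [← u.2.2 s hs, ← mul_assoc, h1, one_mul]⟩

theorem au {Q : QT M F} (hQ : TrD M Q) {K δ : ℝ} (hK0 : 0 ≤ K) (hδ : 0 < δ) :
    ∃ n : ℕ, ∀ (m : ℕ) (ε : Fin m → Fin m → M), MUnits ε → ∀ (a₀ : Fin m) (KK : Set (Mp M)),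
      Minl (act (rng ε)) KK → KK ⊆ Ball M K →
      (∀ ψ ∈ KK, ∀ a b x, ψ (ε a b * x) = ε a b * ψ x) → ∀ ψ ∈ KK, ∀ s : M, ‖s‖ ≤ 1 →
      ∃ bad : Finset (Fin m), bad.card ≤ n ∧ ∀ c ∉ bad, ∀ h : UG (rng ε),
        ‖Q.ev (ψ (h.1 * (ε a₀ c * s)) - h.1 * ψ (ε a₀ c * s))‖ ≤ δ * ‖Q.ev (ε a₀ a₀)‖ := by
  classical
  obtain ⟨J, c, Λ, hk, hΛ, hΛ0⟩ := exists_ker (4000 * (K ^ 2 + 1) / δ ^ 2)
  refine ⟨3 * J, fun m ε hε a₀ KK hKK hball hmod ψ hψ s hs => ?_⟩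
  refine ⟨univ.filter fun r => ∃ h : UG (rng ε), δ * ‖Q.ev (ε a₀ a₀)‖ <
    ‖Q.ev (ψ (h.1 * (ε a₀ r * s)) - h.1 * ψ (ε a₀ r * s))‖, ?_, fun r hr h => ?_⟩
  swap
  · exact not_lt.1 fun h' => hr (mem_filter.2 ⟨mem_univ _, h, h'⟩)
  by_contra hcard
  obtain ⟨ρ, hρ, hinj⟩ : ∃ ρ : ℕ → Fin m, (∀ i ∈ range (3 * J), ∃ h : UG (rng ε),
      δ * ‖Q.ev (ε a₀ a₀)‖ < ‖Q.ev (ψ (h.1 * (ε a₀ (ρ i) * s)) - h.1 * ψ (ε a₀ (ρ i) * s))‖) ∧
      Set.InjOn ρ (range (3 * J) : Set ℕ) := by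
    have : Nonempty (Fin m) := ⟨a₀⟩
    have h0 := (not_le.1 hcard).le
    rw [← card_range (3 * J), ← Nat.cast_le (α := ℕ∞), ← Set.encard_coe_eq_coe_finsetCard,
      ← Set.encard_coe_eq_coe_finsetCard] at h0
    obtain ⟨ρ, h1, h2⟩ := (range (3 * J)).finite_toSet.exists_injOn_of_encard_le h0
    refine ⟨ρ, fun i hi => ?_, h2⟩
    have h3 := h1 (mem_coe.2 hi)
    rw [Set.mem_preimage, mem_coe, mem_filter] at h3
    exact h3.2
  have : Nonempty (UG (rng ε)) := ⟨⟨1, one_mem _, fun _ _ => by rw [one_mul, mul_one]⟩⟩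
  choose! hh hhh using hρ
  set p := ε a₀ a₀ with hpdef
  have hp : p * p = p := by rw [hε.mul, if_pos rfl]
  have hcm : ∀ (g : UG (rng ε)) a b, g.1 * ε a b = ε a b * g.1 := fun g a b => g.2.2 _ ⟨a, b, rfl⟩
  have hen : ∀ a b, ‖ε a b‖ ≤ 1 := fun a b => au_norm_le (p := ε b b)
    (by rw [hε.mul, if_pos rfl]) (by rw [hε.star_eq, hε.mul, if_pos rfl])
  have hgn : ∀ (g : UG (rng ε)) (y : M), ‖g.1 * y‖ ≤ ‖y‖ := fun g y =>
    (norm_mul_le _ _).trans (mul_le_of_le_one_left (norm_nonneg _) (unitary_norm_le g.2.1))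
  have hbn : ∀ r, ‖ε a₀ r * s‖ ≤ 1 := fun r =>
    (norm_mul_le _ _).trans (mul_le_one₀ (hen _ _) (norm_nonneg _) hs)
  have hpb : ∀ r, p * (ε a₀ r * s) = ε a₀ r * s := fun r => by
    rw [← mul_assoc, hε.mul, if_pos rfl]
  have hpg : ∀ (g : UG (rng ε)) (y : M), p * y = y → p * (g.1 * y) = g.1 * y := fun g y hy => by
    rw [← mul_assoc, ← hcm, mul_assoc, hy]
  have hpψ : ∀ y : M, p * y = y → p * ψ y = ψ y := fun y hy => by rw [← hmod ψ hψ, hy]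
  have hψn : ∀ y : M, ‖y‖ ≤ 1 → ∀ ζ ∈ KK, ‖ζ y‖ ≤ K := fun y hy ζ hζ =>
    (hball hζ y).trans (mul_le_of_le_one_right hK0 hy)
  have hev : ∀ y : M, p * y = y → ‖y‖ ≤ 2 * K → ‖Q.ev y‖ ≤ 8 * K * ‖Q.ev p‖ := fun y hy hn => by
    have := hQ.right p y
    rw [hy] at this
    nlinarith [norm_nonneg (Q.ev p)]
  set y : ℕ → M := fun i => (auInv (hh i)).1 * ψ ((hh i).1 * (ε a₀ (ρ i) * s)) -
    ψ (ε a₀ (ρ i) * s) with hy
  have hy1 : ∀ i, p * y i = y i := fun i => by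
    rw [hy, mul_sub, hpg _ _ (hpψ _ (hpg _ _ (hpb _))), hpψ _ (hpb _)]
  have hy2 : ∀ i, ‖y i‖ ≤ 2 * K := fun i => by
    have h1 := (hgn (auInv (hh i)) _).trans (hψn _ ((hgn (hh i) _).trans (hbn (ρ i))) ψ hψ)
    have h2 := hψn _ (hbn (ρ i)) ψ hψ
    exact (norm_sub_le _ _).trans (by linarith)
  have hy3 : ∀ i ∈ range (3 * J), δ * ‖Q.ev p‖ < ‖Q.ev (y i)‖ := fun i hi => by
    rw [← Q.norm_unitary (hh i).2.1 (y i), hy, mul_sub, ← mul_assoc (hh i).1 (auInv (hh i)).1,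
      show (hh i).1 * (auInv (hh i)).1 = 1 from (hh i).2.1.2, one_mul]
    exact hhh i hi
  have hν : 0 < ‖Q.ev p‖ := by
    refine (norm_nonneg _).lt_of_ne fun h => ?_
    have h1 := hy3 0 (mem_range.2 (by have := hk.pos; omega))
    have h2 := hev _ (hy1 0) (hy2 0)
    rw [← h] at h1 h2
    linarith
  obtain ⟨t, g, ht, hsum⟩ := hg (act_Act (rng ε)) hKK hk hΛ0 hψ
    (insert ψ ((range (3 * J)).image fun i => act _ (hh i) ψ))
    (fun x hx => by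
      rcases mem_insert.1 hx with rfl | hx
      · exact hψ
      · obtain ⟨i, -, rfl⟩ := mem_image.1 hx
        exact hKK.inv _ _ hψ)
    (fun i => {t | ∃ (g : UG (rng ε)) (Y : M), p * Y = Y ∧ ‖Y‖ ≤ 2 * K ∧
      t = auT hQ Y (g.1 * (ε a₀ (ρ i) * s))})
    (by
      rintro i _ ⟨g, Y, h1, h2, rfl⟩
      refine ⟨g, -Y, by rw [mul_neg, h1], by rwa [norm_neg], ?_⟩
      ext ζ
      simp [auT_apply])
    (B := 8 * K * ‖Q.ev p‖ * (K * ‖Q.ev 1‖)) (c₀ := (δ * ‖Q.ev p‖) ^ 2)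
    (by
      rintro i _ ⟨g, Y, h1, h2, rfl⟩ ζ hζ
      refine (Complex.abs_re_le_norm _).trans ((norm_inner_le_norm _ _).trans ?_)
      refine mul_le_mul (hev Y h1 h2) ?_ (norm_nonneg _) (by positivity)
      have h3 := hQ.mul_le (ζ (g.1 * (ε a₀ (ρ i) * s))) 1
      rw [mul_one] at h3
      exact h3.trans (mul_le_mul_of_nonneg_right (hψn _ ((hgn g _).trans (hbn _)) ζ hζ)
        (norm_nonneg _)))
    (by positivity)
    (fun i hi u => by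
      refine ⟨_, mem_insert_of_mem (mem_image_of_mem _ (mem_range.2 hi)), ψ, mem_insert_self _ _,
        _, ⟨auInv u, (auInv u).1 * y i, hpg _ _ (hy1 i), (hgn _ _).trans (hy2 i), rfl⟩, ?_⟩
      have h1 : ∀ ζ : Mp M, act _ u ζ ((auInv u).1 * (ε a₀ (ρ i) * s)) =
          (auInv u).1 * ζ (ε a₀ (ρ i) * s) := fun ζ => by
        rw [act, tau_apply, ← mul_assoc u.1, show u.1 * (auInv u).1 = 1 from u.2.1.2, one_mul]
        rfl
      rw [auT_apply, auT_apply, h1, h1, ← Complex.sub_re, ← inner_sub_right, ← map_sub, ← mul_sub]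
      have h2 : (⟪Q.ev ((auInv u).1 * y i), Q.ev ((auInv u).1 * y i)⟫_ℂ).re =
          ‖Q.ev ((auInv u).1 * y i)‖ ^ 2 := inner_self_eq_norm_sq (𝕜 := ℂ) _
      refine le_trans ?_ h2.ge
      rw [Q.norm_unitary (auInv u).2.1]
      exact pow_le_pow_left₀ (by positivity) (hy3 i (mem_range.2 hi)).le 2)
  choose! g' Y hY1 hY2 hY3 using ht
  have hI : ∀ i ∈ Ico J (2 * J), i < 3 * J := fun i hi => by have := mem_Ico.1 hi; omega
  have hρε : ∀ k ∈ range (3 * J), ∀ k' ∈ range (3 * J),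
      ε a₀ (ρ k) * ε (ρ k') a₀ = if k = k' then p else 0 := fun k hk k' hk' => by
    rw [hε.mul]
    exact if_congr ⟨fun e => hinj (mem_coe.2 hk) (mem_coe.2 hk') e, fun e => e ▸ rfl⟩ rfl rfl
  have hup := au_upper hQ hK0 hk hp (hε.star_eq _ _) (Ico J (2 * J)) (range (3 * J))
    (fun k => ε (ρ k) a₀ * (g k).1) (fun i => (g' i).1 * (ε a₀ (ρ i) * s))
    (fun k hk k' hk' => by
      rw [star_mul, hε.star_eq, mul_assoc, ← mul_assoc (ε a₀ (ρ k)), hρε k hk k' hk']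
      split_ifs with e
      · rw [← e, ← hcm, ← mul_assoc, (g k).2.1.1, one_mul]
      · rw [zero_mul, mul_zero])
    (fun ξ => by
      have h1 := au_row (Ico J (2 * J)) (fun i => (((g' i).1 * ε a₀ (ρ i) : M) : H →L[ℂ] H))
        (fun k hk k' hk' hne => by
          have h2 : (g' k).1 * ε a₀ (ρ k) * star ((g' k').1 * ε a₀ (ρ k')) = 0 := by
            rw [star_mul, hε.star_eq, mul_assoc, ← mul_assoc (ε a₀ (ρ k)),
              hρε k (mem_range.2 (hI k hk)) k' (mem_range.2 (hI k' hk')), if_neg hne, zero_mul,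
              mul_zero]
          exact congrArg Subtype.val h2)
        (fun k _ => (hgn _ _).trans (hen _ _)) ((s : H →L[ℂ] H) ξ)
      refine le_trans h1 (pow_le_pow_left₀ (norm_nonneg _) ?_ 2)
      exact ((s : H →L[ℂ] H).le_opNorm ξ).trans (mul_le_of_le_one_left (norm_nonneg _) hs))
    (hball hψ) (fun k i => act _ (g k) ψ ((g' i).1 * (ε a₀ (ρ i) * s)))
    fun k hk k' hk' i _ => by
      rw [star_mul, hε.star_eq, mul_assoc (ε (ρ k') a₀), hmod ψ hψ, mul_assoc,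
        ← mul_assoc (ε a₀ (ρ k)), hρε k hk k' hk']
      split_ifs with e
      · rw [← e, hpψ _ (hpg _ _ (hpg _ _ (hpb _)))]
        rfl
      · rw [zero_mul, mul_zero]
  have hrow : ∀ i ∈ Ico J (2 * J), ∑ k ∈ range (3 * J), kw c i k * t i (act _ (g k) ψ) ≤
      ‖Q.ev (∑ k ∈ range (3 * J), (kw c i k : ℂ) •
        act _ (g k) ψ ((g' i).1 * (ε a₀ (ρ i) * s)))‖ ^ 2 / 8 + 128 * K ^ 2 * ‖Q.ev p‖ ^ 2 := by
    intro i hi
    have h1 : ∑ k ∈ range (3 * J), kw c i k * t i (act _ (g k) ψ) =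
        (⟪Q.ev (Y i), Q.ev (∑ k ∈ range (3 * J), (kw c i k : ℂ) •
          act _ (g k) ψ ((g' i).1 * (ε a₀ (ρ i) * s)))⟫_ℂ).re := by
      rw [hY3 i (hI i hi), map_sum, inner_sum, Complex.re_sum]
      refine sum_congr rfl fun k _ => ?_
      rw [map_smul, inner_smul_right, Complex.re_ofReal_mul, auT_apply]
    rw [h1]
    refine (Complex.re_le_norm _).trans ((norm_inner_le_norm _ _).trans ?_)
    refine (mul_le_mul_of_nonneg_right (hev _ (hY1 i (hI i hi)) (hY2 i (hI i hi)))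
      (norm_nonneg _)).trans ?_
    nlinarith [sq_nonneg (‖Q.ev (∑ k ∈ range (3 * J), (kw c i k : ℂ) •
      act _ (g k) ψ ((g' i).1 * (ε a₀ (ρ i) * s)))‖ - 32 * K * ‖Q.ev p‖)]
  have h1 := hsum.trans (sum_le_sum hrow)
  rw [sum_add_distrib, ← sum_div, sum_const, Nat.card_Ico, show 2 * J - J = J by omega,
    nsmul_eq_mul] at h1
  rw [card_range] at hup
  push_cast at hup
  have hJ : (0 : ℝ) < J := by exact_mod_cast hk.pos
  have h2 : (J * ‖Q.ev p‖ ^ 2) * (Λ * δ ^ 2) ≤ (J * ‖Q.ev p‖ ^ 2) * (2912 * K ^ 2) := by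
    nlinarith
  have h3 := le_of_mul_le_mul_left h2 (by positivity)
  rw [div_le_iff₀ (by positivity)] at hΛ
  nlinarith [sq_nonneg K]

end Vale.Agent.KR
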