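import Vale.Agent.KR.Dix

/-!
# Almost modularity for arbitrary unitaries (notes, section 4 AU2)
`N = StarSubalgebra.centralizer ℂ (rng ε)` is a closed star subalgebra of `M`, so a C*-algebra. `V c : N →L F`, `V c h = ev (ψ (h b c) - h ψ (b c))`, `b c = ε a₀ c s`.
`‖V c‖ ≤ 2 δ ‖ev p‖` for good `c` (`four`), `≤ 8 K ‖ev p‖` always (`TrD.right`, `ψ (h b) = p ψ (h b)`). `u a d = ∑ j, ε j a W ε d j ∈ N`, `∑ a d, u* u = m = ∑ a d, u u*`.
`W ε d c = ∑ a, ε a a₀ u a d ε a₀ c`, so `‖ev (Δ (W ε d c))‖² = ∑ a, ‖V c (u a d)‖²` (`QT.norm_sq_mul`, `pyth`). `gt_gen` over the index `(a, d)`. `m ‖ev p‖² ≤ 4 ‖ev 1‖²`.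
`ε d d r ε c c = cc d c • ε d c` (`Gamma_mat_entry`), and `|cc d c|² = 1/m` unless `ε d d = 0` (`Gamma_mat_flat`, `Gamma_mat_star`, `Flat.flat`).
-/

namespace Vale.Agent.KR

open Vale.Agent.P104 Finset
open scoped InnerProductSpace

variable {H : Type*} [NormedAddCommGroup H] [InnerProductSpace ℂ H] [CompleteSpace H]
  {M : VonNeumannAlgebra H}
variable {F : Type*} [NormedAddCommGroup F] [InnerProductSpace ℂ F]

theorem au2_gt {A : Type*} [CStarAlgebra A] (S : Set A) (T : A →ₗ[ℂ] F) {C : ℝ} (hC : 0 ≤ C)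
    (hT : ∀ h ∈ StarSubalgebra.centralizer ℂ S, ‖T h‖ ≤ C * ‖h‖) {I : Type*} [Fintype I]
    (x : I → A) (hx : ∀ i, x i ∈ StarSubalgebra.centralizer ℂ S) :
    ∑ i, ‖T (x i)‖ ^ 2 ≤ 3 * C ^ 2 * (‖∑ i, star (x i) * x i‖ + ‖∑ i, x i * star (x i)‖) := by
  have : IsClosed (StarSubalgebra.centralizer ℂ S : Set A) := Set.isClosed_centralizer _
  let V₀ : StarSubalgebra.centralizer ℂ S →ₗ[ℂ] F :=
    { toFun := fun y => T y
      map_add' := fun a b => T.map_add a b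
      map_smul' := fun r a => T.map_smul r a }
  have hV₀ : ∀ y, ‖V₀ y‖ ≤ C * ‖y‖ := fun y => hT y y.2
  have hV : ‖V₀.mkContinuous _ hV₀‖ ≤ C := V₀.mkContinuous_norm_le hC hV₀
  have h := gt_gen (V₀.mkContinuous _ hV₀) fun i => ⟨x i, hx i⟩
  rw [AddSubgroupClass.coe_norm, AddSubgroupClass.coe_norm, AddSubmonoidClass.coe_finsetSum,
    AddSubmonoidClass.coe_finsetSum] at h
  refine h.trans ?_
  exact mul_le_mul_of_nonneg_right (mul_le_mul_of_nonneg_left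
    (pow_le_pow_left₀ (norm_nonneg _) hV 2) (by norm_num)) (by positivity)

section Alg

variable {R : Type*} [Ring R] [StarRing R] {I : Type*} [Fintype I] [DecidableEq I]
  {ε : I → I → R}

/-- The matrix entries of `W`, as elements of the relative commutant. -/
def au2U (ε : I → I → R) (W : R) (a d : I) : R := ∑ j, ε j a * W * ε d j

theorem au2U_left (hε : MUnits ε) (W : R) (a d i k : I) :
    ε i k * au2U ε W a d = ε i a * W * ε d k := by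
  rw [au2U, mul_sum, sum_eq_single k]
  · rw [← mul_assoc, ← mul_assoc, hε.mul, if_pos rfl]
  · intro j _ hj
    rw [← mul_assoc, ← mul_assoc, hε.mul, if_neg (Ne.symm hj), zero_mul, zero_mul]
  · simp

theorem au2U_right (hε : MUnits ε) (W : R) (a d i k : I) :
    au2U ε W a d * ε i k = ε i a * W * ε d k := by
  rw [au2U, sum_mul, sum_eq_single i]
  · rw [mul_assoc, hε.mul, if_pos rfl]
  · intro j _ hj
    rw [mul_assoc, hε.mul, if_neg hj, mul_zero]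
  · simp

theorem au2U_star (hε : MUnits ε) (W : R) (a d : I) :
    star (au2U ε W a d) = au2U ε (star W) d a := by
  simp only [au2U, star_sum, star_mul, hε.star_eq, mul_assoc]

theorem au2U_sum (hε : MUnits ε) (h1 : ∑ a, ε a a = 1) {W W' : R} (h : W' * W = 1) (d : I) :
    ∑ a, au2U ε W' d a * au2U ε W a d = 1 := by
  have e : ∀ a, au2U ε W' d a * au2U ε W a d = ∑ j, ε j d * W' * ε a a * W * ε d j := by
    intro a
    conv_lhs => rw [au2U, sum_mul]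
    refine sum_congr rfl fun j _ => ?_
    rw [mul_assoc, au2U_left hε]
    simp only [mul_assoc]
  simp only [e]
  rw [sum_comm, ← h1]
  refine sum_congr rfl fun j _ => ?_
  rw [← sum_mul, ← sum_mul, ← mul_sum, h1, mul_one, mul_assoc (ε j d), h, mul_one, hε.mul,
    if_pos rfl]

theorem au2U_exp (hε : MUnits ε) (h1 : ∑ a, ε a a = 1) (W : R) (a₀ d c : I) :
    W * ε d c = ∑ a, ε a a₀ * (au2U ε W a d * ε a₀ c) := by
  have e : ∀ a, ε a a₀ * (au2U ε W a d * ε a₀ c) = ε a a * (W * ε d c) := by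
    intro a
    rw [au2U_right hε, ← mul_assoc, ← mul_assoc, hε.mul, if_pos rfl, mul_assoc]
  simp only [e]
  rw [← sum_mul, h1, one_mul]

theorem au2_cells (hε : MUnits ε) (h1 : ∑ a, ε a a = 1) : Cells fun a => ε a a :=
  ⟨fun a => hε.star_eq a a, fun a b => by
    rw [hε.mul]
    split_ifs with h
    · rw [h]
    · rfl, h1⟩

variable [Algebra ℂ R] [StarModule ℂ R]

theorem au2_col (Q : QT R F) (hε : MUnits ε) (h1 : ∑ a, ε a a = 1) (a₀ : I) (D : I → R) :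
    ‖Q.ev (∑ a, ε a a₀ * D a)‖ ^ 2 ≤ ∑ a, ‖Q.ev (D a)‖ ^ 2 := by
  rw [← Q.pyth (au2_cells hε h1)]
  refine sum_le_sum fun a _ => ?_
  have e : ε a a * ∑ b, ε b a₀ * D b = ε a a₀ * D a := by
    rw [mul_sum, sum_eq_single a]
    · rw [← mul_assoc, hε.mul, if_pos rfl]
    · intro j _ hj
      rw [← mul_assoc, hε.mul, if_neg (Ne.symm hj), zero_mul]
    · simp
  rw [e]
  exact pow_le_pow_left₀ (norm_nonneg _) (Gamma_ctr Q hε a a₀ _) 2

theorem au2_small (Q : QT R F) (hε : MUnits ε) (h1 : ∑ a, ε a a = 1) (a₀ : I) :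
    (Fintype.card I : ℝ) * ‖Q.ev (ε a₀ a₀)‖ ^ 2 ≤ 4 * ‖Q.ev 1‖ ^ 2 := by
  rw [← Q.sum_norm_cells (au2_cells hε h1), mul_sum, ← nsmul_eq_mul, ← card_univ, ← sum_const]
  refine sum_le_sum fun a _ => ?_
  have e1 := Gamma_ctr Q hε a₀ a (ε a a₀)
  have e2 := Gamma_ctr Q hε a₀ a (ε a a)
  have e3 := Q.star_le (ε a₀ a)
  rw [hε.mul, if_pos rfl] at e1 e2
  rw [hε.star_eq] at e3
  have e4 : ‖Q.ev (ε a₀ a₀)‖ ≤ 2 * ‖Q.ev (ε a a)‖ := by linarith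
  have := pow_le_pow_left₀ (norm_nonneg _) e4 2
  linarith [mul_pow 2 ‖Q.ev (ε a a)‖ 2]

theorem au2_coef (hε : MUnits ε) (cc : I → I → ℂ)
    (hr : Flat (fun a => ε a a) (∑ a, ∑ b, cc a b • ε a b)) (c d : I) :
    ‖cc d c‖ ^ 2 = (Fintype.card I : ℝ)⁻¹ ∨ ε d c = 0 := by
  have h := hr.flat c d
  rw [Gamma_mat_star hε, Gamma_mat_flat hε, ← sub_eq_zero, ← sub_smul] at h
  by_cases h0 : cc d c * star (cc d c) - (Fintype.card I : ℂ)⁻¹ = 0
  · left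
    rw [sub_eq_zero, Complex.star_def, Complex.mul_conj, Complex.normSq_eq_norm_sq] at h0
    apply Complex.ofReal_injective
    rw [h0, Complex.ofReal_inv, Complex.ofReal_natCast]
  · right
    have h2 : ε d d = 0 := by
      have := congrArg (fun y => (cc d c * star (cc d c) - (Fintype.card I : ℂ)⁻¹)⁻¹ • y) h
      simpa only [smul_smul, inv_mul_cancel₀ h0, one_smul, smul_zero] using this
    have h3 := hε.mul d d d c
    rw [if_pos rfl, h2, zero_mul] at h3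
    exact h3.symm

end Alg

theorem au2_norm {A I : Type*} [CStarAlgebra A] [DecidableEq I] {ε : I → I → A} (hε : MUnits ε)
    (a b : I) : ‖ε a b‖ ≤ 1 := by
  have h1 : IsStarProjection (ε b b) :=
    ⟨by show _ * _ = _; rw [hε.mul, if_pos rfl], hε.star_eq b b⟩
  have h2 := CStarRing.norm_star_mul_self (x := ε a b)
  rw [hε.star_eq, hε.mul, if_pos rfl] at h2
  have h3 := h1.norm_le
  nlinarith [norm_nonneg (ε a b)]

theorem au2_nsmul {A : Type*} [CStarAlgebra A] {I : Type*} [Fintype I] :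
    ‖∑ _ : I, (1 : A)‖ ≤ Fintype.card I := by
  refine (norm_sum_le _ _).trans ((sum_le_card_nsmul _ _ 1 fun _ _ =>
    (IsStarProjection.one A).norm_le).trans ?_)
  simp

theorem au2_row {Q : QT M F} {m : ℕ} {ε : Fin m → Fin m → M} (hε : MUnits ε)
    (h1 : ∑ a, ε a a = 1) (a₀ : Fin m) {ψ : Mp M}
    (hmod : ∀ a b x, ψ (ε a b * x) = ε a b * ψ x) (s : M) (c : Fin m) {C : ℝ} (hC : 0 ≤ C)
    (hb : ∀ h ∈ StarSubalgebra.centralizer ℂ (rng ε),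
      ‖Q.ev (ψ (h * (ε a₀ c * s)) - h * ψ (ε a₀ c * s))‖ ≤ C * ‖h‖) {W : M} (hW : W ∈ unitary M) :
    ∑ d, ‖Q.ev (ψ (W * ε d c * s) - W * ε d c * ψ s)‖ ^ 2 ≤ 6 * m * C ^ 2 := by
  let T : M →ₗ[ℂ] F := Q.ev ∘ₗ ((ψ : M →ₗ[ℂ] M) ∘ₗ LinearMap.mulRight ℂ (ε a₀ c * s) -
    LinearMap.mulRight ℂ (ψ (ε a₀ c * s)))
  have hT : ∀ h, T h = Q.ev (ψ (h * (ε a₀ c * s)) - h * ψ (ε a₀ c * s)) := fun _ => rfl
  have h2 := au2_gt (rng ε) T hC hb (fun p : Fin m × Fin m => au2U ε W p.1 p.2) fun p => by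
    rw [StarSubalgebra.mem_centralizer_iff]
    rintro _ ⟨i, k, rfl⟩
    rw [hε.star_eq, au2U_left hε, au2U_left hε, au2U_right hε, au2U_right hε]
    exact ⟨rfl, rfl⟩
  simp only [au2U_star hε] at h2
  rw [Fintype.sum_prod_type_right, Fintype.sum_prod_type_right,
    Fintype.sum_prod_type (fun p : Fin m × Fin m => au2U ε W p.1 p.2 * _)] at h2
  simp only [au2U_sum hε h1 hW.1, au2U_sum hε h1 hW.2] at h2
  have h3 := au2_nsmul (A := M) (I := Fin m)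
  rw [Fintype.card_fin] at h3
  refine (sum_le_sum fun d _ => ?_).trans (h2.trans ?_)
  · refine le_trans (le_of_eq ?_) (au2_col Q hε h1 a₀ fun a =>
      ψ (au2U ε W a d * (ε a₀ c * s)) - au2U ε W a d * ψ (ε a₀ c * s))
    rw [au2U_exp hε h1 W a₀ d c, sum_mul, sum_mul, map_sum, ← sum_sub_distrib]
    refine congrArg (fun y => ‖Q.ev y‖ ^ 2) (sum_congr rfl fun a _ => ?_)
    rw [mul_assoc, hmod, hmod, mul_sub]
    simp only [mul_assoc]
  · nlinarith [sq_nonneg C]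

theorem au2 {Q : QT M F} (hQ : TrD M Q) {K δ : ℝ} (hK0 : 0 ≤ K) (hδ : 0 ≤ δ) {m n : ℕ}
    {ε : Fin m → Fin m → M} (hε : MUnits ε) (h1 : ∑ a, ε a a = 1) (a₀ : Fin m) {ψ : Mp M}
    (hψ : ψ ∈ Ball M K) (hmod : ∀ a b x, ψ (ε a b * x) = ε a b * ψ x) {s : M} (hs : ‖s‖ ≤ 1)
    (bad : Finset (Fin m)) (hn : bad.card ≤ n)
    (hgood : ∀ c ∉ bad, ∀ h : UG (rng ε),
      ‖Q.ev (ψ (h.1 * (ε a₀ c * s)) - h.1 * ψ (ε a₀ c * s))‖ ≤ δ * ‖Q.ev (ε a₀ a₀)‖)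
    (cc : Fin m → Fin m → ℂ) {r : M} (hrc : r = ∑ a, ∑ b, cc a b • ε a b)
    (hr : Flat (fun a => ε a a) r) {W : M} (hW : W ∈ unitary M) :
    ∑ c, ∑ d, ‖Q.ev (ψ (W * ε d d * r * ε c c * s) - W * ε d d * r * ε c c * ψ s)‖ ^ 2 ≤
      (96 * δ ^ 2 + 1536 * K ^ 2 * n / m) * ‖Q.ev 1‖ ^ 2 := by
  have hm : (0 : ℝ) < m := by exact_mod_cast a₀.pos
  have hb : ∀ c, ‖ε a₀ c * s‖ ≤ 1 := fun c =>
    (norm_mul_le _ _).trans (mul_le_one₀ (au2_norm hε _ _) (norm_nonneg _) hs)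
  have hall : ∀ c, ∀ h ∈ StarSubalgebra.centralizer ℂ (rng ε),
      ‖Q.ev (ψ (h * (ε a₀ c * s)) - h * ψ (ε a₀ c * s))‖ ≤ 8 * K * ‖Q.ev (ε a₀ a₀)‖ * ‖h‖ := by
    intro c h hh
    have e1 : ε a₀ a₀ * h = h * ε a₀ a₀ :=
      ((StarSubalgebra.mem_centralizer_iff ℂ).1 hh _ ⟨a₀, a₀, rfl⟩).1
    have e2 : ε a₀ a₀ * (ε a₀ c * s) = ε a₀ c * s := by rw [← mul_assoc, hε.mul, if_pos rfl]
    have e3 : ψ (h * (ε a₀ c * s)) - h * ψ (ε a₀ c * s) =
        ε a₀ a₀ * (ψ (h * (ε a₀ c * s)) - h * ψ (ε a₀ c * s)) := by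
      rw [mul_sub, ← hmod, ← mul_assoc _ h, ← mul_assoc _ h, e1, mul_assoc, mul_assoc, ← hmod, e2]
    have e4 : ‖ψ (h * (ε a₀ c * s)) - h * ψ (ε a₀ c * s)‖ ≤ 2 * K * ‖h‖ := by
      have i1 : ‖ψ (h * (ε a₀ c * s))‖ ≤ K * ‖h‖ := (hψ _).trans (mul_le_mul_of_nonneg_left
        ((norm_mul_le _ _).trans (mul_le_of_le_one_right (norm_nonneg _) (hb c))) hK0)
      have i2 : ‖h * ψ (ε a₀ c * s)‖ ≤ ‖h‖ * K := (norm_mul_le _ _).trans
        (mul_le_mul_of_nonneg_left ((hψ _).trans (mul_le_of_le_one_right hK0 (hb c)))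
          (norm_nonneg _))
      linarith [norm_sub_le (ψ (h * (ε a₀ c * s))) (h * ψ (ε a₀ c * s))]
    rw [e3]
    refine (hQ.right _ _).trans ?_
    nlinarith [norm_nonneg (Q.ev (ε a₀ a₀))]
  have hgd : ∀ c ∉ bad, ∀ h ∈ StarSubalgebra.centralizer ℂ (rng ε),
      ‖Q.ev (ψ (h * (ε a₀ c * s)) - h * ψ (ε a₀ c * s))‖ ≤ 2 * δ * ‖Q.ev (ε a₀ a₀)‖ * ‖h‖ := by
    intro c hc h hh
    obtain ⟨u, k, e, hk⟩ := four (rng ε) (by
      rintro _ ⟨i, j, rfl⟩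
      exact ⟨j, i, hε.star_eq i j⟩) (a := h) fun y hy =>
        ((StarSubalgebra.mem_centralizer_iff ℂ).1 hh y hy).1.symm
    have e2 : Q.ev (ψ (h * (ε a₀ c * s)) - h * ψ (ε a₀ c * s)) = ∑ i, k i •
        Q.ev (ψ ((u i).1 * (ε a₀ c * s)) - (u i).1 * ψ (ε a₀ c * s)) := by
      conv_lhs => rw [e]
      simp only [sum_mul, map_sum, smul_mul_assoc, map_smul, map_sub, sum_sub_distrib, smul_sub]
    rw [e2]
    refine (norm_sum_le _ _).trans ((sum_le_card_nsmul _ _ (‖h‖ / 2 * (δ * ‖Q.ev (ε a₀ a₀)‖))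
      fun i _ => ?_).trans (le_of_eq ?_))
    · rw [norm_smul]
      exact mul_le_mul (hk i) (hgood c hc _) (norm_nonneg _) (by positivity)
    · simp only [card_univ, Fintype.card_fin, nsmul_eq_mul, Nat.cast_ofNat]
      ring
  have hterm : ∀ c d, ‖Q.ev (ψ (W * ε d d * r * ε c c * s) - W * ε d d * r * ε c c * ψ s)‖ ^ 2 ≤
      (m : ℝ)⁻¹ * ‖Q.ev (ψ (W * ε d c * s) - W * ε d c * ψ s)‖ ^ 2 := by
    intro c d
    have e : W * ε d d * r * ε c c = cc d c • (W * ε d c) := by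
      rw [← mul_smul_comm, ← Gamma_mat_entry hε, ← hrc]
      simp only [mul_assoc]
    rw [e, smul_mul_assoc, smul_mul_assoc, map_smul, ← smul_sub, map_smul, norm_smul, mul_pow]
    rcases au2_coef hε cc (hrc ▸ hr) c d with h | h
    · rw [h, Fintype.card_fin]
    · simp [h]
  have hrow : ∀ c, ∑ d, ‖Q.ev (ψ (W * ε d d * r * ε c c * s) - W * ε d d * r * ε c c * ψ s)‖ ^ 2 ≤
      24 * δ ^ 2 * ‖Q.ev (ε a₀ a₀)‖ ^ 2 +
        if c ∈ bad then 384 * K ^ 2 * ‖Q.ev (ε a₀ a₀)‖ ^ 2 else 0 := by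
    intro c
    refine (sum_le_sum fun d _ => hterm c d).trans ?_
    rw [← mul_sum, inv_mul_le_iff₀ hm]
    split_ifs with hc
    · refine (au2_row hε h1 a₀ hmod s c (by positivity) (hall c) hW).trans ?_
      have : 0 ≤ m * (24 * δ ^ 2 * ‖Q.ev (ε a₀ a₀)‖ ^ 2) := by positivity
      nlinarith
    · refine (au2_row hε h1 a₀ hmod s c (by positivity) (hgd c hc) hW).trans (le_of_eq ?_)
      ring
  refine (sum_le_sum fun c _ => hrow c).trans ?_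
  rw [sum_add_distrib, sum_ite_mem, univ_inter, sum_const, sum_const, card_univ, Fintype.card_fin,
    nsmul_eq_mul, nsmul_eq_mul]
  have h2 := au2_small Q hε h1 a₀
  rw [Fintype.card_fin] at h2
  have h3 : ‖Q.ev (ε a₀ a₀)‖ ^ 2 ≤ 4 * ‖Q.ev 1‖ ^ 2 / m := by
    rw [le_div_iff₀ hm]; linarith
  have h4 : (bad.card : ℝ) ≤ n := by exact_mod_cast hn
  have h5 : (bad.card : ℝ) * (384 * K ^ 2 * ‖Q.ev (ε a₀ a₀)‖ ^ 2) ≤
      n * (384 * K ^ 2 * (4 * ‖Q.ev 1‖ ^ 2 / m)) := by gcongr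
  have h6 : n * (384 * K ^ 2 * (4 * ‖Q.ev 1‖ ^ 2 / m)) = 1536 * K ^ 2 * n / m * ‖Q.ev 1‖ ^ 2 := by
    ring
  have h7 := mul_le_mul_of_nonneg_left h2 (sq_nonneg δ)
  nlinarith

end Vale.Agent.KR
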