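import Vale.Agent.KR.Ker

/-!
# The cyclic estimate (notes, section 4 Cyc; compare `P104/Window.lean`)
`ω` from `roots_orth` of order `N = 4J`. For `θ < N`: `v = ω^θ • u` unitary, `d = ∑ l<2J, v^l`, `P = ∑ c j • (v^(j+1) - v*^(j+1))`, `‖P‖ ≤ 20` (`Ker.unitary`).
`S θ = <ev (d y), ev (d ψ (P s))>`, `‖S θ‖ ≤ 4 ‖ev d‖ · 4 · 20 K ‖ev d‖`, `∑ θ, ‖ev d‖² = N 2J ‖ev 1‖²`.
Expand: `<ev (v^l y), ev (v^l' T)> = <ev (v*^l' v^l y), ev T>`; the sum over `θ` keeps `l = l' + j + 1` for the first half of `P` and `l' = l + j + 1` for the second half;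
there are `2J - (j+1)` such pairs.
-/

namespace Vale.Agent.KR

open Vale.Agent.P104 Finset
open scoped InnerProductSpace

variable {F : Type*} [NormedAddCommGroup F] [InnerProductSpace ℂ F]

theorem cyc_count {L m : ℕ} (h : m ≤ L) (X : ℂ) :
    ∑ k ∈ range L, ∑ i ∈ range L, (if k = i + m then X else 0) = ((L : ℂ) - m) * X := by
  rw [sum_comm]
  simp only [sum_ite_eq', mem_range]
  rw [← sum_filter, sum_const, nsmul_eq_mul, ← Nat.cast_sub h]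
  congr 2
  rw [← card_range (L - m)]
  congr 1
  ext i
  simp only [mem_filter, mem_range]
  omega

theorem cyc {A : Type*} [CStarAlgebra A] (Q : QT A F)
    (hQ : ∀ a b, ‖Q.ev (a * b)‖ ≤ ‖a‖ * ‖Q.ev b‖) {J : ℕ} {c : ℕ → ℝ} {Λ : ℝ} (hk : Ker J c Λ)
    (ψ : A →ₗ[ℂ] A) {K : ℝ} (hK0 : 0 ≤ K) (hψ : ∀ x, ‖ψ x‖ ≤ K * ‖x‖) {u y s : A}
    (hu : u ∈ unitary A) (hy : ‖y‖ ≤ 1) (hs : ‖s‖ ≤ 1) :
    ‖∑ j ∈ range J, ((c j * (1 - (j + 1) / (2 * J)) : ℝ) : ℂ) *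
      (⟪Q.ev (u ^ (j + 1) * y), Q.ev (ψ (u ^ (j + 1) * s))⟫_ℂ -
        ⟪Q.ev (star u ^ (j + 1) * y), Q.ev (ψ (star u ^ (j + 1) * s))⟫_ℂ)‖ ≤
      320 * K * ‖Q.ev 1‖ ^ 2 := by
  have hJ := hk.pos
  have hJ' : (0 : ℝ) < J := by exact_mod_cast hJ
  obtain ⟨ω, hω1, hω⟩ := roots_orth (M := 4 * J) (by omega)
  have hcc : ∀ θ : ℕ, star (ω ^ θ) * ω ^ θ = 1 := fun θ => by
    rw [mul_comm, Complex.star_def, Complex.mul_conj, Complex.normSq_eq_norm_sq, norm_pow, hω1]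
    simp
  have hut : ∀ θ : ℕ, ω ^ θ • u ∈ unitary A := fun θ =>
    ⟨by rw [star_smul, smul_mul_smul_comm, hcc, hu.1, one_smul],
      by rw [star_smul, smul_mul_smul_comm, mul_comm, hcc, hu.2, one_smul]⟩
  let d : ℕ → A := fun θ => ∑ l ∈ range (2 * J), ω ^ (θ * l) • u ^ l
  have hd : ∀ θ x, Q.ev (d θ * x) = ∑ l ∈ range (2 * J), ω ^ (θ * l) • Q.ev (u ^ l * x) := by
    intro θ x
    simp only [d, sum_mul, map_sum, smul_mul_assoc, map_smul]
  let P : ℕ → A := fun θ => ∑ j ∈ range J, (c j : ℂ) •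
    ((ω ^ θ • u) ^ (j + 1) - star (ω ^ θ • u) ^ (j + 1))
  have hP : ∀ θ, ‖P θ‖ ≤ 20 := fun θ => hk.unitary (hut θ)
  have hright : ∀ a b : A, ‖Q.ev (a * b)‖ ≤ 4 * ‖b‖ * ‖Q.ev a‖ := by
    intro a b
    have e1 := Q.star_le (star b * star a)
    rw [star_mul, star_star, star_star] at e1
    have e2 := hQ (star b) (star a)
    rw [norm_star] at e2
    have e3 := mul_le_mul_of_nonneg_left (Q.star_le a) (norm_nonneg b)
    linarith
  have hS : ∀ θ, ‖⟪Q.ev (d θ * y), Q.ev (d θ * ψ (P θ * s))⟫_ℂ‖ ≤ 320 * K * ‖Q.ev (d θ * 1)‖ ^ 2 := by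
    intro θ
    have e1 : ‖ψ (P θ * s)‖ ≤ K * 20 := by
      refine (hψ _).trans (mul_le_mul_of_nonneg_left ((norm_mul_le _ _).trans ?_) hK0)
      exact (mul_le_mul (hP θ) hs (norm_nonneg _) (by norm_num)).trans_eq (mul_one _)
    refine (norm_inner_le_norm _ _).trans ?_
    rw [mul_one]
    calc ‖Q.ev (d θ * y)‖ * ‖Q.ev (d θ * ψ (P θ * s))‖
        ≤ (4 * 1 * ‖Q.ev (d θ)‖) * (4 * (K * 20) * ‖Q.ev (d θ)‖) := by
          refine mul_le_mul ((hright _ _).trans ?_) ((hright _ _).trans ?_) (norm_nonneg _)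
            (by positivity) <;> gcongr
      _ = _ := by ring
  have hD : ∑ θ ∈ range (4 * J), ‖Q.ev (d θ * 1)‖ ^ 2 = 4 * J * (2 * J * ‖Q.ev 1‖ ^ 2) := by
    simp only [hd]
    rw [ker_parseval hω _ fun i hi => by have := mem_range.1 hi; omega]
    simp only [Q.norm_unitary (pow_mem hu _)]
    simp
  have hiso : ∀ (i : ℕ) (a b : A), ⟪Q.ev (u ^ i * a), Q.ev (u ^ i * b)⟫_ℂ = ⟪Q.ev a, Q.ev b⟫_ℂ := by
    intro i a b
    rw [Q.adj, ← mul_assoc, (pow_mem hu i).1, one_mul]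
  have h1 : ∀ j ∈ range J, ∀ T : A, ∑ θ ∈ range (4 * J), (ω ^ θ) ^ (j + 1) *
      ⟪Q.ev (d θ * y), Q.ev (d θ * T)⟫_ℂ =
      4 * J * ((2 * J - (j + 1)) * ⟪Q.ev (u ^ (j + 1) * y), Q.ev T⟫_ℂ) := by
    intro j hj T
    have hj' := mem_range.1 hj
    simp only [hd]
    rw [ker_bil]
    have := cyc_count (L := 2 * J) (m := j + 1) (by omega)
      (4 * J * ⟪Q.ev (u ^ (j + 1) * y), Q.ev T⟫_ℂ)
    push_cast at this
    rw [mul_left_comm, ← this]
    refine sum_congr rfl fun k hk' => sum_congr rfl fun i hi => ?_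
    have e1 := hω k (by have := mem_range.1 hk'; omega) (i + (j + 1))
      (by have := mem_range.1 hi; omega)
    have e2 : ∑ θ ∈ range (4 * J), (ω ^ θ) ^ (j + 1) *
        ((starRingEnd ℂ) (ω ^ (θ * k)) * ω ^ (θ * i)) =
        if k = i + (j + 1) then ((4 * J : ℕ) : ℂ) else 0 := by
      rw [← e1]
      exact sum_congr rfl fun θ _ => by ring
    rw [e2]
    split_ifs with h
    · rw [h, pow_add u i, mul_assoc (u ^ i), hiso]
      push_cast
      rfl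
    · exact zero_mul _
  have h2 : ∀ j ∈ range J, ∀ T : A, ∑ θ ∈ range (4 * J), (starRingEnd ℂ) (ω ^ θ) ^ (j + 1) *
      ⟪Q.ev (d θ * y), Q.ev (d θ * T)⟫_ℂ =
      4 * J * ((2 * J - (j + 1)) * ⟪Q.ev (star u ^ (j + 1) * y), Q.ev T⟫_ℂ) := by
    intro j hj T
    have hj' := mem_range.1 hj
    simp only [hd]
    rw [ker_bil, sum_comm]
    have := cyc_count (L := 2 * J) (m := j + 1) (by omega)
      (4 * J * ⟪Q.ev (star u ^ (j + 1) * y), Q.ev T⟫_ℂ)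
    push_cast at this
    rw [mul_left_comm, ← this]
    refine sum_congr rfl fun i hi => sum_congr rfl fun k hk' => ?_
    have e1 := hω (k + (j + 1)) (by have := mem_range.1 hk'; omega) i
      (by have := mem_range.1 hi; omega)
    have e2 : ∑ θ ∈ range (4 * J), (starRingEnd ℂ) (ω ^ θ) ^ (j + 1) *
        ((starRingEnd ℂ) (ω ^ (θ * k)) * ω ^ (θ * i)) =
        if k + (j + 1) = i then ((4 * J : ℕ) : ℂ) else 0 := by
      rw [← e1]
      refine sum_congr rfl fun θ _ => ?_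
      simp only [map_pow]
      ring
    rw [e2]
    by_cases h : k + (j + 1) = i
    · have e3 : u ^ k * y = u ^ i * (star u ^ (j + 1) * y) := by
        rw [← h, pow_add u k, mul_assoc, ← mul_assoc (u ^ (j + 1)), ← star_pow,
          (pow_mem hu (j + 1)).2, one_mul]
      rw [if_pos h, if_pos h.symm, e3, hiso]
      push_cast
      rfl
    · rw [if_neg h, if_neg (Ne.symm h), zero_mul]
  have h3 : ∑ θ ∈ range (4 * J), ⟪Q.ev (d θ * y), Q.ev (d θ * ψ (P θ * s))⟫_ℂ =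
      ((4 * J * (2 * J) : ℝ) : ℂ) * ∑ j ∈ range J, ((c j * (1 - (j + 1) / (2 * J)) : ℝ) : ℂ) *
      (⟪Q.ev (u ^ (j + 1) * y), Q.ev (ψ (u ^ (j + 1) * s))⟫_ℂ -
        ⟪Q.ev (star u ^ (j + 1) * y), Q.ev (ψ (star u ^ (j + 1) * s))⟫_ℂ) := by
    have e1 : ∀ θ, ⟪Q.ev (d θ * y), Q.ev (d θ * ψ (P θ * s))⟫_ℂ = ∑ j ∈ range J, (c j : ℂ) *
        ((ω ^ θ) ^ (j + 1) * ⟪Q.ev (d θ * y), Q.ev (d θ * ψ (u ^ (j + 1) * s))⟫_ℂ -
          (starRingEnd ℂ) (ω ^ θ) ^ (j + 1) *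
            ⟪Q.ev (d θ * y), Q.ev (d θ * ψ (star u ^ (j + 1) * s))⟫_ℂ) := by
      intro θ
      simp only [P, star_smul, smul_pow, sum_mul, map_sum, mul_sum, smul_mul_assoc, sub_mul,
        map_smul, map_sub, mul_smul_comm, mul_sub, inner_sum, inner_smul_right, inner_sub_right,
        Complex.star_def]
    simp only [e1]
    rw [sum_comm, mul_sum]
    refine sum_congr rfl fun j hj => ?_
    rw [← mul_sum, sum_sub_distrib, h1 j hj, h2 j hj]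
    have : (J : ℂ) ≠ 0 := by exact_mod_cast hJ.ne'
    push_cast
    field_simp
  have h4 := (norm_sum_le _ _).trans (sum_le_sum fun θ (_ : θ ∈ range (4 * J)) => hS θ)
  rw [h3, norm_mul, Complex.norm_real, Real.norm_of_nonneg (by positivity), ← mul_sum, hD] at h4
  refine le_of_mul_le_mul_left (h4.trans_eq ?_) (by positivity : (0 : ℝ) < 4 * J * (2 * J))
  ring

end Vale.Agent.KR
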