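import Vale.Agent.KR.NL1

/-!
# Decoupling, second layer (notes, section 4 NL; compare `P104/Decouple.lean`)
`B = X Z₁ r`, `Z = Z₂`, `F = FF B Z j`, `F c = FF B (Z (1 - q c)) j`, `V = F Z`, `V c = F c Z (1 - q c)`, `σ c = sgn (g.2 c)`.
`<ev (U V y), Δ (U V)> = ∑ c, σ c <ev (U V y), Δ (U F q c)>
 = ∑ σ c <ev (U V c y), Δ (U F c q c)> + ∑ σ c <ev (U (V - V c) y), Δ (U F q c)> + <ev (U V y), Δ (U ∑ σ c (F - F c) q c)> - ∑ σ c <ev (U (V - V c) y), Δ (U (F - F c) q c)>`.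
The first sum has mean zero. `∑ c, ‖ev ((V - V c) y)‖² ≤ 16 (j+1)² ‖ev 1‖²` (telescope, `pyth`, `Ctr.right`). Second: `nl1`. Third and fourth: `pyth_right'`, `R1`, `returns`.
Finally take the minimum of the `δ` and the maximum of the `m₀` over `j < J`.
-/

namespace Vale.Agent.KR

open Vale.Agent.P104 Finset
open scoped InnerProductSpace

variable {R E : Type*} [Ring R] [StarRing R] [Algebra ℂ R] [StarModule ℂ R]
  [NormedAddCommGroup E] [InnerProductSpace ℂ E]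

open Dec

section

variable (Q : QT R E) {C : Type*} [Fintype C] [DecidableEq C] {q : C → R}

omit [InnerProductSpace ℂ E] [StarRing R] [StarModule ℂ R] in
theorem nl2_sg [NormedSpace ℂ E] (Δ : R →ₗ[ℂ] E) (a : R) (b : Bool) :
    ‖Δ (a * sg R b)‖ = ‖Δ a‖ := by
  cases b <;> simp [sg]

theorem nl2_inner (u v : E) {l x y : ℝ} (hl : 0 < l) (hx : ‖u‖ ^ 2 ≤ x) (hy : ‖v‖ ^ 2 ≤ y) :
    ‖⟪u, v⟫_ℂ‖ ≤ l / 2 * x + y / (2 * l) := by
  refine (norm_inner_le_norm u v).trans ((amgm _ _ hl).trans ?_)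
  gcongr

omit [StarModule ℂ R] in
theorem nl2_a (hq : Cells q) {B Z : R} (hB : B ∈ unitary R) (hZ : Z ∈ unitary R) (y : R) (s : ℕ) :
    ∑ c, ‖Q.ev (((B * Z) ^ s - (B * (Z * (1 - q c))) ^ s) * y)‖ ^ 2 ≤ s ^ 2 * ‖Q.ev y‖ ^ 2 := by
  have h1 : ∀ c, ‖Q.ev (((B * Z) ^ s - (B * (Z * (1 - q c))) ^ s) * y)‖ ^ 2 ≤
      s * ∑ i ∈ range s, ‖Q.ev (q c * ((B * Z) ^ i * y))‖ ^ 2 := by
    intro c
    rw [returns_tele, sum_mul]
    refine returns_norm_sum Q s _ _ fun i => ?_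
    have h2 : (B * (Z * (1 - q c))) ^ (s - 1 - i) * (B * Z - B * (Z * (1 - q c))) *
        (B * Z) ^ i * y = (B * (Z * (1 - q c))) ^ (s - 1 - i) * (B * Z) *
          (q c * ((B * Z) ^ i * y)) := by
      noncomm_ring
    rw [h2]
    exact (((Q.ctr_unitary hB).mul ((Q.ctr_unitary hZ).mul (ctr_q' Q hq c))).pow _).mul
      (Q.ctr_unitary (mul_mem hB hZ)) _
  refine (sum_le_sum fun c _ => h1 c).trans (le_of_eq ?_)
  rw [← mul_sum, sum_comm]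
  simp only [Q.pyth hq, Q.norm_unitary (pow_mem (mul_mem hB hZ) _), sum_const, card_range,
    nsmul_eq_mul]
  ring

theorem nl2_point {B Z U : R} {b : C → Bool} (h : Loc q B Z fun c => sg R (b c))
    (hU : U ∈ unitary R) (y : R) (j : ℕ) {Δ : R →ₗ[ℂ] E} {L l : ℝ} (hl : 0 < l)
    (hΔ : ∀ a, ‖Δ a‖ ≤ L * ‖Q.ev a‖) :
    ‖⟪Q.ev (U * (B * Z) ^ (j + 1) * y), Δ (U * (B * Z) ^ (j + 1))⟫_ℂ -
      ∑ c, ⟪Q.ev (U * (B * (Z * (1 - q c))) ^ (j + 1) * y),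
        Δ (U * FF B (Z * (1 - q c)) j * q c * sg R (b c))⟫_ℂ‖ ≤
      l * ((j + 1) ^ 2 + 1) * ‖Q.ev y‖ ^ 2 + (2 * l)⁻¹ * ∑ c, ‖Δ (U * FF B Z j * q c)‖ ^ 2 +
        17 * L ^ 2 * j / (2 * l) * ∑ t ∈ range (j + 1), ret Q q (FF B Z t) := by
  set ρ := ∑ t ∈ range (j + 1), ret Q q (FF B Z t) with hρ
  have hR := R1 Q h (le_refl j)
  rw [← hρ] at hR
  set a : C → R := fun c => ((B * Z) ^ (j + 1) - (B * (Z * (1 - q c))) ^ (j + 1)) * y with ha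
  set d : C → R := fun c => FF B Z j - FF B (Z * (1 - q c)) j with hd
  have hS : ∑ c, ‖Q.ev (U * a c)‖ ^ 2 ≤ ((j + 1 : ℕ) : ℝ) ^ 2 * ‖Q.ev y‖ ^ 2 := by
    simp only [Q.norm_unitary hU]
    exact nl2_a Q h.hq h.hB h.hZ y (j + 1)
  have e0 : U * (B * Z) ^ (j + 1) = ∑ c, U * FF B Z j * q c * sg R (b c) := by
    have : Z = ∑ c, q c * sg R (b c) := by
      conv_lhs => rw [← mul_one Z, ← h.hq.sum, mul_sum]
      exact sum_congr rfl fun c _ => h.Zq c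
    simp only [mul_assoc, ← mul_sum, ← this, FF, pow_succ]
  have e : ⟪Q.ev (U * (B * Z) ^ (j + 1) * y), Δ (U * (B * Z) ^ (j + 1))⟫_ℂ -
      ∑ c, ⟪Q.ev (U * (B * (Z * (1 - q c))) ^ (j + 1) * y),
        Δ (U * FF B (Z * (1 - q c)) j * q c * sg R (b c))⟫_ℂ =
      ∑ c, ⟪Q.ev (U * a c), Δ (U * FF B Z j * q c * sg R (b c))⟫_ℂ +
        ⟪Q.ev (U * (B * Z) ^ (j + 1) * y), Δ (U * ∑ c, d c * sg R (b c) * q c)⟫_ℂ -
        ∑ c, ⟪Q.ev (U * a c), Δ (U * (d c * q c) * sg R (b c))⟫_ℂ := by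
    conv_lhs => enter [1, 3]; rw [e0]
    rw [mul_sum, map_sum, map_sum, inner_sum, inner_sum, ← sum_add_distrib, ← sum_sub_distrib,
      ← sum_sub_distrib]
    refine sum_congr rfl fun c _ => ?_
    have e1 : U * (d c * sg R (b c) * q c) = U * FF B Z j * q c * sg R (b c) -
        U * FF B (Z * (1 - q c)) j * q c * sg R (b c) := by
      rw [mul_assoc (d c), h.gq c]
      simp only [hd]
      noncomm_ring
    have e2 : U * (d c * q c) * sg R (b c) = U * FF B Z j * q c * sg R (b c) -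
        U * FF B (Z * (1 - q c)) j * q c * sg R (b c) := by
      simp only [hd]
      noncomm_ring
    have e3 : U * a c = U * (B * Z) ^ (j + 1) * y - U * (B * (Z * (1 - q c))) ^ (j + 1) * y := by
      simp only [ha]
      noncomm_ring
    rw [e1, e2, e3, map_sub, map_sub, inner_sub_left, inner_sub_left, inner_sub_right,
      inner_sub_right]
    ring
  have hL : 0 ≤ L ^ 2 := sq_nonneg L
  have b1 : ‖∑ c, ⟪Q.ev (U * a c), Δ (U * FF B Z j * q c * sg R (b c))⟫_ℂ‖ ≤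
      l / 2 * (((j + 1 : ℕ) : ℝ) ^ 2 * ‖Q.ev y‖ ^ 2) +
        (∑ c, ‖Δ (U * FF B Z j * q c)‖ ^ 2) / (2 * l) := by
    refine (norm_sum_le _ _).trans ((sum_le_sum fun c _ => nl2_inner _ _ hl le_rfl
      (by rw [nl2_sg])).trans ?_)
    rw [sum_add_distrib, ← mul_sum, ← sum_div]
    gcongr
  have b2 : ‖⟪Q.ev (U * (B * Z) ^ (j + 1) * y), Δ (U * ∑ c, d c * sg R (b c) * q c)⟫_ℂ‖ ≤
      l / 2 * ‖Q.ev y‖ ^ 2 + L ^ 2 * (16 * (j * ρ)) / (2 * l) := by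
    refine nl2_inner _ _ hl ?_ ((nl_sq Q hΔ _).trans ?_)
    · rw [Q.norm_unitary (mul_mem hU (pow_mem (mul_mem h.hB h.hZ) _))]
    · rw [Q.norm_unitary hU]
      refine mul_le_mul_of_nonneg_left ((Q.pyth_right' h.hq _).trans ?_) hL
      refine mul_le_mul_of_nonneg_left (le_trans (le_of_eq ?_) hR) (by norm_num)
      refine sum_congr rfl fun c _ => ?_
      rw [mul_assoc (d c), h.gq c, ← mul_assoc, nl2_sg]
  have b3 : ‖∑ c, ⟪Q.ev (U * a c), Δ (U * (d c * q c) * sg R (b c))⟫_ℂ‖ ≤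
      l / 2 * (((j + 1 : ℕ) : ℝ) ^ 2 * ‖Q.ev y‖ ^ 2) + L ^ 2 * (j * ρ) / (2 * l) := by
    refine (norm_sum_le _ _).trans ((sum_le_sum fun c _ => nl2_inner _ _ hl le_rfl
      (y := L ^ 2 * ‖Q.ev (d c * q c)‖ ^ 2)
      (by rw [nl2_sg, ← Q.norm_unitary hU]; exact nl_sq Q hΔ _)).trans ?_)
    rw [sum_add_distrib, ← mul_sum, ← sum_div, ← mul_sum]
    gcongr
  rw [e]
  refine (norm_sub_le _ _).trans ((add_le_add ((norm_add_le _ _).trans (add_le_add b1 b2))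
    b3).trans ?_)
  have h0 : 0 ≤ l / 2 * ‖Q.ev y‖ ^ 2 := by positivity
  refine le_trans (le_add_of_nonneg_right h0) (le_of_eq ?_)
  push_cast
  field_simp
  ring

end

omit [StarRing R] [StarModule ℂ R] in
theorem nl2_zero {G : Type*} [Fintype G] {γ : G → R} (hγ : ∑ x, γ x = 0) (Δ : R →ₗ[ℂ] E)
    (a : R) (w : E) : av (fun x => ⟪w, Δ (a * γ x)⟫_ℂ) = 0 := by
  unfold av
  rw [← inner_sum, ← map_sum, ← mul_sum, hγ]
  simp

theorem nl2 (Q : QT R E) (j : ℕ) {L ε : ℝ} (hL : 0 ≤ L) (hε : 0 < ε) :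
    ∃ δ : ℝ, 0 < δ ∧ ∃ m₀ : ℕ, ∀ m : ℕ, m₀ ≤ m → ∀ q : Fin m → R, Cells q → ∀ r X U y : R,
      Flat q r → X ∈ unitary R → U ∈ unitary R → Q.Ctr y → ∀ Δ : R →ₗ[ℂ] E,
      (∀ a, ‖Δ a‖ ≤ L * ‖Q.ev a‖) →
      (∀ W ∈ unitary R, ∑ c, ∑ d, ‖Δ (W * q d * r * q c)‖ ^ 2 ≤ δ) →
      ‖av (fun g : (Fin m → Bool) × (Fin m → Bool) =>
        ⟪Q.ev (U * wd q X r g ^ (j + 1) * y), Δ (U * wd q X r g ^ (j + 1))⟫_ℂ)‖ ≤ ε := by
  choose K hK0 hK using returns Q Bool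
  obtain ⟨l, hl, hl1⟩ : ∃ l : ℝ, 0 < l ∧ l * ((j + 1) ^ 2 + 1) * ‖Q.ev 1‖ ^ 2 ≤ ε / 3 := by
    refine ⟨(ε / 3) / (((j + 1) ^ 2 + 1) * ‖Q.ev 1‖ ^ 2 + 1), by positivity, ?_⟩
    rw [mul_assoc, div_mul_eq_mul_div, div_le_iff₀ (by positivity)]
    gcongr
    linarith
  obtain ⟨m₀, hm₀⟩ := Core.param' (c := 17 * L ^ 2 * j / (2 * l) * ∑ i ∈ range (j + 1), K i)
    (η := ε / 3) (by positivity)
  obtain ⟨δ, hδ0, m₁, h1⟩ := nl1 Q j hL (ε := 2 * l * (ε / 3)) (by positivity)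
  refine ⟨δ, hδ0, m₀ + m₁ + 1, ?_⟩
  intro m hm q hq r X U y hr hX hU hy Δ hΔ hδ
  have hm0 : 0 < m := by omega
  have h₁ := sg_fam q
  have hy1 : ‖Q.ev y‖ ^ 2 ≤ ‖Q.ev 1‖ ^ 2 := by
    have := hy 1
    rw [mul_one] at this
    exact pow_le_pow_left₀ (norm_nonneg _) this 2
  have hB : ∀ g : Fin m → Bool, X * Zc q (sg R) g * r ∈ unitary R := fun g =>
    mul_mem (mul_mem hX (Zc_unitary hq h₁ g)) hr.uni
  have h0 : av (fun g : (Fin m → Bool) × (Fin m → Bool) =>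
      ∑ c, ⟪Q.ev (U * (X * Zc q (sg R) g.1 * r * (Zc q (sg R) g.2 * (1 - q c))) ^ (j + 1) * y),
        Δ (U * FF (X * Zc q (sg R) g.1 * r) (Zc q (sg R) g.2 * (1 - q c)) j * q c *
          sg R (g.2 c))⟫_ℂ) = 0 := by
    rw [av_sum]
    refine sum_eq_zero fun c _ => ?_
    rw [av_prod]
    refine (congrArg av (funext fun g₁ => ?_)).trans (av_const 0)
    rw [av_update c]
    refine (congrArg av (funext fun g₂ => ?_)).trans (av_const 0)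
    simp only [Zc_update hq h₁, Function.update_self]
    exact nl2_zero h₁.sum Δ _ _
  have hpt := fun g : (Fin m → Bool) × (Fin m → Bool) =>
    nl2_point Q (loc hq h₁ (hB g.1) g.2) hU y j hl hΔ
  have h8 := (norm_av_le _).trans (av_le_av hpt)
  rw [av_sub, h0, sub_zero] at h8
  refine le_trans h8 ?_
  rw [av_add, av_add, av_const, av_mul_left, av_mul_left, av_sum (range (j + 1))]
  have h2 := h1 m (by omega) q hq r X U hr hX hU Δ hΔ hδ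
  have h3 := hm₀ m (by omega)
  rw [mul_div_assoc, sum_div] at h3
  have h4 : ∑ t ∈ range (j + 1), av (fun g : (Fin m → Bool) × (Fin m → Bool) =>
      ret Q q (FF (X * Zc q (sg R) g.1 * r) (Zc q (sg R) g.2) t)) ≤
      ∑ t ∈ range (j + 1), K t / Real.sqrt m :=
    sum_le_sum fun t _ => hK t m hm0 q hq _ _ h₁ h₁ _ _ hr hX
  have h5 := mul_le_mul_of_nonneg_left h4 (by positivity : 0 ≤ 17 * L ^ 2 * (j : ℝ) / (2 * l))
  have h6 := mul_le_mul_of_nonneg_left h2 (by positivity : 0 ≤ (2 * l)⁻¹)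
  rw [← mul_assoc, inv_mul_cancel₀ (by positivity), one_mul] at h6
  have h7 := mul_le_mul_of_nonneg_left hy1 (by positivity : 0 ≤ l * (((j : ℝ) + 1) ^ 2 + 1))
  change (2 * l)⁻¹ * av (fun g : (Fin m → Bool) × (Fin m → Bool) =>
    ∑ c, ‖Δ (U * FF (X * Zc q (sg R) g.1 * r) (Zc q (sg R) g.2) j * q c)‖ ^ 2) ≤ _ at h6
  linarith

theorem nl (Q : QT R E) (J : ℕ) {L ε : ℝ} (hL : 0 ≤ L) (hε : 0 < ε) :
    ∃ δ : ℝ, 0 < δ ∧ ∃ m₀ : ℕ, ∀ m : ℕ, m₀ ≤ m → ∀ q : Fin m → R, Cells q → ∀ r X U y : R,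
      Flat q r → X ∈ unitary R → U ∈ unitary R → Q.Ctr y → ∀ Δ : R →ₗ[ℂ] E,
      (∀ a, ‖Δ a‖ ≤ L * ‖Q.ev a‖) →
      (∀ W ∈ unitary R, ∑ c, ∑ d, ‖Δ (W * q d * r * q c)‖ ^ 2 ≤ δ) → ∀ j < J,
      ‖av (fun g : (Fin m → Bool) × (Fin m → Bool) =>
        ⟪Q.ev (U * wd q X r g ^ (j + 1) * y), Δ (U * wd q X r g ^ (j + 1))⟫_ℂ)‖ ≤ ε := by
  induction J with
  | zero => exact ⟨1, one_pos, 0, fun _ _ _ _ _ _ _ _ _ _ _ _ _ _ _ j hj => absurd hj (by omega)⟩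
  | succ J ih =>
    obtain ⟨δ, hδ, m₀, h⟩ := ih
    obtain ⟨δ', hδ', m₁, h'⟩ := nl2 Q J hL hε
    refine ⟨min δ δ', lt_min hδ hδ', m₀ + m₁, ?_⟩
    intro m hm q hq r X U y hr hX hU hy Δ hΔ hW j hj
    rcases Nat.lt_succ_iff_lt_or_eq.1 hj with hj | rfl
    · exact h m (by omega) q hq r X U y hr hX hU hy Δ hΔ
        (fun W h => (hW W h).trans (min_le_left _ _)) j hj
    · exact h' m (by omega) q hq r X U y hr hX hU hy Δ hΔ
        fun W h => (hW W h).trans (min_le_right _ _)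

end Vale.Agent.KR
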