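import Vale.Agent.KR.AU
import Vale.Agent.KR.AU2
import Vale.Agent.KR.NL2
import Vale.Agent.KR.Cyc

/-!
# Approximate invariance (notes, section 4, end of Cyc)
Choose `Ker J c Λ` with `640 K ‖ev 1‖² ≤ Λ ε/2`; `nl Q J` with `L' = 4 L + 4 K` and `ε/8` gives `δ', m₀`; `δ` with `96 δ² ‖ev 1‖² ≤ δ'/2`; `au` gives `n`; `m ≥ m₀`, `m > 0`
with `1536 K² n ‖ev 1‖²/m ≤ δ'/2` (`Diffuse`). `twirl_mod`, `Inv.restrict`, `Inv.inter` (`isClosed_mod`, `convex_mod`), `exists_minl` give `KK'` and `ψ`. `exists_flat` gives `r`;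
`r*` has the same form (`Gamma_mat_star`, `Flat.star`). `Δ s a = ev (ψ (a s) - a ψ s)`. For `u = Z₁ r Z₂ X = X* (wd q X r g) X`: `u^(j+1) = X* wd^(j+1) X`, use `nl` with `U = X*`, `y := X y`,
`s := X s`; `u*^(j+1) = (wd q X* r* g.swap)^(j+1)`, use `nl` with `U = 1`. `<ev (V y), ev (ψ (V s))> = <ev y, ev (ψ s)> + <ev (V y), Δ s V>`. Average `cyc` over `g`; the weights are
`≥ c j/2 ≥ 0` with sum `W ∈ [Λ/2, Λ]`: `W ‖α - β‖ ≤ 320 K ‖ev 1‖² + W ε/4`.
-/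

namespace Vale.Agent.KR

open Vale.Agent.P104 Finset
open scoped InnerProductSpace

variable {H : Type*} [NormedAddCommGroup H] [InnerProductSpace ℂ H] [CompleteSpace H]
  {M : VonNeumannAlgebra H}
variable {F : Type*} [NormedAddCommGroup F] [InnerProductSpace ℂ F]

theorem approx_av_cmul {Ω : Type*} [Fintype Ω] (c : ℂ) (f : Ω → ℂ) :
    av (fun ω => c * f ω) = c * av f := by
  simp only [av, ← Finset.mul_sum, Complex.real_smul]
  ring

theorem approx_conj_pow {R : Type*} [Ring R] [StarRing R] {X : R} (hX : X ∈ unitary R) (w : R)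
    (k : ℕ) : (star X * w * X) ^ k = star X * w ^ k * X := by
  induction k with
  | zero => simp [hX.1]
  | succ k ih =>
    rw [pow_succ, ih, pow_succ]
    calc star X * w ^ k * X * (star X * w * X) = star X * w ^ k * (X * star X) * w * X := by
          simp only [mul_assoc]
      _ = _ := by rw [hX.2, mul_one, mul_assoc (star X)]

theorem approx_Zc_star {R C : Type*} [Ring R] [StarRing R] [Algebra ℂ R] [StarModule ℂ R]
    [Fintype C] [DecidableEq C] {q : C → R} (hq : Cells q) (g : C → Bool) :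
    star (Zc q (sg R) g) = Zc q (sg R) g := by
  rw [Zc_star hq (sg_fam q)]
  congr 1
  funext b
  cases b <;> simp [sg]

theorem approx_num {J : ℕ} {c : ℕ → ℝ} {Λ ε T : ℝ} (hk : Ker J c Λ) (hΛ : 0 < Λ) (hε : 0 < ε)
    (hT : T ≤ Λ * ε / 4) {α β : ℂ} {A B : ℕ → ℂ} (hA : ∀ j < J, ‖A j - α‖ ≤ ε / 8)
    (hB : ∀ j < J, ‖B j - β‖ ≤ ε / 8)
    (h : ‖∑ j ∈ range J, ((c j * (1 - (j + 1) / (2 * J)) : ℝ) : ℂ) * (A j - B j)‖ ≤ T) :
    ‖α - β‖ ≤ ε := by
  set w : ℕ → ℝ := fun j => c j * (1 - (j + 1) / (2 * J)) with hw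
  have hJ : (0 : ℝ) < J := Nat.cast_pos.2 hk.pos
  have h1 : ∀ j ∈ range J, c j / 2 ≤ w j := fun j hj => by
    have h2 : ((j : ℝ) + 1) / (2 * J) ≤ 1 / 2 := by
      rw [div_le_iff₀ (by positivity)]
      have : (j : ℝ) + 1 ≤ J := by exact_mod_cast mem_range.1 hj
      linarith
    have := mul_le_mul_of_nonneg_left h2 (hk.nonneg j)
    simp only [hw]
    linarith
  have h0 : ∀ j ∈ range J, 0 ≤ w j := fun j hj => le_trans (by linarith [hk.nonneg j]) (h1 j hj)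
  have h2 : Λ / 2 ≤ ∑ j ∈ range J, w j := by
    rw [← hk.sum, Finset.sum_div]
    exact sum_le_sum h1
  have h3 : ((∑ j ∈ range J, w j : ℝ) : ℂ) * (α - β) =
      ∑ j ∈ range J, (w j : ℂ) * (A j - B j) -
        ∑ j ∈ range J, (w j : ℂ) * ((A j - α) - (B j - β)) := by
    rw [Complex.ofReal_sum, Finset.sum_mul, ← Finset.sum_sub_distrib]
    exact Finset.sum_congr rfl fun j _ => by ring
  have h4 : ‖∑ j ∈ range J, (w j : ℂ) * ((A j - α) - (B j - β))‖ ≤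
      (∑ j ∈ range J, w j) * (ε / 4) := by
    rw [Finset.sum_mul]
    refine norm_sum_le_of_le _ fun j hj => ?_
    rw [norm_mul, Complex.norm_real, Real.norm_of_nonneg (h0 j hj)]
    refine mul_le_mul_of_nonneg_left ?_ (h0 j hj)
    linarith [norm_sub_le (A j - α) (B j - β), hA j (mem_range.1 hj), hB j (mem_range.1 hj)]
  have hW : 0 < ∑ j ∈ range J, w j := by linarith
  have h5 : (∑ j ∈ range J, w j) * ‖α - β‖ ≤ (∑ j ∈ range J, w j) * ε := by
    have h6 := norm_sub_le (∑ j ∈ range J, (w j : ℂ) * (A j - B j))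
      (∑ j ∈ range J, (w j : ℂ) * ((A j - α) - (B j - β)))
    rw [← h3, norm_mul, Complex.norm_real, Real.norm_of_nonneg hW.le] at h6
    have h7 := mul_le_mul_of_nonneg_right h2 hε.le
    have h8 := mul_pos hW hε
    linarith
  exact le_of_mul_le_mul_left h5 hW

/-- The defect of modularity at `s`. -/
noncomputable def approxD (Q : QT M F) (ψ : Mp M) (s : M) : M →ₗ[ℂ] F :=
  Q.ev ∘ₗ ((ψ : M →ₗ[ℂ] M) ∘ₗ LinearMap.mulRight ℂ s - LinearMap.mulRight ℂ (ψ s))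

theorem approxD_apply (Q : QT M F) (ψ : Mp M) (s a : M) :
    approxD Q ψ s a = Q.ev (ψ (a * s) - a * ψ s) := rfl

theorem approx_split (Q : QT M F) (ψ : Mp M) {V : M} (hV : V ∈ unitary M) (y s : M) :
    ⟪Q.ev (V * y), Q.ev (ψ (V * s))⟫_ℂ =
      ⟪Q.ev (V * y), approxD Q ψ s V⟫_ℂ + ⟪Q.ev y, Q.ev (ψ s)⟫_ℂ := by
  have h : ⟪Q.ev (V * y), Q.ev (V * ψ s)⟫_ℂ = ⟪Q.ev y, Q.ev (ψ s)⟫_ℂ := by
    rw [Q.adj, ← mul_assoc, hV.1, one_mul]
  rw [approxD_apply, map_sub, inner_sub_right, h, sub_add_cancel]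

theorem approx {Q : QT M F} (hQ : TrD M Q) (hD : Diffuse M) {K : ℝ} (hK0 : 0 ≤ K)
    {KK : Set (Mp M)} (hK : Inv (act (∅ : Set M)) KK) (hB : KK ⊆ Ball M K) {e : M} {L : ℝ}
    (hL0 : 0 ≤ L) (hL : ∀ ψ ∈ KK, ∀ x : M, ‖Q.ev (ψ (x * e))‖ ≤ L * ‖Q.ev (x * e)‖) {ε : ℝ}
    (hε : 0 < ε) :
    ∃ ψ ∈ KK, ∀ X ∈ unitary M, ∀ y s : M, ‖y‖ ≤ 1 → ‖s‖ ≤ 1 → s * e = s →
      ‖⟪Q.ev (X * y), Q.ev (ψ (X * s))⟫_ℂ - ⟪Q.ev y, Q.ev (ψ s)⟫_ℂ‖ ≤ ε := by
  obtain ⟨J, c, Λ, hk, hΛ0, hΛ⟩ := exists_ker (1280 * K * ‖Q.ev 1‖ ^ 2 / ε)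
  obtain ⟨δ', hδ', m₀, hnl⟩ := nl Q J (L := 4 * L + 4 * K) (ε := ε / 8) (by positivity)
    (by positivity)
  obtain ⟨δ, hδ, hδ2⟩ : ∃ δ : ℝ, 0 < δ ∧ 96 * δ ^ 2 * ‖Q.ev 1‖ ^ 2 ≤ δ' / 2 := by
    refine ⟨Real.sqrt (δ' / (192 * (‖Q.ev 1‖ ^ 2 + 1))), by positivity, ?_⟩
    rw [Real.sq_sqrt (by positivity), mul_div_assoc', div_mul_eq_mul_div,
      div_le_iff₀ (by positivity)]
    nlinarith
  obtain ⟨n, hau⟩ := au hQ hK0 hδ
  obtain ⟨m₁, hm₁⟩ := exists_nat_ge (3072 * K ^ 2 * n * ‖Q.ev 1‖ ^ 2 / δ')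
  obtain ⟨m, hm, E, hE, hE1⟩ := hD (max m₀ (m₁ + 1))
  have hm0 : 0 < m := lt_of_lt_of_le (Nat.succ_pos m₁) ((le_max_right _ _).trans hm)
  have hm2 : 1536 * K ^ 2 * n / m * ‖Q.ev 1‖ ^ 2 ≤ δ' / 2 := by
    have h1 : (m₁ : ℝ) ≤ m := by exact_mod_cast (Nat.le_succ m₁).trans ((le_max_right _ _).trans hm)
    have h2 : (0 : ℝ) < m := Nat.cast_pos.2 hm0
    rw [div_le_iff₀ hδ'] at hm₁
    rw [div_mul_eq_mul_div, div_le_iff₀ h2]
    nlinarith
  obtain ⟨KK', hKK', hmin⟩ := ((hK.restrict (rng E)).inter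
    (C := {ψ | ∀ a b x, ψ (E a b * x) = E a b * ψ x}) (twirl_mod hK hE) (by
      simp only [Set.ofPred_forall]
      refine isClosed_iInter fun a => isClosed_iInter fun b => isClosed_iInter fun x => ?_
      simpa using isClosed_mod 1 (E a b) (E a b * x) x) (by
      simp only [Set.ofPred_forall]
      refine convex_iInter fun a => convex_iInter fun b => convex_iInter fun x => ?_
      simpa using convex_mod 1 (E a b) (E a b * x) x) (by
      intro u ψ _ hψ a b x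
      have h1 := u.2.2 _ ⟨a, b, rfl⟩
      have h2 := congrArg star (u.2.2 _ ⟨b, a, rfl⟩)
      rw [star_mul, star_mul, hE.star_eq] at h2
      change star u.1 * ψ (u.1 * (E a b * x)) = E a b * (star u.1 * ψ (u.1 * x))
      rw [← mul_assoc u.1, h1, mul_assoc, hψ, ← mul_assoc, ← h2, mul_assoc])).exists_minl
  obtain ⟨ψ, hψ⟩ := hmin.ne
  have hψK : ψ ∈ KK := (hKK' hψ).1
  have hq := Gamma_cells hE hE1
  have key : ∀ (cc : Fin m → Fin m → ℂ) (r : M), r = ∑ a, ∑ b, cc a b • E a b →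
      Flat (fun a => E a a) r → ∀ X ∈ unitary M, ∀ U ∈ unitary M, ∀ y s : M, ‖y‖ ≤ 1 → ‖s‖ ≤ 1 →
      s * e = s → ∀ j < J, ‖av (fun g : (Fin m → Bool) × (Fin m → Bool) =>
        ⟪Q.ev (U * wd (fun a => E a a) X r g ^ (j + 1) * y),
          Q.ev (ψ (U * wd (fun a => E a a) X r g ^ (j + 1) * s))⟫_ℂ) -
        ⟪Q.ev y, Q.ev (ψ s)⟫_ℂ‖ ≤ ε / 8 := by
    intro cc r hrc hr X hX U hU y s hy hs hse j hj
    obtain ⟨bad, hbad, hgood⟩ := hau m E hE ⟨0, hm0⟩ KK' hmin (fun φ hφ => hB (hKK' hφ).1)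
      (fun φ hφ => (hKK' hφ).2) ψ hψ s hs
    have h1 := hnl m ((le_max_left _ _).trans hm) _ hq r X U y hr hX hU (hQ.ctr hy)
      (approxD Q ψ s) (fun a => by
        have h2 := hL ψ hψK (a * s)
        rw [mul_assoc, hse] at h2
        have h3 := hQ.right a s
        have h4 := hQ.right a (ψ s)
        have h5 := hB hψK s
        have h6 := norm_nonneg (Q.ev a)
        have h7 : 4 * ‖s‖ * ‖Q.ev a‖ ≤ 4 * 1 * ‖Q.ev a‖ := by gcongr
        have h8 : 4 * ‖ψ s‖ * ‖Q.ev a‖ ≤ 4 * (K * 1) * ‖Q.ev a‖ := by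
          gcongr
          exact h5.trans (mul_le_mul_of_nonneg_left hs hK0)
        have h9 := mul_le_mul_of_nonneg_left (h3.trans h7) hL0
        rw [approxD_apply, map_sub]
        linarith [norm_sub_le (Q.ev (ψ (a * s))) (Q.ev (a * ψ s))]) (fun W hW => by
        have h2 := au2 hQ hK0 hδ.le hE hE1 ⟨0, hm0⟩ (hB hψK) (hKK' hψ).2 hs bad hbad hgood cc hrc
          hr hW
        simp only [approxD_apply]
        linarith) j hj
    have h2 : ∀ g : (Fin m → Bool) × (Fin m → Bool),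
        U * wd (fun a => E a a) X r g ^ (j + 1) ∈ unitary M := fun g =>
      mul_mem hU (pow_mem (wd_unitary hq hX hr.uni g) _)
    simp only [approx_split Q ψ (h2 _)]
    rwa [av_add, av_const, add_sub_cancel_right]
  obtain ⟨cc, hr⟩ := exists_flat hm0 hE hE1
  refine ⟨ψ, hψK, fun X hX y s hy hs hse => ?_⟩
  set r := ∑ a, ∑ b, cc a b • E a b with hrc
  have hX1 := unitary_norm_le hX
  have hXy : ‖X * y‖ ≤ 1 := (norm_mul_le _ _).trans (mul_le_one₀ hX1 (norm_nonneg _) hy)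
  have hXs : ‖X * s‖ ≤ 1 := (norm_mul_le _ _).trans (mul_le_one₀ hX1 (norm_nonneg _) hs)
  have hA := key cc r hrc hr X hX (star X) (Unitary.star_mem hX) (X * y) (X * s) hXy hXs
    (by rw [mul_assoc, hse])
  have hB' := key _ (star r) (Gamma_mat_star hE cc) hr.star (star X) (Unitary.star_mem hX) 1
    (one_mem _) y s hy hs hse
  refine approx_num hk hΛ hε (T := 320 * K * ‖Q.ev 1‖ ^ 2) ?_ hA hB' ?_
  · rw [div_le_iff₀ hε] at hΛ0
    linarith
  · have h1 : ∀ g : (Fin m → Bool) × (Fin m → Bool),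
        star (star X * wd (fun a => E a a) X r g * X) =
          wd (fun a => E a a) (star X) (star r) g.swap := fun g => by
      simp only [wd, star_mul, star_star, approx_Zc_star hq, Prod.fst_swap, Prod.snd_swap,
        mul_assoc, hX.1, mul_one]
    have h2 := fun g : (Fin m → Bool) × (Fin m → Bool) =>
      cyc Q hQ.mul_le hk (ψ : M →ₗ[ℂ] M) hK0 (hB hψK)
        (mul_mem (mul_mem (Unitary.star_mem hX) (wd_unitary hq hX hr.uni g)) hX) hy hs
    simp only [h1, approx_conj_pow hX] at h2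
    have h3 := (norm_av_le _).trans (av_le_av h2)
    rw [av_const, av_sum] at h3
    refine le_of_eq_of_le (congrArg norm (Finset.sum_congr rfl fun j _ => ?_)) h3
    rw [approx_av_cmul, av_sub, ← av_equiv (Equiv.prodComm _ _) (fun g =>
      ⟪Q.ev (1 * wd (fun a => E a a) (star X) (star r) g ^ (j + 1) * y),
        Q.ev (ψ (1 * wd (fun a => E a a) (star X) (star r) g ^ (j + 1) * s))⟫_ℂ)]
    simp only [one_mul, mul_assoc]
    rfl

end Vale.Agent.KR
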