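import Vale.Agent.KR.Dix

/-!
# Boundedness in the 2-norm on large corners (notes, section 4 D, F, E)
* `col`: `Pr ψ T` means `∑ ‖ev (ψ (x i))‖² ≤ C₀ (‖∑ x* x‖ + ‖T (∑ x x*)‖)` for all finite families, `C₀ = 3 (K ‖ev 1‖)²`. `gt_gen` gives `T = id`
  for every `ψ` in the ball. If `T` is complex linear, `Pr ψ T` gives `Pr ((ψ + tau u ψ)/2) (T ∘ avg [u])` (family `x i, u x i`, convexity of the square).
  Induction on `l` (generalizing `T, ψ`): some `ψ' ∈ KK` has `Pr ψ' (T ∘ avg l)`. `dix`, `fip`, `isClosed_sumsq`; `C = 23 C₀`.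
* `exists_F`: `gns_positive_functional` in the algebra of all operators with `Φ x = if x ∈ M then ‖ev (ψ x)‖² else 0`; then `Minl.all`.
* `exists_e`: maximal orthogonal family (`exists_maximal_pairwise`) of nonzero projections `g ∈ M` with `C ω g ≤ φ g`, `ω g = ∑ qf g (Ξ i)`, sum `f` by `sum_piso`
  (gives the `HasSum` of `‖g Ξ i‖²`), `e = 1 - f`, `binary` with `L = C ω - φ`.
-/

namespace Vale.Agent.KR

open Vale.Agent.P104 Finset
open scoped InnerProductSpace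

variable {H : Type*} [NormedAddCommGroup H] [InnerProductSpace ℂ H] [CompleteSpace H]
  {M : VonNeumannAlgebra H}
variable {F : Type*} [NormedAddCommGroup F] [InnerProductSpace ℂ F]

/-- The column bound with an extra row term. -/
def L2Pr (Q : QT M F) (C : ℝ) (ψ : Mp M) (T : M → M) : Prop :=
  ∀ (I : Type) [Fintype I] (x : I → M), ∑ i, ‖Q.ev (ψ (x i))‖ ^ 2 ≤
    C * (‖∑ i, star (x i) * x i‖ + ‖T (∑ i, x i * star (x i))‖)

theorem L2_tau {Q : QT M F} (hQ : TrD M Q) {u : M} (hu : u ∈ unitary M) (ψ : Mp M) (x : M) :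
    ‖Q.ev (tau u ψ x)‖ ^ 2 ≤ ‖Q.ev (ψ (u * x))‖ ^ 2 :=
  pow_le_pow_left₀ (norm_nonneg _) (hQ.ctr (unitary_norm_le (Unitary.star_mem hu)) _) 2

theorem L2_cvx (Q : QT M F) (ψ ψ' : Mp M) {a b : ℝ} (ha : 0 ≤ a) (hb : 0 ≤ b) (hab : a + b = 1)
    (x : M) : ‖Q.ev ((a • ψ + b • ψ') x)‖ ^ 2 ≤
      a * ‖Q.ev (ψ x)‖ ^ 2 + b * ‖Q.ev (ψ' x)‖ ^ 2 := by
  have h1 : ‖Q.ev ((a • ψ + b • ψ') x)‖ ≤ a * ‖Q.ev (ψ x)‖ + b * ‖Q.ev (ψ' x)‖ := by
    rw [Mp.add_apply, Mp.rsmul_apply, Mp.rsmul_apply, map_add, map_smul, map_smul]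
    refine (norm_add_le _ _).trans (le_of_eq ?_)
    rw [norm_smul, norm_smul, Complex.norm_real, Complex.norm_real, Real.norm_of_nonneg ha,
      Real.norm_of_nonneg hb]
  refine (pow_le_pow_left₀ (norm_nonneg _) h1 2).trans ?_
  obtain rfl : b = 1 - a := by linarith
  nlinarith [mul_nonneg (mul_nonneg ha hb) (sq_nonneg (‖Q.ev (ψ x)‖ - ‖Q.ev (ψ' x)‖))]

theorem L2_step {Q : QT M F} (hQ : TrD M Q) {C : ℝ} {ψ : Mp M} {T : M → M}
    (hT : ∀ b, T ((2 : ℂ) • b) = (2 : ℂ) • T b) (h : L2Pr Q C ψ T) {u : M} (hu : u ∈ unitary M) :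
    L2Pr Q C ((2⁻¹ : ℝ) • ψ + (2⁻¹ : ℝ) • tau u ψ) fun b => T (avg [u] b) := by
  intro I _ x
  have h1 := h (I ⊕ I) (Sum.elim x fun i => u * x i)
  simp only [Fintype.sum_sum_type, Sum.elim_inl, Sum.elim_inr] at h1
  have e1 : ∑ i, star (x i) * x i + ∑ i, star (u * x i) * (u * x i) =
      (2 : ℂ) • ∑ i, star (x i) * x i := by
    rw [two_smul]
    congr 1
    refine sum_congr rfl fun i _ => ?_
    rw [star_mul, mul_assoc, ← mul_assoc (star u), Unitary.star_mul_self_of_mem hu, one_mul]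
  have e2 : ∑ i, x i * star (x i) + ∑ i, u * x i * star (u * x i) =
      (2 : ℂ) • avg [u] (∑ i, x i * star (x i)) := by
    simp only [avg]
    rw [smul_inv_smul₀ two_ne_zero, mul_sum, sum_mul]
    congr 1
    refine sum_congr rfl fun i _ => ?_
    simp only [star_mul, mul_assoc]
  rw [e1, e2, hT, norm_smul, norm_smul, Complex.norm_ofNat] at h1
  have h2 : ∑ i, ‖Q.ev (((2⁻¹ : ℝ) • ψ + (2⁻¹ : ℝ) • tau u ψ) (x i))‖ ^ 2 ≤
      ∑ i, (2⁻¹ * ‖Q.ev (ψ (x i))‖ ^ 2 + 2⁻¹ * ‖Q.ev (ψ (u * x i))‖ ^ 2) :=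
    sum_le_sum fun i _ => (L2_cvx Q _ _ (by norm_num) (by norm_num) (by norm_num) _).trans
      (by linarith [L2_tau hQ hu ψ (x i)])
  rw [sum_add_distrib, ← mul_sum, ← mul_sum] at h2
  linarith

theorem L2_iter {Q : QT M F} (hQ : TrD M Q) {C : ℝ} {KK : Set (Mp M)}
    (hK : Inv (act (∅ : Set M)) KK) (l : List M) (hl : ∀ u ∈ l, u ∈ unitary M) :
    ∀ (T : M → M) (ψ : Mp M), (∀ b, T ((2 : ℂ) • b) = (2 : ℂ) • T b) → ψ ∈ KK → L2Pr Q C ψ T →
      ∃ ψ' ∈ KK, L2Pr Q C ψ' fun b => T (avg l b) := by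
  induction l with
  | nil => exact fun T ψ _ hψ h => ⟨ψ, hψ, h⟩
  | cons u l ih =>
    intro T ψ hT hψ h
    have hu := hl u (by simp)
    refine ih (fun v hv => hl v (by simp [hv])) (fun b => T (avg [u] b)) _ (fun b => ?_)
      (hK.cvx hψ (hK.tau_mem hu hψ) (by norm_num) (by norm_num) (by norm_num)) (L2_step hQ hT h hu)
    rw [← hT]
    congr 1
    simp only [avg]
    rw [mul_smul_comm, smul_mul_assoc, ← smul_add, smul_comm]

theorem L2_base {Q : QT M F} (hQ : TrD M Q) {K : ℝ} (hK0 : 0 ≤ K) {ψ : Mp M}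
    (hψ : ψ ∈ Ball M K) : L2Pr Q (3 * (K * ‖Q.ev 1‖) ^ 2) ψ fun b => b := by
  intro I _ x
  have hb : ∀ y : M, ‖(Q.ev ∘ₗ (ψ : M →ₗ[ℂ] M)) y‖ ≤ K * ‖Q.ev 1‖ * ‖y‖ := fun y => by
    have h1 := hQ.mul_le (ψ y) 1
    rw [mul_one] at h1
    refine h1.trans ((mul_le_mul_of_nonneg_right (hψ y) (norm_nonneg _)).trans (le_of_eq ?_))
    ring
  have h1 := gt_gen (LinearMap.mkContinuous _ _ hb) x
  have h2 := LinearMap.mkContinuous_norm_le _ (by positivity) hb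
  refine h1.trans (mul_le_mul_of_nonneg_right ?_ (by positivity))
  gcongr

theorem col {Q : QT M F} (hQ : TrD M Q) {K : ℝ} (hK0 : 0 ≤ K) {KK : Set (Mp M)}
    (hK : Inv (act (∅ : Set M)) KK) (hB : KK ⊆ Ball M K) :
    ∃ C : ℝ, 0 ≤ C ∧ ∃ ψ ∈ KK, ∀ (n : ℕ) (x : Fin n → M),
      ∑ i, ‖Q.ev (ψ (x i))‖ ^ 2 ≤ C * ‖∑ i, star (x i) * x i‖ := by
  obtain ⟨ψ₀, h₀⟩ := hK.ne
  refine ⟨23 * (3 * (K * ‖Q.ev 1‖) ^ 2), by positivity, ?_⟩
  obtain ⟨ψ, hψ, h⟩ := fip hK.cpt (fun x : Σ n : ℕ, Fin n → M => {ψ : Mp M |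
      ∑ i, ‖Q.ev (ψ (x.2 i))‖ ^ 2 ≤
        23 * (3 * (K * ‖Q.ev 1‖) ^ 2) * ‖∑ i, star (x.2 i) * x.2 i‖})
    (fun x => isClosed_sumsq (fun i (ψ : Mp M) => Q.ev (ψ (x.2 i))) (fun i w => hQ.cont _ w) _)
    fun s => by
      obtain ⟨l, hl, h1⟩ := dix hQ s
      obtain ⟨ψ, hψ, h2⟩ := L2_iter hQ hK l hl (fun b => b) ψ₀ (fun _ => rfl) h₀ (L2_base hQ hK0 (hB h₀))
      refine ⟨ψ, hψ, fun x hx => (h2 _ x.2).trans ?_⟩
      have h3 := mul_le_mul_of_nonneg_left (h1 x hx)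
        (show 0 ≤ 3 * (K * ‖Q.ev 1‖) ^ 2 by positivity)
      linarith
  exact ⟨ψ, hψ, fun n x => h ⟨n, x⟩⟩

open scoped ComplexOrder in
theorem exists_F {Q : QT M F} (hQ : TrD M Q) {K : ℝ} (hK0 : 0 ≤ K) {KK : Set (Mp M)}
    (hK : Minl (act (∅ : Set M)) KK) (hB : KK ⊆ Ball M K) :
    ∃ φ : (H →L[ℂ] H) →L[ℝ] ℝ, (∀ b, 0 ≤ b → 0 ≤ φ b) ∧
      ∀ ψ ∈ KK, ∀ x : M, ‖Q.ev (ψ x)‖ ^ 2 ≤ φ (star (x : H →L[ℂ] H) * x) := by
  classical
  obtain ⟨C, hC, ψ₀, h₀, h⟩ := col hQ hK0 hK.toInv hB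
  let r : (H →L[ℂ] H) → M := fun x => if hx : x ∈ M then ⟨x, hx⟩ else 0
  have r1 : ∀ x : M, r x = x := fun x => dif_pos x.2
  have r0 : ∀ x, x ∉ M → r x = 0 := fun x hx => dif_neg hx
  obtain ⟨f, hf⟩ := gns_positive_functional (fun x => ‖Q.ev (ψ₀ (r x))‖ ^ 2) hC
    (fun x => by positivity)
    (fun t x => by
      have e : r (t • x) = (t : ℂ) • r x := by
        by_cases hx : x ∈ M
        · exact (r1 ((t : ℂ) • ⟨x, hx⟩)).trans (congrArg _ (r1 ⟨x, hx⟩).symm)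
        · by_cases ht : t = 0
          · rw [ht, zero_smul, Complex.ofReal_zero, zero_smul]
            exact r1 0
          · rw [r0 x hx, smul_zero]
            refine r0 _ fun h1 => hx ?_
            simpa [smul_smul, ht] using vn_rsmul_mem t⁻¹ h1
      rw [e, map_smul, map_smul, norm_smul, mul_pow, Complex.norm_real, Real.norm_eq_abs, sq_abs])
    (fun J _ x => by
      have h1 := h _ fun i => r (x ((Fintype.equivFin J).symm i))
      rw [Equiv.sum_comp (Fintype.equivFin J).symm fun j => ‖Q.ev (ψ₀ (r (x j)))‖ ^ 2,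
        Equiv.sum_comp (Fintype.equivFin J).symm fun j => star (r (x j)) * r (x j)] at h1
      refine h1.trans (mul_le_mul_of_nonneg_left ?_ hC)
      change ‖((∑ j, star (r (x j)) * r (x j) : M) : H →L[ℂ] H)‖ ≤ _
      rw [AddSubmonoidClass.coe_finsetSum]
      refine CStarAlgebra.norm_le_norm_of_nonneg_of_le
        (sum_nonneg fun j _ => star_mul_self_nonneg (r (x j) : H →L[ℂ] H))
        (sum_le_sum fun j _ => ?_)
      by_cases hx : x j ∈ M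
      · rw [show r (x j) = ⟨x j, hx⟩ from r1 ⟨x j, hx⟩]
        exact le_rfl
      · rw [r0 _ hx, mul_zero]
        exact star_mul_self_nonneg _)
  let φ : (H →L[ℂ] H) →L[ℝ] ℝ :=
    { toFun := fun b => (f b).re
      map_add' := fun a b => by rw [map_add, Complex.add_re]
      map_smul' := fun t a => by
        rw [← Complex.coe_smul, map_smul, smul_eq_mul, Complex.re_ofReal_mul]
        rfl
      cont := Complex.continuous_re.comp (map_continuous f) }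
  refine ⟨φ, fun b hb => (Complex.le_def.1 (map_nonneg f hb)).1, ?_⟩
  refine hK.all (C := {ψ | ∀ x : M, ‖Q.ev (ψ x)‖ ^ 2 ≤ φ (star (x : H →L[ℂ] H) * x)})
    ⟨ψ₀, h₀, fun x => by have h1 := hf x; rw [r1] at h1; exact h1⟩ ?_ ?_ ?_
  · rw [Set.ofPred_forall]
    refine isClosed_iInter fun x => ?_
    simpa using isClosed_sumsq (fun (_ : Unit) (ψ : Mp M) => Q.ev (ψ x)) (fun _ w => hQ.cont x w)
      (φ (star (x : H →L[ℂ] H) * x))
  · intro ψ h1 ψ' h2 a b ha hb hab x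
    refine (L2_cvx Q ψ ψ' ha hb hab x).trans ?_
    have h3 := mul_le_mul_of_nonneg_left (h1 x) ha
    have h4 := mul_le_mul_of_nonneg_left (h2 x) hb
    have h5 : φ (star (x : H →L[ℂ] H) * x) = (a + b) * φ (star (x : H →L[ℂ] H) * x) := by
      rw [hab, one_mul]
    linarith
  · intro u ψ _ h1 x
    refine (L2_tau hQ u.2.1 ψ x).trans ((h1 _).trans (le_of_eq ?_))
    have e : star (u.1 * x) * (u.1 * x) = star x * x := by
      rw [star_mul, mul_assoc, ← mul_assoc (star u.1), Unitary.star_mul_self_of_mem u.2.1, one_mul]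
    exact congrArg (fun y : M => φ y) e

theorem exists_e {Q : QT M F} (hQ : TrD M Q) (φ : (H →L[ℂ] H) →L[ℝ] ℝ)
    (hφ : ∀ b, 0 ≤ b → 0 ≤ φ b) {C : ℝ} (hC : 0 < C) :
    ∃ e : M, IsStarProjection (e : H →L[ℂ] H) ∧ C * ‖Q.ev (1 - e)‖ ^ 2 ≤ φ 1 ∧
      ∀ x : M, φ (star ((x * e : M) : H →L[ℂ] H) * (x * e : M)) ≤ C * ‖Q.ev (x * e)‖ ^ 2 := by
  obtain ⟨k, Ξ, hΞ⟩ := hQ.vec
  have hsa : ∀ {a b : H →L[ℂ] H}, IsStarProjection a → IsStarProjection b → a * b = 0 →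
      b * a = 0 := fun ha hb h => by
    have h1 := congrArg star h
    rwa [star_mul, ha.isSelfAdjoint.star_eq, hb.isSelfAdjoint.star_eq, star_zero] at h1
  obtain ⟨S, hS, ho, hmax⟩ := exists_maximal_pairwise {g : H →L[ℂ] H | g ∈ M ∧ IsStarProjection g ∧
    C * ∑ i, ‖g (Ξ i)‖ ^ 2 ≤ φ g} (fun a b => a * b = 0 ∧ b * a = 0) fun _ _ h => h.symm
  have hp : ∀ g : S, IsStarProjection g.1 := fun g => (hS g.2).2.1
  have hs : ∀ g : S, star g.1 = g.1 := fun g => (hp g).isSelfAdjoint.star_eq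
  have hi : ∀ g : S, g.1 * g.1 = g.1 := fun g => (hp g).isIdempotentElem.eq
  have ho' : Pairwise fun i j : S => i.1 * j.1 = 0 := fun i j hij =>
    (ho i.2 j.2 fun h => hij (Subtype.ext h)).1
  obtain ⟨V, hV, hVp, a1, a2, a3, -, a4, a5, a6, -⟩ := sum_piso M (fun g : S => g.1)
    (fun g => (hS g.2).1) (fun g => PIso.of_proj (hp g)) (by simpa only [hs] using ho')
    (by simpa only [hs] using ho')
  simp only [hs, hi] at a1 a2 a5
  have hVs : star V = V := ContinuousLinearMap.ext fun ξ => (a5 ξ).unique (a4 ξ)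
  have hVi : V * V = V := by
    have h1 := a3 (V - 1) fun g => by rw [sub_mul, a1, one_mul, sub_self]
    rwa [sub_mul, one_mul, sub_eq_zero] at h1
  have hVP : IsStarProjection V := ⟨hVi, hVs⟩
  have hq : ∀ {g : H →L[ℂ] H}, IsStarProjection g → ∀ ξ, qf g ξ = ‖g ξ‖ ^ 2 := fun hg ξ => by
    rw [← qf_star_mul_self, hg.isSelfAdjoint.star_eq, hg.isIdempotentElem.eq]
  refine ⟨1 - ⟨V, hV⟩, hVP.one_sub, ?_, fun x => ?_⟩
  · rw [sub_sub_cancel, hΞ]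
    refine hasSum_le_of_sum_le ((hasSum_sum fun i _ => a6 (Ξ i)).mul_left C) fun s => ?_
    refine (sum_le_sum fun g _ => (hS g.2).2.2).trans ?_
    rw [← map_sum, ← sub_nonneg, ← map_sub]
    refine hφ _ (nonneg_iff_qf.2 ⟨(IsSelfAdjoint.one _).sub
      (isSelfAdjoint_sum _ fun g _ => (hp g).isSelfAdjoint), fun ξ => ?_⟩)
    rw [qf_sub, qf_one, qf_sum, sub_nonneg]
    simp only [hq (hp _)]
    exact (sum_le_hasSum s (fun _ _ => sq_nonneg _) (a6 ξ)).trans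
      (pow_le_pow_left₀ (norm_nonneg _) (hVp.norm_apply_le ξ) 2)
  · have hL : ∀ b, (C • ∑ i, QTrace.qfL (Ξ i) - φ) b = C * ∑ i, qf b (Ξ i) - φ b := fun b => by
      simp [QTrace.qfL_apply]
    have hx : (x : H →L[ℂ] H) * (1 - V) ∈ M := mul_mem x.2 (sub_mem (one_mem _) hV)
    have key := binary M hVP.one_sub (C • ∑ i, QTrace.qfL (Ξ i) - φ) (fun g hg hgp hgV => by
      rw [hL, sub_nonneg]
      by_contra hlt
      have h1 : V * g = 0 := by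
        rw [sub_mul, one_mul, sub_eq_self] at hgV
        exact hgV
      have h2 : g ∈ S := hmax g ⟨hg, hgp, by simpa only [hq hgp] using (not_le.1 hlt).le⟩
        fun b hb => by
          have h3 : b * g = 0 := by
            rw [← show b * V = b from a2 ⟨b, hb⟩, mul_assoc, h1, mul_zero]
          exact ⟨hsa (hS hb).2.1 hgp h3, h3⟩
      have h3 : g = 0 := (a1 ⟨g, h2⟩).symm.trans h1
      apply hlt
      simp [h3, qf])
      (star ((x : H →L[ℂ] H) * (1 - V)) * ((x : H →L[ℂ] H) * (1 - V)))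
      (mul_mem (star_mem hx) hx) (star_mul_self_nonneg _) (by
        rw [star_mul, hVP.one_sub.isSelfAdjoint.star_eq, mul_assoc (1 - V), ← mul_assoc (1 - V),
          hVP.one_sub.isIdempotentElem.eq])
    rw [hL, sub_nonneg] at key
    rw [hΞ]
    simp only [qf_star_mul_self] at key
    exact key

theorem l2 {Q : QT M F} (hQ : TrD M Q) {K : ℝ} (hK0 : 0 ≤ K) {KK : Set (Mp M)}
    (hK : Minl (act (∅ : Set M)) KK) (hB : KK ⊆ Ball M K) {η : ℝ} (hη : 0 < η) :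
    ∃ e : M, IsStarProjection (e : H →L[ℂ] H) ∧ ‖Q.ev (1 - e)‖ ≤ η ∧ ∃ L : ℝ, 0 ≤ L ∧
      ∀ ψ ∈ KK, ∀ x : M, ‖Q.ev (ψ (x * e))‖ ≤ L * ‖Q.ev (x * e)‖ := by
  obtain ⟨φ, hφ, h⟩ := exists_F hQ hK0 hK hB
  have h1 : 0 ≤ φ 1 := hφ 1 zero_le_one
  obtain ⟨e, he, h2, h3⟩ := exists_e hQ φ hφ (C := φ 1 / η ^ 2 + 1) (by positivity)
  refine ⟨e, he, ?_, √(φ 1 / η ^ 2 + 1), Real.sqrt_nonneg _, fun ψ hψ x => ?_⟩
  · refine (pow_le_pow_iff_left₀ (norm_nonneg _) hη.le two_ne_zero).1 ?_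
    refine le_of_mul_le_mul_left (h2.trans ?_) (by positivity)
    rw [add_mul, div_mul_cancel₀ _ (by positivity)]
    nlinarith
  · refine (pow_le_pow_iff_left₀ (norm_nonneg _) (by positivity) two_ne_zero).1 ?_
    rw [mul_pow, Real.sq_sqrt (by positivity)]
    exact (h ψ hψ _).trans (h3 x)

end Vale.Agent.KR
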