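import Vale.Agent.KR.Approx
import Vale.Agent.KR.L2
import Vale.Agent.KR.Small

/-!
# The type II_1 case (notes, section 4)
* `inv_e`: `fip` over `ε = 1/(n+1)` with `approx` (`TrD.cont`); then with `D = ψ s - X* ψ (X s)`, `<ev y, ev D> = 0` for all contractions `y`, so `D = 0` (`TrD.sep`);
  `four ∅` gives `ψ (a e) = a ψ e`; `Minl.all` (`isClosed_mod`).
* `small_join`: induction with `join` applied to `x i f`: `a = a f`, `‖ev (a a*)‖ = ‖ev a*‖ ≤ 2 ‖ev a‖ ≤ 2 ‖ev f‖`, `‖ev (l + a a*)‖ ≤ ‖ev l‖ + ‖ev (a a*)‖`.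
* `sing`: `fip` over `(a, x, ξ, η, n)` for `{ψ | ‖<η, (ψ (a x) - a ψ x) ξ>‖ ≤ 1/(n+1)}`; `pinch_mem` with `l` covering all `x f, a x f`;
  `ψ' (a x) - a ψ' x = l ψ (a x f) - a l ψ (x f)`; `TrD.dom` for the vectors `η` and `a* η`.
-/

namespace Vale.Agent.KR

open Vale.Agent.P104 Finset
open scoped InnerProductSpace

variable {H : Type*} [NormedAddCommGroup H] [InnerProductSpace ℂ H] [CompleteSpace H]
  {M : VonNeumannAlgebra H}
variable {F : Type*} [NormedAddCommGroup F] [InnerProductSpace ℂ F]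

theorem coreII_proj_norm {e : M} (he : IsStarProjection (e : H →L[ℂ] H)) : ‖e‖ ≤ 1 :=
  (PIso.of_proj he).norm_le

theorem coreII_idem {e : M} (he : IsStarProjection (e : H →L[ℂ] H)) : e * e = e :=
  Subtype.ext he.isIdempotentElem.eq

theorem coreII_one_div (s : Finset ℕ) {n : ℕ} (hn : n ∈ s) :
    1 / ((s.sup id : ℕ) + 1 : ℝ) ≤ 1 / ((n : ℝ) + 1) := by
  have h : n ≤ s.sup id := Finset.le_sup (f := id) hn
  have h' : (n : ℝ) ≤ (s.sup id : ℕ) := by exact_mod_cast h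
  exact one_div_le_one_div_of_le (by positivity) (by linarith)

theorem coreII_zero {w : ℂ} (h : ∀ n : ℕ, ‖w‖ ≤ 1 / ((n : ℝ) + 1)) : w = 0 :=
  norm_le_zero_iff.1 (ge_of_tendsto' tendsto_one_div_add_atTop_nhds_zero_nat h)

theorem inv_e {Q : QT M F} (hQ : TrD M Q) (hD : Diffuse M) {K : ℝ} (hK0 : 0 ≤ K)
    {KK : Set (Mp M)} (hK : Minl (act (∅ : Set M)) KK) (hB : KK ⊆ Ball M K) {e : M}
    (he : IsStarProjection (e : H →L[ℂ] H)) {L : ℝ}
    (hL0 : 0 ≤ L) (hL : ∀ ψ ∈ KK, ∀ x : M, ‖Q.ev (ψ (x * e))‖ ≤ L * ‖Q.ev (x * e)‖) :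
    ∀ ψ ∈ KK, ∀ a : M, ψ (a * e) = a * ψ e := by
  obtain ⟨ψ, hψ, h⟩ := fip hK.cpt (fun n : ℕ => {ψ : Mp M | ∀ X ∈ unitary M, ∀ y s : M,
      ‖y‖ ≤ 1 → ‖s‖ ≤ 1 → s * e = s →
      ‖⟪Q.ev (X * y), Q.ev (ψ (X * s))⟫_ℂ - ⟪Q.ev y, Q.ev (ψ s)⟫_ℂ‖ ≤ 1 / ((n : ℝ) + 1)})
    (fun n => by
      simp only [Set.ofPred_forall]
      exact isClosed_iInter fun X => isClosed_iInter fun _ => isClosed_iInter fun y =>
        isClosed_iInter fun s => isClosed_iInter fun _ => isClosed_iInter fun _ =>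
        isClosed_iInter fun _ =>
          isClosed_le ((hQ.cont _ _).sub (hQ.cont _ _)).norm continuous_const)
    fun s => by
      obtain ⟨ψ, hψ, h⟩ := approx hQ hD hK0 hK.toInv hB hL0 hL
        (ε := 1 / ((s.sup id : ℕ) + 1 : ℝ)) (by positivity)
      exact ⟨ψ, hψ, fun n hn X hX y t h1 h2 h3 => (h X hX y t h1 h2 h3).trans (coreII_one_div s hn)⟩
  have h1 : ∀ X ∈ unitary M, ψ (X * e) = X * ψ e := by
    intro X hX
    set D : M := star X * ψ (X * e) - ψ e with hD'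
    have h2 : ∀ y : M, ‖y‖ ≤ 1 → ⟪Q.ev y, Q.ev D⟫_ℂ = 0 := fun y hy => by
      rw [hD', map_sub, inner_sub_right, ← Q.adj]
      exact coreII_zero fun n => h n X hX y e hy (coreII_proj_norm he) (coreII_idem he)
    have h3 := h2 ((((‖D‖ + 1)⁻¹ : ℝ) : ℂ) • D) (by
      rw [norm_smul, Complex.norm_real, Real.norm_of_nonneg (by positivity), inv_mul_le_iff₀
        (by positivity)]
      linarith)
    rw [map_smul, inner_smul_left, mul_eq_zero, inner_self_eq_zero, Complex.conj_ofReal,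
      Complex.ofReal_eq_zero] at h3
    have h4 : D = 0 := hQ.sep (h3.resolve_left (by positivity))
    rw [← sub_eq_zero.1 h4, ← mul_assoc, Unitary.mul_star_self_of_mem hX, one_mul]
  have h2 : ∀ a : M, ψ (a * e) = a * ψ e := by
    intro a
    obtain ⟨u, c, rfl, -⟩ := four (∅ : Set M) (fun _ h => h.elim) (a := a) fun _ h => h.elim
    simp only [Finset.sum_mul, smul_mul_assoc, map_sum, map_smul, h1 _ (u _).2.1]
  refine hK.all (C := {ψ : Mp M | ∀ a : M, ψ (a * e) = a * ψ e}) ⟨ψ, hψ, h2⟩ ?_ ?_ ?_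
  · simp only [Set.ofPred_forall]
    refine isClosed_iInter fun a => ?_
    simpa using isClosed_mod 1 a (a * e) e
  · simp only [Set.ofPred_forall]
    refine convex_iInter fun a => ?_
    simpa using convex_mod 1 a (a * e) e
  · intro u φ _ hφ a
    show star u.1 * φ (u.1 * (a * e)) = a * (star u.1 * φ (u.1 * e))
    rw [← mul_assoc u.1, hφ, hφ, mul_assoc u.1, ← mul_assoc, ← mul_assoc (star u.1),
      Unitary.star_mul_self_of_mem u.2.1, one_mul, one_mul]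

theorem small_join {Q : QT M F} (hQ : TrD M Q) (f : M) (hf : IsStarProjection (f : H →L[ℂ] H))
    (s : Finset M) : ∃ l : M, IsStarProjection (l : H →L[ℂ] H) ∧
      (∀ x ∈ s, l * (x * f) = x * f) ∧ ‖Q.ev l‖ ≤ 2 * s.card * ‖Q.ev f‖ := by
  classical
  induction s using Finset.induction_on with
  | empty => exact ⟨0, by simp, by simp, by simp⟩
  | insert x s hx ih =>
    obtain ⟨l, hl, h1, h2⟩ := ih
    obtain ⟨a, haM, ha, h3, h4, h5⟩ := join M hl l.2 (x * f).2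
    let A : M := ⟨a, haM⟩
    have h6 : star a * (l : H →L[ℂ] H) = 0 := by
      have := congrArg star h3
      rwa [star_mul, hl.isSelfAdjoint.star_eq, star_zero] at this
    have h7 : A * f = A := by
      have := h5 (1 - f) (by
        rw [MulMemClass.coe_mul, mul_assoc, mul_sub, mul_one, hf.isIdempotentElem.eq, sub_self,
          mul_zero])
      rw [mul_sub, mul_one, sub_eq_zero] at this
      exact Subtype.ext this.symm
    refine ⟨l + A * star A, ?_, fun y hy => ?_, ?_⟩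
    · exact hl.add ha.proj_right (by
        show (l : H →L[ℂ] H) * (a * star a) = 0
        rw [← mul_assoc, h3, zero_mul])
    · rcases Finset.mem_insert.1 hy with rfl | hy
      · exact Subtype.ext h4
      · have h8 : star A * l = 0 := Subtype.ext h6
        rw [add_mul, h1 y hy, ← h1 y hy, mul_assoc A, ← mul_assoc (star A), h8, zero_mul, mul_zero,
          add_zero]
    · have hA : ‖A‖ ≤ 1 := ha.norm_le
      have h8 : ‖Q.ev (A * star A)‖ ≤ ‖Q.ev (star A)‖ := hQ.ctr hA _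
      have h9 : ‖Q.ev A‖ ≤ ‖Q.ev f‖ := by
        rw [← h7]
        exact hQ.ctr hA _
      have h10 := Q.star_le A
      rw [map_add, Finset.card_insert_of_notMem hx]
      push_cast
      linarith [norm_add_le (Q.ev l) (Q.ev (A * star A))]

theorem coreII_small {Q : QT M F} (hQ : TrD M Q) (η : H) {δ : ℝ} (hδ : 0 < δ) :
    ∀ᶠ θ in nhdsWithin (0 : ℝ) (Set.Ioi 0), ∀ l : M, IsStarProjection (l : H →L[ℂ] H) →
      ‖Q.ev l‖ ≤ θ → ‖(l : H →L[ℂ] H) η‖ ≤ δ := by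
  obtain ⟨C, hC, h⟩ := hQ.dom η (δ / 2) (by positivity)
  have h1 : 0 < δ / 2 / (C + 1) := by positivity
  filter_upwards [Ioo_mem_nhdsGT h1] with θ hθ l hl hθ'
  have h2 := (lt_div_iff₀ (by positivity)).1 hθ.2
  have h3 := mul_le_mul_of_nonneg_left (coreII_proj_norm hl) (by positivity : 0 ≤ δ / 2)
  have h4 := mul_le_mul_of_nonneg_left hθ' hC
  have h5 := h l
  nlinarith [hθ.1]

theorem coreII_est {Q : QT M F} (hQ : TrD M Q) {K : ℝ} (hK0 : 0 ≤ K) (a x : M) (ξ η : H) {δ : ℝ}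
    (hδ : 0 < δ) : ∀ᶠ θ in nhdsWithin (0 : ℝ) (Set.Ioi 0), ∀ l : M,
      IsStarProjection (l : H →L[ℂ] H) → ‖Q.ev l‖ ≤ θ → ∀ ψ ∈ Ball M K, ∀ f : M, ‖f‖ ≤ 1 →
      ‖⟪η, ((l * ψ (a * x * f) : M) : H →L[ℂ] H) ξ⟫_ℂ -
        ⟪η, ((a * (l * ψ (x * f)) : M) : H →L[ℂ] H) ξ⟫_ℂ‖ ≤ δ := by
  set B : ℝ := K * ‖a * x‖ * ‖ξ‖ + K * ‖x‖ * ‖ξ‖ + 1 with hB
  have hB0 : 0 < B := by positivity
  have hd : 0 < δ / B := by positivity
  filter_upwards [coreII_small hQ η hd, coreII_small hQ (star (a : H →L[ℂ] H) η) hd]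
    with θ h1 h2 l hl hθ ψ hψ f hf
  have key : ∀ (ζ : H) (y : M), ‖(l : H →L[ℂ] H) ζ‖ ≤ δ / B →
      ‖⟪ζ, ((l * ψ (y * f) : M) : H →L[ℂ] H) ξ⟫_ℂ‖ ≤ δ / B * (K * ‖y‖ * ‖ξ‖) := by
    intro ζ y hζ
    have e : ⟪ζ, ((l * ψ (y * f) : M) : H →L[ℂ] H) ξ⟫_ℂ =
        ⟪(l : H →L[ℂ] H) ζ, (ψ (y * f) : H →L[ℂ] H) ξ⟫_ℂ := by
      rw [← inner_star_right, hl.isSelfAdjoint.star_eq]
      rfl
    rw [e]
    refine (norm_inner_le_norm _ _).trans (mul_le_mul hζ ?_ (norm_nonneg _) hd.le)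
    refine (ContinuousLinearMap.le_opNorm _ _).trans (mul_le_mul_of_nonneg_right ?_ (norm_nonneg _))
    refine (hψ (y * f)).trans (mul_le_mul_of_nonneg_left ?_ hK0)
    exact (norm_mul_le _ _).trans (mul_le_of_le_one_right (norm_nonneg _) hf)
  have e2 : ⟪η, ((a * (l * ψ (x * f)) : M) : H →L[ℂ] H) ξ⟫_ℂ =
      ⟪star (a : H →L[ℂ] H) η, ((l * ψ (x * f) : M) : H →L[ℂ] H) ξ⟫_ℂ := by
    rw [inner_star_left]
    rfl
  rw [e2]
  refine (norm_sub_le _ _).trans ((add_le_add (key η (a * x) (h1 l hl hθ))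
    (key _ x (h2 l hl hθ))).trans ?_)
  rw [← mul_add]
  calc _ ≤ δ / B * B := mul_le_mul_of_nonneg_left (by linarith) hd.le
    _ = δ := div_mul_cancel₀ _ hB0.ne'

theorem sing {Q : QT M F} (hQ : TrD M Q) {K : ℝ} (hK0 : 0 ≤ K) {KK : Set (Mp M)}
    (hK : Inv (act (∅ : Set M)) KK) (hB : KK ⊆ Ball M K)
    (h : ∀ η : ℝ, 0 < η → ∃ e : M, IsStarProjection (e : H →L[ℂ] H) ∧ ‖Q.ev (1 - e)‖ ≤ η ∧
      ∀ ψ ∈ KK, ∀ a : M, ψ (a * e) = a * ψ e) :
    ∃ ψ ∈ KK, ∀ a x : M, ψ (a * x) = a * ψ x := by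
  classical
  obtain ⟨ψ, hψ, h1⟩ := fip hK.cpt (fun i : M × M × H × H × ℕ => {ψ : Mp M |
      ‖⟪i.2.2.2.1, (ψ (i.1 * i.2.1) : H →L[ℂ] H) i.2.2.1⟫_ℂ -
        ⟪star (i.1 : H →L[ℂ] H) i.2.2.2.1, (ψ i.2.1 : H →L[ℂ] H) i.2.2.1⟫_ℂ‖ ≤
          1 / ((i.2.2.2.2 : ℝ) + 1)})
    (fun i => isClosed_le ((Mp.continuous_inner _ _ _).sub (Mp.continuous_inner _ _ _)).norm
      continuous_const)
    fun s => by
      obtain ⟨θ, hθ, hθ0⟩ := (((Filter.eventually_all_finset s).2 fun i _ =>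
        coreII_est hQ hK0 i.1 i.2.1 i.2.2.1 i.2.2.2.1 (δ := 1 / ((i.2.2.2.2 : ℝ) + 1))
          (by positivity)).and self_mem_nhdsWithin).exists
      have hθ1 : 0 < θ := hθ0
      set s' : Finset M := s.image (fun i => i.2.1) ∪ s.image fun i => i.1 * i.2.1 with hs'
      obtain ⟨e, he, h2, h3⟩ := h (θ / (2 * s'.card + 1)) (by positivity)
      have hf : IsStarProjection ((1 - e : M) : H →L[ℂ] H) := he.one_sub
      obtain ⟨l, hl, h4, h5⟩ := small_join hQ (1 - e) hf s'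
      have h6 : ‖Q.ev l‖ ≤ θ := by
        have h7 := (le_div_iff₀ (by positivity)).1 h2
        nlinarith [norm_nonneg (Q.ev (1 - e))]
      obtain ⟨φ, hφ⟩ := hK.ne
      obtain ⟨φ', hφ', h7⟩ := pinch_mem hK hl hφ
      have h8 : ∀ y ∈ s', φ' y = y * φ' e + l * φ (y * (1 - e)) := fun y hy => by
        have e1 : y = y * e + y * (1 - e) := by rw [← mul_add, add_sub_cancel, mul_one]
        have e2 := h7 (y * (1 - e))
        rw [sub_mul 1 l (y * (1 - e)), one_mul, h4 y hy, sub_self, map_zero, mul_zero, add_zero] at e2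
        conv_lhs => rw [e1, map_add, h3 φ' hφ', e2]
      refine ⟨φ', hφ', fun i hi => ?_⟩
      have h9 := hθ i hi l hl h6 φ (hB hφ) (1 - e) (coreII_proj_norm hf)
      have m1 : i.2.1 ∈ s' := Finset.mem_union_left _ (Finset.mem_image_of_mem _ hi)
      have m2 : i.1 * i.2.1 ∈ s' := Finset.mem_union_right _ (Finset.mem_image_of_mem _ hi)
      have e3 : φ' (i.1 * i.2.1) - i.1 * φ' i.2.1 =
          l * φ (i.1 * i.2.1 * (1 - e)) - i.1 * (l * φ (i.2.1 * (1 - e))) := by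
        rw [h8 _ m1, h8 _ m2, mul_add, mul_assoc]
        abel
      rw [← inner_sub_right, ← _root_.sub_apply, ← AddSubgroupClass.coe_sub,
        ← e3] at h9
      rw [Set.mem_ofPred_eq, inner_star_left, ← inner_sub_right]
      exact h9
  refine ⟨ψ, hψ, fun a x => Subtype.ext (ContinuousLinearMap.ext fun ξ =>
    ext_inner_left ℂ fun η => ?_)⟩
  have h2 := coreII_zero (w := ⟪η, (ψ (a * x) : H →L[ℂ] H) ξ⟫_ℂ -
    ⟪star (a : H →L[ℂ] H) η, (ψ x : H →L[ℂ] H) ξ⟫_ℂ) fun n => h1 (a, x, ξ, η, n)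
  rw [sub_eq_zero, inner_star_left] at h2
  exact h2

theorem coreII {Q : QT M F} (hQ : TrD M Q) (hD : Diffuse M) {K : ℝ} (hK0 : 0 ≤ K)
    {KK : Set (Mp M)} (hK : Inv (act (∅ : Set M)) KK) (hB : KK ⊆ Ball M K) :
    ∃ ψ ∈ KK, ∀ a x : M, ψ (a * x) = a * ψ x := by
  obtain ⟨K', hK', hm⟩ := hK.exists_minl
  have hB' := hK'.trans hB
  obtain ⟨ψ, hψ, h⟩ := sing hQ hK0 hm.toInv hB' fun η hη => by
    obtain ⟨e, he, h1, L, hL0, hL⟩ := l2 hQ hK0 hm hB' hη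
    exact ⟨e, he, h1, inv_e hQ hD hK0 hm hB' he hL0 hL⟩
  exact ⟨ψ, hK' hψ, h⟩

end Vale.Agent.KR
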