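import Vale.Agent.KR.Small

/-!
# Cyclic projections in the purely infinite part (notes, section 2)
* `sp_inf`: `p = projOn (M' ξ)`, `x ξ = 0 → x p = 0` for `x ∈ M`. For `f ≤ p` take `f' ≤ f` nonzero `PropInf`, `z = csupp f'`, a maximal family of
  nonzero `PIso v ∈ M`, `f' v = v = v p`, `v v'* = 0`; it is countable (`∑ ‖v ξ‖² ≤ ‖ξ‖²`, each term positive); `W = ∑ t^(n v) s v` (`sum_piso`),
  `W* W = p z` by `connect`. One `w` suffices.
-/

namespace Vale.Agent.KR

open Vale.Agent.P104 Finset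
open scoped InnerProductSpace

variable {H : Type*} [NormedAddCommGroup H] [InnerProductSpace ℂ H] [CompleteSpace H]
  {M : VonNeumannAlgebra H}

theorem spInf_isos {f : H →L[ℂ] H} (hf : PropInf M f) :
    ∃ u : ℕ → H →L[ℂ] H, (∀ k, u k ∈ M) ∧ (∀ k, f * u k = u k) ∧
      ∀ k l, star (u k) * u l = if k = l then f else 0 := by
  obtain ⟨hfp, s, hs, t, ht, e1, e2, e3, e4, e5⟩ := hf
  have hiso : ∀ (n : ℕ) (x : H →L[ℂ] H), f * x = x → star (t ^ n) * (t ^ n * x) = x := by
    intro n
    induction n with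
    | zero => intro x _; simp
    | succ n ih =>
      intro x hx
      rw [pow_succ, star_mul, mul_assoc, mul_assoc, ih (t * x) (by rw [← mul_assoc, e5]),
        ← mul_assoc, e2, hx]
  have hev : ∀ n : ℕ, f * (t ^ n * s) = t ^ n * s := by
    intro n
    cases n with
    | zero => simpa using e4
    | succ n => rw [pow_succ', ← mul_assoc, ← mul_assoc, e5]
  have hlt : ∀ n m : ℕ, n < m → star (t ^ n * s) * (t ^ m * s) = 0 := by
    intro n m hnm
    obtain ⟨k, rfl⟩ := Nat.exists_eq_add_of_lt hnm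
    rw [add_assoc, pow_add, star_mul, mul_assoc, mul_assoc, hiso n _ (hev _), pow_succ',
      ← mul_assoc, ← mul_assoc, e3, zero_mul, zero_mul]
  refine ⟨fun n => t ^ n * s, fun n => mul_mem (pow_mem ht n) hs, hev, fun n m => ?_⟩
  rcases lt_trichotomy n m with hnm | rfl | hnm
  · rw [if_neg hnm.ne]
    exact hlt n m hnm
  · rw [if_pos rfl, star_mul, mul_assoc, hiso n s e4, e1]
  · rw [if_neg hnm.ne']
    have := congrArg star (hlt m n hnm)
    simpa only [star_mul, star_star, star_zero, mul_assoc] using this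

theorem spInf_countable {F : Set (H →L[ℂ] H)} (ξ : H) (hF : ∀ v ∈ F, PIso v ∧ v ξ ≠ 0)
    (hFo : F.Pairwise fun a b => a * star b = 0) : Countable F := by
  have hq : ∀ v : F, IsStarProjection (star v.1 * v.1) := fun v => (hF v v.2).1.proj_left
  have hqq : Pairwise fun a b : F =>
      star a.1 * a.1 * (star b.1 * b.1) = 0 := by
    intro a b hab
    have := hFo a.2 b.2 (Subtype.coe_ne_coe.2 hab)
    rw [mul_assoc, ← mul_assoc a.1, this, zero_mul, mul_zero]
  obtain ⟨V, -, hV⟩ := sums_exists (fun v : F => star v.1 * v.1)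
    (fun v => PIso.of_proj (hq v))
    (fun a b hab => by
      show star (star a.1 * a.1) * (star b.1 * b.1) = 0
      rw [(hq a).isSelfAdjoint.star_eq]
      exact hqq hab)
    (fun a b hab => by
      show star a.1 * a.1 * star (star b.1 * b.1) = 0
      rw [(hq b).isSelfAdjoint.star_eq]
      exact hqq hab)
  have h1 := (hV ξ).summable.countable_support
  have h2 : (Function.support fun v : F => ‖(star v.1 * v.1) ξ‖ ^ 2) = Set.univ := by
    refine Set.eq_univ_of_forall fun v => ?_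
    intro h3
    have h4 : (star v.1 * v.1) ξ = 0 := by simpa using h3
    apply (hF v v.2).2
    have h5 : v.1 * star v.1 * v.1 = v.1 := (hF v v.2).1
    rw [← h5, mul_assoc, mul_apply_eq_comp, h4, map_zero]
  rw [h2] at h1
  exact Set.countable_univ_iff.1 h1

theorem sp_inf {z₀ : H →L[ℂ] H} (hz₀ : CProj M z₀) (h0 : z₀ ≠ 0)
    (h : ∀ e ∈ M, IsStarProjection e → e ≠ 0 → z₀ * e = e → ¬ NoPI M e) :
    ∃ p ∈ M, IsStarProjection p ∧ p ≠ 0 ∧ z₀ * p = p ∧ SP M p := by
  obtain ⟨ξ₀, hξ₀⟩ : ∃ ξ₀, z₀ ξ₀ ≠ 0 := by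
    by_contra h1
    push Not at h1
    exact h0 (ContinuousLinearMap.ext h1)
  set ξ := z₀ ξ₀ with hξ
  have hzξ : z₀ ξ = ξ := by
    rw [hξ, ← mul_apply_eq_comp, hz₀.proj.isIdempotentElem.eq]
  set p := projOn {η | ∃ s ∈ M.commutant, η = s ξ} with hpdef
  have hp : IsStarProjection p := projOn_proj _
  have hpM : p ∈ M := by
    rw [← M.commutant_commutant]
    refine projOn_comm ?_
    rintro s hs _ ⟨x, hx, rfl⟩
    exact ⟨s * x, mul_mem hs hx, rfl⟩
  have hpξ : p ξ = ξ := projOn_apply_of_mem ⟨1, one_mem _, rfl⟩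
  have hfaith : ∀ x ∈ M, x ξ = 0 → x * p = 0 := by
    intro x hx hx0
    refine mul_projOn_eq_zero ?_
    rintro _ ⟨s, hs, rfl⟩
    rw [← mul_apply_eq_comp, ← comm_of_mem hs hx, mul_apply_eq_comp, hx0, map_zero]
  have hzp : z₀ * p = p := by
    have := hfaith (z₀ - 1) (sub_mem hz₀.mem (one_mem _)) (by simp [hzξ])
    rwa [sub_mul, one_mul, sub_eq_zero] at this
  refine ⟨p, hpM, hp, fun h1 => hξ₀ (by rw [← hpξ, h1]; rfl), hzp, ?_⟩
  intro f hfM hf hf0 hpf
  have hN := h f hfM hf hf0 (by rw [← hpf, ← mul_assoc, hzp])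
  unfold NoPI at hN
  push Not at hN
  obtain ⟨f', hf', hff', hf'0⟩ := hN
  have hf'p := hf'.1
  have hf'M : f' ∈ M := by
    obtain ⟨-, s, hs, -, -, e1, -⟩ := hf'
    rw [← e1]
    exact mul_mem (star_mem hs) hs
  obtain ⟨u, huM, hfu, huu⟩ := spInf_isos hf'
  obtain ⟨z, hz, hz1, hz2⟩ := csupp M hf'M
  obtain ⟨F, hF, hFo, hmax⟩ := exists_maximal_pairwise
    {v : H →L[ℂ] H | v ∈ M ∧ PIso v ∧ v ≠ 0 ∧ f' * v = v ∧ v * p = v}
    (fun a b => a * star b = 0) (fun a b h => by simpa using congrArg star h)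
  have hcount : Countable F := spInf_countable ξ (fun v hv => ⟨(hF hv).2.1, fun h1 =>
    (hF hv).2.2.1 (by rw [← (hF hv).2.2.2.2]; exact hfaith v (hF hv).1 h1)⟩) hFo
  obtain ⟨n, hn⟩ := exists_injective_nat F
  have hww : ∀ v : F, star (u (n v) * v.1) * (u (n v) * v.1) = star v.1 * v.1 := by
    intro v
    rw [star_mul, mul_assoc, ← mul_assoc (star (u (n v))), huu, if_pos rfl, (hF v.2).2.2.2.1]
  have hwp : ∀ v : F, PIso (u (n v) * v.1) := fun v => PIso.of_idem (by
    rw [hww]
    exact (hF v.2).2.1.proj_left.isIdempotentElem)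
  obtain ⟨W, hWM, hW, hA, hB, hl, hr, -⟩ := sum_piso M (fun v : F => u (n v) * v.1)
    (fun v => mul_mem (huM _) (hF v.2).1) hwp
    (fun a b hab => by
      show star (u (n a) * a.1) * (u (n b) * b.1) = 0
      rw [star_mul, mul_assoc, ← mul_assoc (star (u (n a))), huu, if_neg (hn.ne hab), zero_mul,
        mul_zero])
    (fun a b hab => by
      show u (n a) * a.1 * star (u (n b) * b.1) = 0
      have := hFo a.2 b.2 (Subtype.coe_ne_coe.2 hab)
      rw [star_mul, mul_assoc, ← mul_assoc a.1, this, zero_mul, mul_zero])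
  have hfW : f' * W = W := by
    have := hl (f' - 1) fun v => by rw [sub_mul, one_mul, ← mul_assoc, hfu, sub_self]
    rwa [sub_mul, one_mul, sub_eq_zero] at this
  have hWp : W * p = W := by
    have := hr (p - 1) fun v => by
      rw [mul_sub, mul_one, mul_assoc, (hF v.2).2.2.2.2, sub_self]
    rwa [mul_sub, mul_one, sub_eq_zero] at this
  have hpW : p * star W = star W := compare_star_right hp hWp
  have he' : IsStarProjection (p - star W * W) :=
    compare_sub hp hW.proj_left (by rw [← mul_assoc, hpW])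
  have he'M : p - star W * W ∈ M := sub_mem hpM (mul_mem (star_mem hWM) hWM)
  have heb : ∀ b ∈ F, (p - star W * W) * star b = 0 := by
    intro b hb
    have b1 : star b * b * star b = star b := by simpa [PIso] using (hF hb).2.1.star
    have b2 : W * (star b * b) = u (n ⟨b, hb⟩) * b := by
      have := hA ⟨b, hb⟩
      rwa [hww] at this
    have b3 : star W * (u (n ⟨b, hb⟩) * b) = star b * b := by
      have := sums_star_mul_mem (hwp ⟨b, hb⟩) (hB ⟨b, hb⟩)
      rwa [hww] at this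
    have b4 : star W * W * star b = star b := by
      conv_lhs => rw [← b1]
      rw [← mul_assoc, mul_assoc (star W) W, b2, b3, b1]
    rw [sub_mul, b4, compare_star_right hp (hF hb).2.2.2.2, sub_self]
  have hez : (p - star W * W) * z = 0 := by
    refine hz2 _ fun x hx => ?_
    by_contra h1
    have h2 : f' * star x * (p - star W * W) ≠ 0 := by
      intro h2
      apply h1
      have := congrArg star h2
      rwa [star_mul, star_mul, star_star, he'.isSelfAdjoint.star_eq, hf'p.isSelfAdjoint.star_eq,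
        star_zero, ← mul_assoc] at this
    obtain ⟨v, hvM, hv, hv0, h3, h4⟩ := connect M he' hf'p he'M hf'M (star_mem hx) h2
    have h5 : ∀ b ∈ F, v * star b = 0 := fun b hb => by
      rw [← h4, mul_assoc, heb b hb, mul_zero]
    have h6 : v ∈ F := hmax v ⟨hvM, hv, hv0, h3, by
      rw [← h4, mul_assoc, sub_mul, hp.isIdempotentElem.eq, mul_assoc, hWp]⟩ h5
    apply hv0
    rw [← hv, h5 v h6, zero_mul]
  refine ⟨z, hz, fun h1 => hf'0 ?_, 1, fun _ => W, fun _ => hWM, fun _ => hW.norm_le,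
    fun _ => ?_, fun _ => hWp, fun ζ h1 h2 => ?_⟩
  · rw [← hff', ← hz1, ← mul_assoc, h1, zero_mul]
  · rw [← hfW, ← mul_assoc, hff']
  · have h3 : (p - star W * W) ζ = 0 := by
      rw [← h2, ← mul_apply_eq_comp, hez]
      rfl
    have h4 : (star W * W) ζ = ζ := by
      rw [ContinuousLinearMap.sub_apply, h1, sub_eq_zero] at h3
      exact h3.symm
    have h5 : ‖W ζ‖ ^ 2 = ‖ζ‖ ^ 2 := by
      rw [← qf_star_mul_self, ← qf_one ζ]
      unfold qf
      rw [h4]
      rfl
    simp [h5]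

theorem exists_sp {z₀ : H →L[ℂ] H} (hz₀ : CProj M z₀) (h0 : z₀ ≠ 0) :
    ∃ p ∈ M, IsStarProjection p ∧ p ≠ 0 ∧ z₀ * p = p ∧ SP M p := by
  by_cases h : ∀ e ∈ M, IsStarProjection e → e ≠ 0 → z₀ * e = e → ¬ NoPI M e
  · exact sp_inf hz₀ h0 h
  · push Not at h
    obtain ⟨e, heM, he, he0, hze, hN⟩ := h
    exact ⟨e, heM, he, he0, hze, sp_fin he heM hN⟩

end Vale.Agent.KR
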