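import Vale.Agent.KR.HG
import Vale.Agent.KR.Ker
import Vale.Agent.KR.MpBasic
import Vale.Agent.KR.SpInf

/-!
# The completely bounded case (notes, section 2)
`corner`: take `KK'` minimal. Claim `q (ψ₁ b - ψ₂ b) = 0` on `KK'`. Otherwise scale to `‖b‖ ≤ 1`, `y = q δ b ≠ 0`, `cut` of `y y*` at
`s = ‖y‖²/2` gives `f ≠ 0` (`norm_le_of_qf`), `q f = f`, `s ‖f ξ‖² ≤ ‖y* f ξ‖²`. `SP` gives `z', w j` (`n > 0`), `four {q}` gives `h j i`.
`η = f z' ξ₀ ≠ 0`. `P = {tau (h j i) ψ₁, tau (h j i) ψ₂}`, `T i = {ζ ↦ re <η, ζ b' ξ> : ‖b'‖ ≤ 1, ‖ξ‖ ≤ 1}`, `c₀ = √(s/n) ‖η‖/2`. For `u`, with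
`ζ = u η` some `‖(δ b)* h ζ‖ ≥ c₀`; test `b' = u* h* b`. `hg` and `CBn (3J)` for `x k i = kw c i k • g k b i` (`0` for `i ∉ Ico J (2J)`; `MatLe x 20` by `Ker.toep`),
`η k = g k η`, give `J Λ c₀/4 ≤ 60 K J ‖η‖`. Choose `Λ` by `exists_ker`. Then `q tau u ψ = q ψ`, and `four` again.
`cbcase`: `exists_sp`, `z' = csupp p`; `fip` for the closed sets `{ψ | g ψ (a x) = g a ψ x}`, `g = p a'`, indexed by `(a', a, x)`: `cover` applied to
`p, g*, (g a)*`, then `corner` (`g` and `g a` commute with `q`, being in `q M q`).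
-/

namespace Vale.Agent.KR

open Vale.Agent.P104 Finset
open scoped InnerProductSpace

variable {H : Type*} [NormedAddCommGroup H] [InnerProductSpace ℂ H] [CompleteSpace H]
  {M : VonNeumannAlgebra H}

/-- The test functional `ζ ↦ re <η, ζ b ξ>`. -/
noncomputable def cornerT (η : H) (b : M) (ξ : H) : Mp M →L[ℝ] ℝ where
  toFun ζ := (⟪η, (ζ b : H →L[ℂ] H) ξ⟫_ℂ).re
  map_add' ψ φ := by
    simp only [Mp.add_apply, AddMemClass.coe_add, _root_.add_apply, inner_add_right,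
      Complex.add_re]
  map_smul' r ψ := by
    have : ⟪η, ((r • ψ) b : H →L[ℂ] H) ξ⟫_ℂ = (r : ℂ) * ⟪η, (ψ b : H →L[ℂ] H) ξ⟫_ℂ := by
      rw [← inner_smul_right]; rfl
    simp [this]
  cont := Complex.continuous_re.comp (Mp.continuous_inner b ξ η)

theorem cornerT_apply (η : H) (b : M) (ξ : H) (ζ : Mp M) :
    cornerT η b ξ ζ = (⟪η, (ζ b : H →L[ℂ] H) ξ⟫_ℂ).re := rfl

theorem cornerT_tau (η : H) (b : M) (ξ : H) (ζ : Mp M) (u : M) :
    cornerT η b ξ (tau u ζ) = (⟪(u : H →L[ℂ] H) η, (ζ (u * b) : H →L[ℂ] H) ξ⟫_ℂ).re := by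
  rw [cornerT_apply, ← inner_star_right]
  rfl

theorem corner_iso {u : M} (hu : u ∈ unitary M) (ξ : H) : ‖(u : H →L[ℂ] H) ξ‖ = ‖ξ‖ := by
  have h : star (u : H →L[ℂ] H) * u = 1 := congrArg Subtype.val (Unitary.star_mul_self_of_mem hu)
  have h1 := qf_star_mul_self (u : H →L[ℂ] H) ξ
  rw [h, qf_one] at h1
  exact (pow_left_inj₀ (norm_nonneg _) (norm_nonneg _) two_ne_zero).1 h1.symm

/-- The upper bound from complete boundedness. -/
theorem corner_upper {J : ℕ} {c : ℕ → ℝ} {Λ : ℝ} (hk : Ker J c Λ) {K R : ℝ} (hK0 : 0 ≤ K)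
    (hR : 0 ≤ R) {z : H →L[ℂ] H} (hz : CProj M z) {ψ : Mp M} (hψ : CBn (3 * J) z K ψ) {η : H}
    (hη : z η = η) (g : ℕ → M) (hg : ∀ k, g k ∈ unitary M) (t : ℕ → Mp M →L[ℝ] ℝ)
    (ht : ∀ i < 3 * J, ∃ (b : M) (ξ : H), ‖b‖ ≤ 1 ∧ ‖ξ‖ ≤ R ∧ t i = cornerT η b ξ) :
    ∑ i ∈ Ico J (2 * J), ∑ k ∈ range (3 * J), kw c i k * t i (tau (g k) ψ) ≤
      J * (60 * K * ‖η‖ * R) := by
  classical
  choose b ξ hb hξ ht using fun i : Fin (3 * J) => ht i i.2
  let b' : Fin (3 * J) → M := fun i => if (i : ℕ) ∈ Ico J (2 * J) then b i else 0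
  have hb' : ∀ i, ‖b' i‖ ≤ 1 := fun i => by
    simp only [b']
    split_ifs
    · exact hb i
    · simp
  let x : Fin (3 * J) → Fin (3 * J) → M := fun k i => (kw c i k : ℂ) • (g k * b' i)
  have hx : MatLe x 20 := by
    intro β
    let β' : ℕ → H := fun i => if h : i < 3 * J then (b' ⟨i, h⟩ : H →L[ℂ] H) (β ⟨i, h⟩) else 0
    have e1 : ∀ i : Fin (3 * J), β' i = (b' i : H →L[ℂ] H) (β i) := fun i => dif_pos i.2
    have h1 := hk.toep (range (3 * J)) (range (3 * J)) β'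
    simp only [Finset.sum_range, e1] at h1
    calc _ = ∑ k : Fin (3 * J), ‖∑ i : Fin (3 * J),
          (kw c i k : ℂ) • (b' i : H →L[ℂ] H) (β i)‖ ^ 2 := by
          refine Finset.sum_congr rfl fun k _ => ?_
          rw [← corner_iso (hg k) (∑ i : Fin (3 * J), (kw c i k : ℂ) • (b' i : H →L[ℂ] H) (β i)),
            map_sum]
          simp only [map_smul]
          rfl
      _ ≤ _ := h1
      _ ≤ _ := by
          rw [show (20 : ℝ) ^ 2 = 400 by norm_num]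
          refine mul_le_mul_of_nonneg_left (Finset.sum_le_sum fun i _ => ?_) (by norm_num)
          exact pow_le_pow_left₀ (norm_nonneg _) (((b' i : H →L[ℂ] H).le_opNorm _).trans
            (mul_le_of_le_one_left (norm_nonneg _) (hb' i))) 2
  have h1 := hψ x 20 (by norm_num) hx (fun k => (g k : H →L[ℂ] H) η) ξ fun k => by
    rw [← mul_apply_eq_comp, hz.comm (g k).2, mul_apply_eq_comp, hη]
  have e2 : ∑ i ∈ Ico J (2 * J), ∑ k ∈ range (3 * J), kw c i k * t i (tau (g k) ψ) =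
      (∑ k : Fin (3 * J), ∑ i : Fin (3 * J),
        ⟪(g k : H →L[ℂ] H) η, (ψ (x k i) : H →L[ℂ] H) (ξ i)⟫_ℂ).re := by
    have hsub : Ico J (2 * J) = (range (3 * J)).filter fun i => i ∈ Ico J (2 * J) := by
      ext i
      simp only [Finset.mem_filter, Finset.mem_range, Finset.mem_Ico]
      omega
    rw [hsub, Finset.sum_filter, Finset.sum_range, Finset.sum_comm, Complex.re_sum]
    refine Finset.sum_congr rfl fun i _ => ?_
    rw [Complex.re_sum]
    simp only [x, b']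
    split_ifs with h
    · rw [Finset.sum_range]
      refine Finset.sum_congr rfl fun k _ => ?_
      rw [ht, cornerT_tau, map_smul, ← Complex.re_ofReal_mul, ← inner_smul_right]
      rfl
    · simp
  have h2 : ∑ k : Fin (3 * J), ‖(g k : H →L[ℂ] H) η‖ ^ 2 = (3 * J : ℝ) * ‖η‖ ^ 2 := by
    simp [corner_iso (hg _)]
  have h3 : ∑ i : Fin (3 * J), ‖ξ i‖ ^ 2 ≤ (3 * J : ℝ) * R ^ 2 := by
    refine (Finset.sum_le_sum fun i _ => pow_le_pow_left₀ (norm_nonneg _) (hξ i) 2).trans_eq ?_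
    simp
  have h4 : √(∑ k : Fin (3 * J), ‖(g k : H →L[ℂ] H) η‖ ^ 2) * √(∑ i : Fin (3 * J), ‖ξ i‖ ^ 2) ≤
      3 * J * ‖η‖ * R := by
    rw [h2, ← Real.sqrt_mul (by positivity)]
    refine Real.sqrt_le_iff.2 ⟨by positivity, (mul_le_mul_of_nonneg_left h3
      (by positivity)).trans_eq (by ring)⟩
  rw [e2]
  refine ((Complex.re_le_norm _).trans h1).trans ?_
  rw [mul_assoc]
  exact (mul_le_mul_of_nonneg_left h4 (by positivity)).trans_eq (by ring)

/-- The separation property. -/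
theorem corner_sep {q : M} (hq : IsStarProjection (q : H →L[ℂ] H)) (hsp : SP M q) {D : M}
    (hD : q * D ≠ 0) : ∃ (η : H) (c₀ : ℝ) (n : ℕ) (h : Fin n × Fin 4 → UG {q}), 0 < c₀ ∧
      (q : H →L[ℂ] H) η = η ∧ ∀ u : UG {q}, ∃ j,
        c₀ ≤ ‖star (D : H →L[ℂ] H) (((h j).1 : H →L[ℂ] H) ((u.1 : H →L[ℂ] H) η))‖ ^ 2 := by
  set y : H →L[ℂ] H := (q : H →L[ℂ] H) * D with hy
  have hy0 : 0 < ‖y‖ := norm_pos_iff.2 fun h => hD (Subtype.ext h)
  have hyM : y ∈ M := mul_mem q.2 D.2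
  set s : ℝ := ‖y‖ ^ 2 / 2 with hs
  have hs0 : 0 < s := by positivity
  have hqf : ∀ ξ, qf (y * star y) ξ = ‖star y ξ‖ ^ 2 := fun ξ => by
    simpa using qf_star_mul_self (star y) ξ
  obtain ⟨f, hfM, hf, -, h1, h2, h3⟩ :=
    cut M (mul_mem hyM (star_mem hyM)) (IsSelfAdjoint.mul_star_self y) s
  have hqf' : (q : H →L[ℂ] H) * f = f := by
    have := h3 hs0 (1 - q) (by
      rw [hy, ← mul_assoc, ← mul_assoc, sub_mul, one_mul, hq.isIdempotentElem.eq, sub_self,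
        zero_mul, zero_mul])
    rw [sub_mul, one_mul, sub_eq_zero] at this
    exact this.symm
  have hf0 : f ≠ 0 := by
    rintro rfl
    have h4 : ‖star y‖ ≤ √s := by
      refine ContinuousLinearMap.opNorm_le_bound _ (Real.sqrt_nonneg _) fun ξ => ?_
      have h5 := h2 ξ
      rw [_root_.zero_apply, sub_zero, hqf] at h5
      refine (pow_le_pow_iff_left₀ (norm_nonneg _) (by positivity) two_ne_zero).1 ?_
      rwa [mul_pow, Real.sq_sqrt hs0.le]
    rw [norm_star, Real.le_sqrt (norm_nonneg _) hs0.le] at h4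
    nlinarith
  obtain ⟨z', hz', h4, n, w, hwM, hw1, hfw, hwq, h5⟩ := hsp f hfM hf hf0 hqf'
  have hcomm : ∀ j, ∀ t ∈ ({q} : Set M), (⟨w j, hwM j⟩ : M) * t = t * ⟨w j, hwM j⟩ := by
    rintro j _ rfl
    refine Subtype.ext ?_
    show w j * _ = _ * w j
    rw [hwq, ← hfw j, ← mul_assoc, hqf']
  choose h c hc hc1 using fun j => four ({q} : Set M) (by
    rintro _ rfl
    exact Subtype.ext hq.isSelfAdjoint.star_eq) (hcomm j)
  obtain ⟨ξ₀, hξ₀⟩ : ∃ ξ₀, (f * z') ξ₀ ≠ 0 := by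
    by_contra h6
    push Not at h6
    exact h4 (ContinuousLinearMap.ext h6)
  set η : H := (f * z') ξ₀ with hη
  have hη0 : 0 < ‖η‖ := norm_pos_iff.2 hξ₀
  have hqη : (q : H →L[ℂ] H) η = η := by rw [hη, ← mul_apply_eq_comp, ← mul_assoc, hqf']
  have hzη : z' η = η := by
    rw [hη, ← mul_apply_eq_comp, ← mul_assoc, hz'.comm hfM, mul_assoc,
      hz'.proj.isIdempotentElem.eq]
  refine ⟨η, s * ‖η‖ ^ 2 / (4 * (n + 1)), n, fun j => h j.1 j.2, by positivity, hqη, fun u => ?_⟩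
  by_contra h6
  push Not at h6
  set ζ : H := (u.1 : H →L[ℂ] H) η with hζ
  set r : ℝ := √(s * ‖η‖ ^ 2 / (4 * (n + 1))) with hr
  have hr2 : r ^ 2 = s * ‖η‖ ^ 2 / (4 * (n + 1)) := Real.sq_sqrt (by positivity)
  have hqζ : (q : H →L[ℂ] H) ζ = ζ := by
    have e : (u.1 : H →L[ℂ] H) * q = q * u.1 := congrArg Subtype.val (u.2.2 q rfl)
    rw [hζ, ← mul_apply_eq_comp, ← e, mul_apply_eq_comp, hqη]
  have hzζ : z' ζ = ζ := by
    rw [hζ, ← mul_apply_eq_comp, hz'.comm u.1.2, mul_apply_eq_comp, hzη]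
  have h7 := h5 ζ hqζ hzζ
  rw [hζ, corner_iso u.2.1, ← hζ] at h7
  have h8 : ∀ j, s * ‖w j ζ‖ ^ 2 ≤ 4 * r ^ 2 := by
    intro j
    have h9 := h1 (w j ζ)
    rw [← mul_apply_eq_comp, hfw, hqf] at h9
    refine h9.trans ?_
    have e1 : star y (w j ζ) = ∑ i, c j i • star (D : H →L[ℂ] H) (((h j i).1 : H →L[ℂ] H) ζ) := by
      have e2 : w j = ∑ i, c j i • ((h j i).1 : H →L[ℂ] H) := by
        simpa using congrArg Subtype.val (hc j)
      have e3 : (q : H →L[ℂ] H) (w j ζ) = w j ζ := by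
        rw [← mul_apply_eq_comp, ← hfw j, ← mul_assoc, hqf']
      rw [hy, star_mul, hq.isSelfAdjoint.star_eq, mul_apply_eq_comp, e3, e2]
      simp
    have h10 : ‖star y (w j ζ)‖ ≤ 2 * r := by
      rw [e1]
      refine (norm_sum_le _ _).trans ((Finset.sum_le_sum (g := fun _ => 1 / 2 * r)
        fun i _ => ?_).trans_eq (by simp; ring))
      rw [norm_smul]
      refine mul_le_mul ((hc1 j i).trans ?_) (Real.le_sqrt_of_sq_le (h6 (j, i)).le)
        (norm_nonneg _) (by norm_num)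
      exact div_le_div_of_nonneg_right (hw1 j) (by norm_num)
    exact (pow_le_pow_left₀ (norm_nonneg _) h10 2).trans_eq (by ring)
  have h9 := mul_le_mul_of_nonneg_left h7 hs0.le
  rw [Finset.mul_sum] at h9
  have h10 := h9.trans (Finset.sum_le_sum fun j _ => h8 j)
  rw [Finset.sum_const, Finset.card_univ, Fintype.card_fin, nsmul_eq_mul, hr2] at h10
  have h11 : (n : ℝ) * (4 * (s * ‖η‖ ^ 2 / (4 * (n + 1)))) < s * ‖η‖ ^ 2 := by
    have : 0 < s * ‖η‖ ^ 2 := by positivity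
    rw [mul_div_assoc', mul_div_assoc', div_lt_iff₀ (by positivity)]
    nlinarith
  linarith

theorem corner_min {K : ℝ} (hK0 : 0 ≤ K) {KK : Set (Mp M)} {q : M}
    (hq : IsStarProjection (q : H →L[ℂ] H)) (hsp : SP M q) {z : H →L[ℂ] H} (hz : CProj M z)
    (hzq : z * q = q) (hK : Minl (act {q}) KK) (hB : KK ⊆ Ball M K)
    (hcb : ∀ ψ ∈ KK, ∀ n, CBn n z K ψ) {ψ₁ ψ₂ : Mp M} (h₁ : ψ₁ ∈ KK) (h₂ : ψ₂ ∈ KK) {b : M}
    (hb : ‖b‖ ≤ 1) : q * (ψ₁ b - ψ₂ b) = 0 := by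
  classical
  by_contra hD
  obtain ⟨η, c₀, n, h, hc₀, hqη, hsep⟩ := corner_sep hq hsp hD
  have hzη : z η = η := by rw [← hqη, ← mul_apply_eq_comp, hzq]
  set R : ℝ := 2 * K * ‖η‖ with hR
  have hR0 : 0 ≤ R := by positivity
  obtain ⟨J, c, Λ, hk, hΛ, hΛ0⟩ := exists_ker ((240 * K * ‖η‖ * R + 1) / c₀)
  have hnorm : ∀ ψ ∈ KK, ∀ x : M, ‖x‖ ≤ 1 → ‖(ψ x : H →L[ℂ] H)‖ ≤ K := fun ψ hψ x hx =>
    (hB hψ x).trans (mul_le_of_le_one_right hK0 hx)
  obtain ⟨t, g, ht, hle⟩ := hg (act_Act {q}) hK hk hΛ0 h₁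
    (univ.image (fun j => act {q} (h j) ψ₁) ∪ univ.image fun j => act {q} (h j) ψ₂)
    (fun x hx => by
      rcases Finset.mem_union.1 hx with hx | hx
      · obtain ⟨j, -, rfl⟩ := Finset.mem_image.1 hx
        exact hK.inv _ _ h₁
      · obtain ⟨j, -, rfl⟩ := Finset.mem_image.1 hx
        exact hK.inv _ _ h₂)
    (fun _ => {t | ∃ (b : M) (ξ : H), ‖b‖ ≤ 1 ∧ ‖ξ‖ ≤ R ∧ t = cornerT η b ξ})
    (by
      rintro i _ ⟨b, ξ, h1, h2, rfl⟩
      refine ⟨b, -ξ, h1, by rwa [norm_neg], ContinuousLinearMap.ext fun ζ => ?_⟩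
      simp [cornerT_apply])
    (B := ‖η‖ * (K * R))
    (by
      rintro i _ ⟨b, ξ, h1, h2, rfl⟩ ζ hζ
      refine (Complex.abs_re_le_norm _).trans ((norm_inner_le_norm _ _).trans
        (mul_le_mul_of_nonneg_left ((ContinuousLinearMap.le_opNorm _ _).trans ?_) (norm_nonneg _)))
      exact mul_le_mul (hnorm ζ hζ b h1) h2 (norm_nonneg _) hK0)
    hc₀
    (fun i _ u => by
      obtain ⟨j, hj⟩ := hsep u
      set v : H := ((h j).1 : H →L[ℂ] H) ((u.1 : H →L[ℂ] H) η) with hv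
      have hv1 : ‖v‖ = ‖η‖ := by rw [hv, corner_iso (h j).2.1, corner_iso u.2.1]
      refine ⟨_, Finset.mem_union_left _ (Finset.mem_image_of_mem _ (Finset.mem_univ j)), _,
        Finset.mem_union_right _ (Finset.mem_image_of_mem _ (Finset.mem_univ j)), _,
        ⟨star u.1 * (star (h j).1 * b), star ((ψ₁ b - ψ₂ b : M) : H →L[ℂ] H) v, ?_, ?_, rfl⟩, ?_⟩
      · refine (norm_mul_le _ _).trans (mul_le_one₀ ?_ (norm_nonneg _)
          ((norm_mul_le _ _).trans (mul_le_one₀ ?_ (norm_nonneg _) hb)))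
        · exact unitary_norm_le (Unitary.star_mem u.2.1)
        · exact unitary_norm_le (Unitary.star_mem (h j).2.1)
      · refine (ContinuousLinearMap.le_opNorm _ _).trans ?_
        rw [norm_star, hv1, hR]
        refine mul_le_mul_of_nonneg_right ?_ (norm_nonneg _)
        rw [AddSubgroupClass.coe_sub]
        linarith [norm_sub_le (ψ₁ b : H →L[ℂ] H) (ψ₂ b), hnorm _ h₁ b hb, hnorm _ h₂ b hb]
      · have e : ∀ (ψ : Mp M) (ξ : H), cornerT η (star u.1 * (star (h j).1 * b)) ξ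
            (act {q} u (act {q} (h j) ψ)) = (⟪v, (ψ b : H →L[ℂ] H) ξ⟫_ℂ).re := fun ψ ξ => by
          rw [act, act, cornerT_tau, ← mul_assoc, Unitary.mul_star_self_of_mem u.2.1, one_mul,
            ← cornerT_apply, cornerT_tau, ← mul_assoc, Unitary.mul_star_self_of_mem (h j).2.1,
            one_mul]
        rw [e, e, ← Complex.sub_re, ← inner_sub_right, ← _root_.sub_apply,
          ← AddSubgroupClass.coe_sub, ← inner_star_left, inner_self_eq_norm_sq_to_K]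
        norm_cast)
  have hup := corner_upper hk hK0 hR0 hz (hcb _ h₁ (3 * J)) hzη (fun k => (g k).1)
    (fun k => (g k).2.1) t ht
  have hJ : (0 : ℝ) < J := by exact_mod_cast hk.pos
  have h1 : (J : ℝ) * (Λ * c₀ / 4) ≤ J * (60 * K * ‖η‖ * R) := by
    refine le_trans (le_of_eq (by ring)) (hle.trans hup)
  have h2 := le_of_mul_le_mul_left h1 hJ
  have h3 := (div_le_iff₀ hc₀).1 hΛ
  linarith

theorem corner {K : ℝ} (hK0 : 0 ≤ K) {KK : Set (Mp M)} {q : M}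
    (hq : IsStarProjection (q : H →L[ℂ] H)) (hsp : SP M q) {z : H →L[ℂ] H} (hz : CProj M z)
    (hzq : z * q = q) (hK : Inv (act {q}) KK) (hB : KK ⊆ Ball M K)
    (hcb : ∀ ψ ∈ KK, ∀ n, CBn n z K ψ) :
    ∃ ψ ∈ KK, ∀ a x : M, a * q = q * a → q * ψ (a * x) = q * (a * ψ x) := by
  obtain ⟨K', hK', hm⟩ := hK.exists_minl
  obtain ⟨ψ, hψ⟩ := hm.ne
  have h1 : ∀ ψ' ∈ K', ∀ b, q * ψ' b = q * ψ b := by
    intro ψ' hψ' b
    have h2 := corner_min hK0 hq hsp hz hzq hm (hK'.trans hB) (fun φ hφ => hcb φ (hK' hφ)) hψ' hψ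
      (b := (((‖b‖ + 1)⁻¹ : ℝ) : ℂ) • b) (by
        rw [norm_smul, Complex.norm_real, Real.norm_of_nonneg (by positivity), inv_mul_le_iff₀
          (by positivity)]
        linarith)
    rw [map_smul, map_smul, ← smul_sub, mul_smul_comm, smul_eq_zero, Complex.ofReal_eq_zero,
      mul_sub, sub_eq_zero] at h2
    exact h2.resolve_left (by positivity)
  have h2 : ∀ (u : UG {q}) (x : M), q * ψ (u.1 * x) = q * (u.1 * ψ x) := by
    intro u x
    have h3 : q * (star u.1 * ψ (u.1 * x)) = q * ψ x := h1 _ (hm.inv u ψ hψ) x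
    have h4 := u.2.2 q rfl
    rw [← mul_assoc q u.1, ← h4, mul_assoc, ← h3, ← mul_assoc, h4, mul_assoc, ← mul_assoc u.1,
      Unitary.mul_star_self_of_mem u.2.1, one_mul]
  refine ⟨ψ, hK' hψ, fun a x ha => ?_⟩
  obtain ⟨u, c, rfl, -⟩ := four ({q} : Set M) (by
    rintro _ rfl
    exact Subtype.ext hq.isSelfAdjoint.star_eq) (a := a) (by
    rintro _ rfl
    exact ha)
  simp only [Finset.sum_mul, smul_mul_assoc, map_sum, map_smul, Finset.mul_sum, mul_smul_comm, h2]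

theorem cbcase {K : ℝ} (hK0 : 0 ≤ K) {KK : Set (Mp M)} (hK : Inv (act (∅ : Set M)) KK)
    (hB : KK ⊆ Ball M K) {z z₀ : H →L[ℂ] H} (hz : CProj M z) (hz₀ : CProj M z₀) (h0 : z₀ ≠ 0)
    (hzz : z * z₀ = z₀) (hcb : ∀ ψ ∈ KK, ∀ n, CBn n z K ψ) :
    ∃ z', CProj M z' ∧ z' ≠ 0 ∧ z₀ * z' = z' ∧ ∃ ψ ∈ KK, ModOn z' ψ := by
  classical
  obtain ⟨p, hpM, hp, hp0, hzp, hsp⟩ := exists_sp hz₀ h0
  obtain ⟨z', hz', h1, h2⟩ := csupp M hpM
  let P : M := ⟨p, hpM⟩
  refine ⟨z', hz', fun h => hp0 (by rw [← h1, h, zero_mul]), ?_, ?_⟩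
  · have := h2 (1 - z₀) fun x hx => by
      rw [hz₀.one_sub.comm hx, mul_assoc, sub_mul, one_mul, hzp, sub_self, mul_zero]
    rw [sub_mul, one_mul, sub_eq_zero] at this
    exact this.symm
  obtain ⟨ψ, hψ, h3⟩ := fip hK.cpt
    (fun i : M × M × M => {ψ : Mp M | P * i.1 * ψ (i.2.1 * i.2.2) = P * i.1 * i.2.1 * ψ i.2.2})
    (fun i => isClosed_mod _ _ _ _) fun s => by
      obtain ⟨q, hqM, hq, hsq, h4, h5⟩ := cover hp hpM hsp
        (insert 1 (s.image (fun i => star i.1) ∪ s.image fun i => star (i.1 * i.2.1)))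
        (fun a : M => (a : H →L[ℂ] H) * p) (fun a => mul_mem a.2 hpM)
        fun a => by rw [mul_assoc, hp.isIdempotentElem.eq]
      let q' : M := ⟨q, hqM⟩
      have hqP : q' * P = P := Subtype.ext (by simpa using h4 1 (Finset.mem_insert_self _ _))
      have hc : ∀ a : M, q * (((star a : M) : H →L[ℂ] H) * p) = ((star a : M) : H →L[ℂ] H) * p →
          P * a * q' = q' * (P * a) := fun a h => by
        rw [← mul_assoc, hqP]
        have := congrArg star h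
        simp only [star_mul, hp.isSelfAdjoint.star_eq, hq.isSelfAdjoint.star_eq,
          StarMemClass.coe_star, star_star] at this
        exact Subtype.ext this
      obtain ⟨ψ, hψ, h6⟩ := corner hK0 (q := q') hq hsq hz
        (h5 z hz (by rw [← hzp, ← mul_assoc, hzz])) (hK.restrict _) hB hcb
      refine ⟨ψ, hψ, fun i hi => ?_⟩
      have k1 := h6 _ (i.2.1 * i.2.2) (hc i.1 (h4 _ (Finset.mem_insert_of_mem
        (Finset.mem_union_left _ (Finset.mem_image_of_mem _ hi)))))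
      have k2 := h6 _ i.2.2 (hc (i.1 * i.2.1) (h4 _ (Finset.mem_insert_of_mem
        (Finset.mem_union_right _ (Finset.mem_image_of_mem _ hi)))))
      simp only [← mul_assoc, hqP] at k1 k2
      exact k1.symm.trans k2
  refine ⟨ψ, hψ, fun a x => ?_⟩
  set D : M := ψ (a * x) - a * ψ x with hD
  have h4 := h2 (star (D : H →L[ℂ] H)) fun y hy => by
    have h5 : P * star (⟨y, hy⟩ : M) * D = 0 := by
      rw [hD, mul_sub, ← mul_assoc, sub_eq_zero]
      exact h3 (star ⟨y, hy⟩, a, x)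
    have h6 := congrArg (fun w : M => star (w : H →L[ℂ] H)) h5
    simpa [P, star_mul, hp.isSelfAdjoint.star_eq, mul_assoc] using h6
  have h5 := congrArg star h4
  rw [star_mul, star_star, hz'.proj.isSelfAdjoint.star_eq, star_zero, hD,
    AddSubgroupClass.coe_sub, mul_sub, sub_eq_zero] at h5
  exact h5

end Vale.Agent.KR
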