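import Vale.Agent.P104.MainB
import Vale.Agent.P104.GNS

/-!
# P082 (Kadison-Ringrose): definitions used by the helper files

None of these definitions appears in the final statement. See `notes/P082_h5.md`.
-/

namespace Vale.Agent.KR

open Vale.Agent.P104
open scoped InnerProductSpace

section Abstract

variable {E : Type*} [AddCommGroup E] [Module ℝ E] [TopologicalSpace E] {G : Type*}

/-- A family of maps which contains the identity and is closed under composition. -/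
structure Act (τ : G → E →L[ℝ] E) : Prop where
  one : ∃ g, ∀ x, τ g x = x
  comp : ∀ g h, ∃ k, ∀ x, τ g (τ h x) = τ k x

/-- Nonempty compact convex invariant set. -/
structure Inv (τ : G → E →L[ℝ] E) (K : Set E) : Prop where
  ne : K.Nonempty
  cpt : IsCompact K
  cvx : Convex ℝ K
  inv : ∀ g, ∀ x ∈ K, τ g x ∈ K

/-- Minimal nonempty compact convex invariant set. -/
structure Minl (τ : G → E →L[ℝ] E) (K : Set E) : Prop extends Inv τ K where
  min : ∀ K' ⊆ K, Inv τ K' → K ⊆ K'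

/-- The diagonal action on a product. -/
noncomputable def diag (T : Type*) (τ : G → E →L[ℝ] E) (g : G) : (T → E) →L[ℝ] (T → E) :=
  ContinuousLinearMap.pi fun t => τ g ∘L ContinuousLinearMap.proj t

end Abstract

section Kernel

/-- An odd kernel with a bounded symbol and total positive mass `Λ`. -/
structure Ker (J : ℕ) (c : ℕ → ℝ) (Λ : ℝ) : Prop where
  pos : 0 < J
  nonneg : ∀ j, 0 ≤ c j
  zero : ∀ j, J ≤ j → c j = 0
  sum : ∑ j ∈ Finset.range J, c j = Λ
  bound : ∀ z : ℂ, ‖z‖ = 1 →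
    ‖∑ j ∈ Finset.range J, (c j : ℂ) * (z ^ (j + 1) - (starRingEnd ℂ) z ^ (j + 1))‖ ≤ 20

/-- The Toeplitz matrix of the kernel. -/
noncomputable def kw (c : ℕ → ℝ) (i k : ℕ) : ℝ :=
  if i < k then c (k - i - 1) else if k < i then -c (i - k - 1) else 0

end Kernel

section Maps

variable {H : Type*} [NormedAddCommGroup H] [InnerProductSpace ℂ H] [CompleteSpace H]

instance vnClosed (M : VonNeumannAlgebra H) : IsClosed (M : Set (H →L[ℂ] H)) := vn_isClosed M

/-- Linear maps of `M` to itself, with the pointwise weak operator topology. -/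
def Mp (M : VonNeumannAlgebra H) := M →ₗ[ℂ] M

variable {M : VonNeumannAlgebra H}

noncomputable instance : AddCommGroup (Mp M) := inferInstanceAs (AddCommGroup (M →ₗ[ℂ] M))
noncomputable instance : Module ℂ (Mp M) := inferInstanceAs (Module ℂ (M →ₗ[ℂ] M))
noncomputable instance : Module ℝ (Mp M) := Module.complexToReal (Mp M)
noncomputable instance : FunLike (Mp M) M M := inferInstanceAs (FunLike (M →ₗ[ℂ] M) M M)
instance : LinearMapClass (Mp M) ℂ M M := inferInstanceAs (LinearMapClass (M →ₗ[ℂ] M) ℂ M M)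

/-- The matrix coefficients of a map. -/
noncomputable def coef (ψ : Mp M) (p : M × H × H) : ℂ := ⟪p.2.2, (ψ p.1 : H →L[ℂ] H) p.2.1⟫_ℂ

noncomputable instance : TopologicalSpace (Mp M) := TopologicalSpace.induced coef inferInstance

theorem Mp.add_apply (ψ φ : Mp M) (x : M) : (ψ + φ) x = ψ x + φ x := rfl
theorem Mp.sub_apply (ψ φ : Mp M) (x : M) : (ψ - φ) x = ψ x - φ x := rfl
theorem Mp.zero_apply (x : M) : (0 : Mp M) x = 0 := rfl
theorem Mp.smul_apply (c : ℂ) (ψ : Mp M) (x : M) : (c • ψ) x = c • ψ x := rfl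
theorem Mp.rsmul_apply (r : ℝ) (ψ : Mp M) (x : M) : (r • ψ) x = (r : ℂ) • ψ x := rfl

theorem Mp.continuous_inner (x : M) (ξ η : H) :
    Continuous fun ψ : Mp M => ⟪η, (ψ x : H →L[ℂ] H) ξ⟫_ℂ :=
  (continuous_apply (x, ξ, η)).comp (continuous_induced_dom (f := coef (M := M)))

theorem Mp.continuous_iff {X : Type*} [TopologicalSpace X] {f : X → Mp M} :
    Continuous f ↔ ∀ (x : M) (ξ η : H), Continuous fun t => ⟪η, (f t x : H →L[ℂ] H) ξ⟫_ℂ := by
  rw [continuous_induced_rng, continuous_pi_iff]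
  exact ⟨fun h x ξ η => h (x, ξ, η), fun h p => h p.1 p.2.1 p.2.2⟩

instance : IsTopologicalAddGroup (Mp M) where
  continuous_add := Mp.continuous_iff.2 fun x ξ η => by
    simp only [Mp.add_apply, AddMemClass.coe_add, _root_.add_apply, inner_add_right]
    exact ((Mp.continuous_inner x ξ η).comp continuous_fst).add
      ((Mp.continuous_inner x ξ η).comp continuous_snd)
  continuous_neg := Mp.continuous_iff.2 fun x ξ η => by
    have : ∀ ψ : Mp M, ⟪η, ((-ψ) x : H →L[ℂ] H) ξ⟫_ℂ = -⟪η, (ψ x : H →L[ℂ] H) ξ⟫_ℂ := fun ψ => by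
      rw [← inner_neg_right]; rfl
    simp only [this]
    exact (Mp.continuous_inner x ξ η).neg

instance : ContinuousSMul ℝ (Mp M) where
  continuous_smul := Mp.continuous_iff.2 fun x ξ η => by
    have : ∀ p : ℝ × Mp M, ⟪η, ((p.1 • p.2) x : H →L[ℂ] H) ξ⟫_ℂ =
        (p.1 : ℂ) * ⟪η, (p.2 x : H →L[ℂ] H) ξ⟫_ℂ := fun p => by
      rw [← inner_smul_right]; rfl
    simp only [this]
    exact (Complex.continuous_ofReal.comp continuous_fst).mul
      ((Mp.continuous_inner x ξ η).comp continuous_snd)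

theorem Mp.ext {ψ φ : Mp M} (h : ∀ x, ψ x = φ x) : ψ = φ := LinearMap.ext h

instance : T2Space (Mp M) := by
  refine T2Space.of_injective_continuous (f := coef (M := M)) (fun ψ φ h => ?_)
    continuous_induced_dom
  refine Mp.ext fun x => Subtype.ext (ContinuousLinearMap.ext fun ξ => ?_)
  exact ext_inner_left ℂ fun η => congrFun h (x, ξ, η)

/-- The map `x ↦ a* ψ (a x)`. -/
noncomputable def tau (a : M) : Mp M →L[ℝ] Mp M where
  toFun ψ := (LinearMap.mulLeft ℂ (star a) ∘ₗ (ψ : M →ₗ[ℂ] M) ∘ₗ LinearMap.mulLeft ℂ a :)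
  map_add' ψ φ := Mp.ext fun x => mul_add _ _ _
  map_smul' r ψ := Mp.ext fun x => mul_smul_comm (r : ℂ) _ _
  cont := Mp.continuous_iff.2 fun x ξ η => by
    have : ∀ ψ : Mp M, ⟪η, ((star a * ψ (a * x) : M) : H →L[ℂ] H) ξ⟫_ℂ =
        ⟪(a : H →L[ℂ] H) η, (ψ (a * x) : H →L[ℂ] H) ξ⟫_ℂ := fun ψ =>
      inner_star_right (a : H →L[ℂ] H) η _
    exact (Mp.continuous_inner (a * x) ξ ((a : H →L[ℂ] H) η)).congr fun ψ => (this ψ).symm

theorem tau_apply (a : M) (ψ : Mp M) (x : M) : tau a ψ x = star a * ψ (a * x) := rfl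

/-- Unitaries of `M` which commute with `S`. -/
def UG (S : Set M) := {u : M // u ∈ unitary M ∧ ∀ s ∈ S, u * s = s * u}

/-- The action of the unitaries which commute with `S`. -/
noncomputable def act (S : Set M) (u : UG S) : Mp M →L[ℝ] Mp M := tau u.1

/-- Maps of norm at most `K`. -/
def Ball (M : VonNeumannAlgebra H) (K : ℝ) : Set (Mp M) := {ψ | ∀ x, ‖ψ x‖ ≤ K * ‖x‖}

/-- The operator matrix `x` has norm at most `C`. -/
def MatLe {I : Type*} [Fintype I] (x : I → I → M) (C : ℝ) : Prop :=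
  ∀ β : I → H, ∑ k, ‖∑ i, (x k i : H →L[ℂ] H) (β i)‖ ^ 2 ≤ C ^ 2 * ∑ i, ‖β i‖ ^ 2

/-- `z ψ` is bounded by `K` on `n × n` matrices. -/
def CBn (n : ℕ) (z : H →L[ℂ] H) (K : ℝ) (ψ : Mp M) : Prop :=
  ∀ (x : Fin n → Fin n → M) (C : ℝ), 0 ≤ C → MatLe x C → ∀ η ξ : Fin n → H, (∀ k, z (η k) = η k) →
    ‖∑ k, ∑ i, ⟪η k, (ψ (x k i) : H →L[ℂ] H) (ξ i)⟫_ℂ‖ ≤
      K * C * Real.sqrt (∑ k, ‖η k‖ ^ 2) * Real.sqrt (∑ i, ‖ξ i‖ ^ 2)

/-- `z ψ` is a left module map. -/
def ModOn (z : H →L[ℂ] H) (ψ : Mp M) : Prop :=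
  ∀ a x : M, z * (ψ (a * x) : H →L[ℂ] H) = z * ((a : H →L[ℂ] H) * ψ x)

/-- Every nonzero subprojection of `q` covers a central piece of `q` finitely many times. -/
def SP (M : VonNeumannAlgebra H) (q : H →L[ℂ] H) : Prop :=
  ∀ f ∈ M, IsStarProjection f → f ≠ 0 → q * f = f → ∃ z, CProj M z ∧ f * z ≠ 0 ∧
    ∃ (n : ℕ) (w : Fin n → H →L[ℂ] H), (∀ j, w j ∈ M) ∧ (∀ j, ‖w j‖ ≤ 1) ∧ (∀ j, f * w j = w j) ∧
      (∀ j, w j * q = w j) ∧ ∀ ζ, q ζ = ζ → z ζ = ζ → ‖ζ‖ ^ 2 ≤ ∑ j, ‖w j ζ‖ ^ 2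

/-- Projections in the ideal generated by `p`. -/
def QQ (M : VonNeumannAlgebra H) (p q : H →L[ℂ] H) : Prop :=
  IsStarProjection q ∧ ∃ (n : ℕ) (c : Fin n → H →L[ℂ] H), (∀ i, c i ∈ M) ∧ (∀ i, c i * p = c i) ∧
    ∑ i, c i * star (c i) = q

/-- The set of the matrix units. -/
def rng {I : Type*} (ε : I → I → M) : Set M := {x | ∃ a b, x = ε a b}

/-- Iterated averaging with unitary conjugates. -/
noncomputable def avg : List M → M → M
  | [], b => b
  | u :: l, b => (2⁻¹ : ℂ) • (avg l b + u * avg l b * star u)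

variable {F : Type*} [NormedAddCommGroup F] [InnerProductSpace ℂ F]

/-- A faithful normal quasi-trace given by finitely many vectors. -/
structure TrD (M : VonNeumannAlgebra H) (Q : QT M F) : Prop where
  vec : ∃ (k : ℕ) (Ξ : Fin k → H), ∀ y : M, ‖Q.ev y‖ ^ 2 = ∑ i, ‖(y : H →L[ℂ] H) (Ξ i)‖ ^ 2
  mul_le : ∀ a b : M, ‖Q.ev (a * b)‖ ≤ ‖a‖ * ‖Q.ev b‖
  cont : ∀ (x : M) (w : F), Continuous fun ψ : Mp M => ⟪w, Q.ev (ψ x)⟫_ℂ
  dom : ∀ (η : H) (ε : ℝ), 0 < ε → ∃ C : ℝ, 0 ≤ C ∧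
    ∀ y : M, ‖(y : H →L[ℂ] H) η‖ ≤ C * ‖Q.ev y‖ + ε * ‖y‖

/-- `M` has unital matrix units of arbitrarily large size. -/
def Diffuse (M : VonNeumannAlgebra H) : Prop :=
  ∀ m₀, ∃ m, m₀ ≤ m ∧ ∃ ε : Fin m → Fin m → M, MUnits ε ∧ ∑ a, ε a a = 1

end Maps

section Signs

/-- The signs in a ring. -/
def sg (R : Type*) [Ring R] (b : Bool) : R := if b then 1 else -1

/-- The random unitary `X Z₁ r Z₂` with independent signs on the cells. -/
noncomputable def wd {R C : Type*} [Ring R] [Fintype C] (q : C → R) (X r : R)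
    (g : (C → Bool) × (C → Bool)) : R :=
  X * Zc q (sg R) g.1 * r * Zc q (sg R) g.2

end Signs

section Lists

variable {R : Type*} [NormedRing R] [NormedAlgebra ℂ R] {Ω : Type*} [Fintype Ω]

/-- Uniform average with complex scalars. -/
noncomputable def avc {V : Type*} [AddCommGroup V] [Module ℂ V] (f : Ω → V) : V :=
  (Fintype.card Ω : ℂ)⁻¹ • ∑ ω, f ω

/-- `F` is multilinear and bounded by `C` on the lists of length `n`. -/
def ML : ℕ → (List R → R) → ℝ → Prop
  | 0, F, C => ‖F []‖ ≤ C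
  | n + 1, F, C => (∀ l : List R, l.length = n → IsLinearMap ℂ fun x => F (x :: l)) ∧
      ∀ x, ML n (fun l => F (x :: l)) (C * ‖x‖)

/-- The Hochschild differential without its first term, at the list `x :: l`, up to sign. -/
def DD {S : Type*} [Ring S] : (List S → S) → S → List S → S
  | F, x, [] => F [] * x
  | F, x, y :: l => F (x * y :: l) - DD (fun l => F (x :: l)) y l

/-- Averaging in all the slots. -/
noncomputable def UU (p q : Ω → R) (θ : R → R) : (List R → R) → R → List R → R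
  | F, x, [] => avc fun ω => F [x * p ω] * q ω
  | F, x, y :: l => avc fun ω => UU p q θ (fun l => F (x * p ω :: l)) (q ω * θ y) l

/-- The homotopy between `UU p q id` and the identity. -/
noncomputable def HH (p q : Ω → R) : (List R → R) → R → List R → R
  | F, x, [] => avc fun ω => F [x * p ω, q ω]
  | F, x, y :: l => avc fun ω =>
      F (x * p ω :: q ω :: y :: l) - HH p q (fun l => F (x * p ω :: l)) (q ω * y) l

/-- A function of a head and a tail as a function of the list, zero on the empty list. -/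
def unc {S : Type*} [Zero S] (G : S → List S → S) : List S → S
  | [] => 0
  | x :: l => G x l

/-- `Φ` is a primitive of the cocycle `F` of degree `n + 1`. -/
def Rel {S : Type*} [Ring S] (n : ℕ) (F Φ : List S → S) : Prop :=
  ∀ (a : S) (l : List S), l.length = n + 1 → a * F l = DD Φ a l

/-- The product of the norms. -/
noncomputable def nrm (l : List R) : ℝ := (l.map fun x => ‖x‖).prod

/-- The Hochschild differential. -/
noncomputable def hd {k : ℕ} (f : ContinuousMultilinearMap ℂ (fun _ : Fin k => R) R)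
    (a : Fin (k + 1) → R) : R :=
  a 0 * f (fun i => a i.succ) +
    ∑ j : Fin k, (-1 : ℂ) ^ ((j : ℕ) + 1) • f (Fin.contractNth j.castSucc (· * ·) a) +
    (-1 : ℂ) ^ (k + 1) • (f (fun i => a i.castSucc) * a (Fin.last k))

end Lists

end Vale.Agent.KR
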