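import Vale.Agent.KR.Defs

/-!
# Multilinearity and bounds on lists
All proofs are inductions on `n`, generalizing the function and the constant. For `ML.uu` and `ML.hh` first show that `UU p q θ F x l` and `HH p q F x l` are additive and homogeneous in `F`
and only depend on the values of `F` on lists of the right length; it is convenient to prove the statement for the two parts of `ML (n+1)` separately:
(a) `x ↦ UU F x l` is linear, (b) `ML n (UU F x) (C ‖x‖)`, using `ML.avc`, `ML.comp_head`.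
-/

namespace Vale.Agent.KR

open Vale.Agent.P104 Finset
open scoped InnerProductSpace

variable {R : Type*} [NormedRing R] [NormedAlgebra ℂ R] {Ω : Type*} [Fintype Ω]

theorem nrm_nonneg (l : List R) : 0 ≤ nrm l := by
  sorry

theorem ML.congr {n : ℕ} {F G : List R → R} {C : ℝ} (h : ML n F C)
    (e : ∀ l : List R, l.length = n → G l = F l) : ML n G C := by
  sorry

theorem ML.mono {n : ℕ} {F : List R → R} {C C' : ℝ} (h : ML n F C) (hC : C ≤ C') : ML n F C' := by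
  sorry

theorem ML.bound {n : ℕ} {F : List R → R} {C : ℝ} (h : ML n F C) {l : List R}
    (hl : l.length = n) : ‖F l‖ ≤ C * nrm l := by
  sorry

theorem ML.add {n : ℕ} {F G : List R → R} {C C' : ℝ} (h : ML n F C) (h' : ML n G C') :
    ML n (fun l => F l + G l) (C + C') := by
  sorry

theorem ML.smul {n : ℕ} {F : List R → R} {C : ℝ} (h : ML n F C) (c : ℂ) :
    ML n (fun l => c • F l) (‖c‖ * C) := by
  sorry

theorem ML.mul_left {n : ℕ} {F : List R → R} {C : ℝ} (h : ML n F C) (c : R) :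
    ML n (fun l => c * F l) (‖c‖ * C) := by
  sorry

theorem ML.avc [Nonempty Ω] {n : ℕ} {F : Ω → List R → R} {C : ℝ} (h : ∀ ω, ML n (F ω) C) :
    ML n (fun l => avc fun ω => F ω l) C := by
  sorry

theorem ML.comp_head {n : ℕ} {F : List R → R} {C : ℝ} (hC : 0 ≤ C) (h : ML (n + 1) F C)
    (θ : R →ₗ[ℂ] R) (hθ : ∀ y, ‖θ y‖ ≤ ‖y‖) : ML (n + 1) (unc fun x l => F (θ x :: l)) C := by
  sorry

theorem ML.head {n : ℕ} {F : List R → R} {C : ℝ} (h : ML n F C) :
    ML (n + 1) (unc fun a l => a * F l) C := by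
  sorry

theorem ML.uu [Nonempty Ω] {p q : Ω → R} (hp : ∀ ω, ‖p ω‖ ≤ 1) (hq : ∀ ω, ‖q ω‖ ≤ 1)
    (θ : R →ₗ[ℂ] R) (hθ : ∀ y, ‖θ y‖ ≤ ‖y‖) {n : ℕ} {F : List R → R} {C : ℝ} (hC : 0 ≤ C)
    (h : ML (n + 1) F C) : ML (n + 1) (unc (UU p q θ F)) C := by
  sorry

theorem ML.hh [Nonempty Ω] {p q : Ω → R} (hp : ∀ ω, ‖p ω‖ ≤ 1) (hq : ∀ ω, ‖q ω‖ ≤ 1)
    {n : ℕ} {F : List R → R} {C : ℝ} (hC : 0 ≤ C) (h : ML (n + 2) F C) :
    ML (n + 1) (unc (HH p q F)) ((n + 1) * C) := by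
  sorry

theorem ML.left [Nonempty Ω] {p q : Ω → R} (hp : ∀ ω, ‖p ω‖ ≤ 1) (hq : ∀ ω, ‖q ω‖ ≤ 1)
    {n : ℕ} {F : List R → R} {C : ℝ} (hC : 0 ≤ C) (h : ML (n + 1) F C) :
    ML (n + 1) (unc fun x l => Vale.Agent.KR.avc fun ω => p ω * F (q ω * x :: l)) C := by
  sorry

end Vale.Agent.KR
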