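import Vale.Agent.KR.Homot
import Vale.Agent.KR.MLB
import Vale.Agent.KR.MpBasic
import Vale.Agent.KR.Small

/-!
# A primitive which is bounded on matrices (notes, section 0)
`s` from `exists_isos` (for `N + 1`, then `CBn.mono`), `a (j, b) = s j + sgn b • (1 - z)`, `a* a = 1`, `ε i j = s i (s j)*` matrix units, `w = gam ε`, `ρ y = ∑ s b y (s b)*`.
* `uu_sign`: `UU a* a id F x l` and `UU s* s id F x l` agree after cutting: for `x z = x`, `UU a* a id F x l * z = UU s* s id F x l` (induction on `l`, linearity from `ML.uu`).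
* `uu_mod`: `UU w* w ρ F (x (s j)*) l * s j' = if j = j' then UU s* s id F x l else 0` (induction on `l`; `w s j' = sgn • s (π j')`, `w ρ y = ∑ b, sgn • s (π b) y (s b)*`,
  `sgn_orth`, `Gamma_perm_sum`).
* `cb_avg`: with `X = ∑ i j, s i x i j (s j)*` (`‖X‖ ≤ C` by `MatLe`), `∑ <η i, Φ₁ (x i j) ξ j> = avg over w of <w ∑ s i η i, UU w* w ρ F (w X) l (∑ s j ξ j)>`. Since `z` is central and `z η = η`
  one may replace `ξ j` by `z ξ j`.
* `prep`: `Φ (x :: l) = avc a* Φ₀ (a x :: l)`, `Φ₀` from `rel_prim`; `Φ (x :: l) = Φ₁ + x g l`, and `x ↦ x g` is `CBn` with constant `‖g‖`. `C' = (n + 2) C`.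
-/

namespace Vale.Agent.KR

open Vale.Agent.P104 Finset
open scoped InnerProductSpace

variable {H : Type*} [NormedAddCommGroup H] [InnerProductSpace ℂ H] [CompleteSpace H]
  {M : VonNeumannAlgebra H}

theorem cb_avg {z : M} (hz : CProj M (z : H →L[ℂ] H)) {N : ℕ} (s : Fin (N + 1) → M)
    (hs : ∀ i j, star (s i) * s j = if i = j then z else 0) (hzs : ∀ i, z * s i = s i)
    {n : ℕ} {F : List M → M} {C : ℝ} (hC : 0 ≤ C) (hF : ML (n + 1) F C) {l : List M}
    (hl : l.length = n) (a : Fin (N + 1) × Bool → M)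
    (ha : ∀ ω, a ω = s ω.1 + sgn ω.2 • (1 - z)) (ψ : Mp M)
    (hψ : ∀ x, ψ x = avc fun ω => star (a ω) * UU (fun ω => star (a ω)) a id F (a ω * x) l) :
    CBn (N + 1) z (C * nrm l) ψ := by
  sorry

theorem prep {z : H →L[ℂ] H} (hz : CProj M z) (hPI : PropInf M z) {n : ℕ} {F : List M → M} {C : ℝ}
    (hC : 0 ≤ C) (hF : ML (n + 1) F C) (hR : Rel n F F) (N : ℕ) :
    ∃ Φ : List M → M, ML (n + 1) Φ ((n + 2) * C) ∧ Rel n F Φ ∧ ∀ l : List M, l.length = n →
      ∀ ψ : Mp M, (∀ x, ψ x = Φ (x :: l)) → CBn N z ((n + 2) * C * nrm l) ψ := by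
  sorry

end Vale.Agent.KR
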