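import Vale.Agent.KR.Homot
import Vale.Agent.KR.MLB

/-!
# From lists to continuous multilinear maps
* `translate`: `F l = f fun i => l.getD i 0`; `ML` by induction with `curryLeft`; `hd f (Fin.cons x v) = x * F (ofFn v) - DD F x (ofFn v)` by induction (`Fin.sum_univ_succ`,
  `contractNth` at `0` and at `succ`); `ML n G C` gives a continuous multilinear map `v ↦ G (List.ofFn v)` (`MultilinearMap.mkContinuous`).
-/

namespace Vale.Agent.KR

open Vale.Agent.P104 Finset

theorem translate {R : Type*} [NormedRing R] [NormedAlgebra ℂ R]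
    (h : ∀ (n : ℕ) (F : List R → R) (C : ℝ), 0 ≤ C → ML (n + 1) F C → Rel n F F →
      ∃ (G : List R → R) (C' : ℝ), ML n G C' ∧
        ∀ (x : R) (l : List R), l.length = n → F (x :: l) = x * G l - DD G x l)
    (k : ℕ) (f : ContinuousMultilinearMap ℂ (fun _ : Fin (k + 1) => R) R)
    (hf : ∀ a, hd f a = 0) :
    ∃ g : ContinuousMultilinearMap ℂ (fun _ : Fin k => R) R, ∀ a, f a = hd g a := by
  sorry

end Vale.Agent.KR
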