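import Vale.Agent.KR.Rho
import Vale.Agent.KR.Prep
import Vale.Agent.KR.Translate

/-!
# The theorem
* `lists_main`: `T = {l // l.length = n}`, for `Ψ : T → Mp M` let `Φ Ψ = unc fun x l => if h : l.length = n then Ψ ⟨l, h⟩ x else 0`. `KK N` = set of `Ψ` with `Ψ l ∈ Ball (C' nrm l)`,
  `CBn N z (C' nrm l) (Ψ l)`, `ML (n+1) (Φ Ψ) C'`, `Rel n F (Φ Ψ)`. It is closed in the compact `Set.pi` of balls (`isCompact_univ_pi`): `{t | ML n (G t) C}` is closed and
  `t ↦ DD (G t) x l` is weakly continuous when all `t ↦ <η, G t l ξ>` are continuous (induction). `fip` with `prep` and `CBn.mono`; the intersection is `Inv (diag T (act ∅))`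
  (`rel_one`, `ML.comp_head`, `ML.mul_left`, `CBn.tau`). `family`, `rho`, `fixed_iff`. `G l = Φ (1 :: l)`, `Rel` at `a = 1`.
-/

namespace Vale.Agent.KR

open Vale.Agent.P104 Finset
open scoped InnerProductSpace

variable {H : Type*} [NormedAddCommGroup H] [InnerProductSpace ℂ H] [CompleteSpace H]
  {M : VonNeumannAlgebra H}

theorem lists_main (M : VonNeumannAlgebra H) {n : ℕ} {F : List M → M} {C : ℝ} (hC : 0 ≤ C)
    (hF : ML (n + 1) F C) (hR : Rel n F F) :
    ∃ (G : List M → M) (C' : ℝ), ML n G C' ∧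
      ∀ (x : M) (l : List M), l.length = n → F (x :: l) = x * G l - DD G x l := by
  sorry

theorem main' (M : VonNeumannAlgebra H) (k : ℕ)
    (f : ContinuousMultilinearMap ℂ (fun _ : Fin (k + 1) => M) M) (hf : ∀ a, hd f a = 0) :
    ∃ g : ContinuousMultilinearMap ℂ (fun _ : Fin k => M) M, ∀ a, f a = hd g a :=
  translate (fun _ _ _ hC hF hR => lists_main M hC hF hR) k f hf

theorem main (M : VonNeumannAlgebra H) (k : ℕ)
    (f : ContinuousMultilinearMap ℂ (fun _ : Fin (k + 1) => M.toStarSubalgebra) M.toStarSubalgebra)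
    (hf : ∀ a, hd f a = 0) :
    ∃ g : ContinuousMultilinearMap ℂ (fun _ : Fin k => M.toStarSubalgebra) M.toStarSubalgebra,
      ∀ a, f a = hd g a :=
  main' M k f hf

end Vale.Agent.KR
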