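import Vale.Agent.KR.Min

/-!
# The half graph lemma (notes, section 1)
`hg_seq`: induction on `n` with the invariant: there are `t, g` and a slice `S = {x ∈ K | m - ρ ≤ f x}` (`m` = max of `f` on `K`,
`ρ > 0`) such that for `i < n`: `t i ∈ T i`, `t i (β i) + c₀/4 ≤ t i x` for all `x ∈ S` and for `x = τ (g k) x₀`, `i < k < n`, where
`β i = Λ⁻¹ • ∑ j ∈ range J, c j • τ (g (i-1-j)) x₀ ∈ K` (for `i = 0` this uses `g 0`; choose `g n` before `t n`, and update the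
sequences with `Function.update`; `β i` only depends on `g k`, `k ≤ i`).
Step: `g n` from `Minl.sup`. Choose `lam > 0` with `2 B lam ≤ ρ/2`. `Minl.sup` for the barycenter of `P` gives `h` with
`m - lam c₀/8 ≤ f (τ h x)` for all `x ∈ P` (the other points are `≤ m`). `hS` and symmetry give `t ∈ T n`, `ζ ∈ τ h P` with
`t (β n) + c₀/2 ≤ t ζ`. New slice: `f + lam • t`, depth `min (ρ/2) (lam c₀/8)`.
`hg`: for `J ≤ i < 2J` the row sum is `∑ j ∈ range J, c j (t i (ζ (i+1+j)) - t i (ζ (i-1-j))) ≥ Λ c₀/4`.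
-/

namespace Vale.Agent.KR

open Vale.Agent.P104 Finset
open scoped InnerProductSpace

variable {E : Type*} [AddCommGroup E] [Module ℝ E] [TopologicalSpace E] [IsTopologicalAddGroup E]
  [ContinuousSMul ℝ E] [T2Space E] {G : Type*} {τ : G → E →L[ℝ] E} {K : Set E}

theorem hg_high (hτ : Act τ) (hK : Minl τ K) (f : E →L[ℝ] ℝ) {y : E} (hy : y ∈ K)
    (hmax : ∀ x ∈ K, f x ≤ f y) (P : Finset E) (hP : ∀ x ∈ P, x ∈ K) {ε : ℝ} (hε : 0 < ε) :
    ∃ h, ∀ x ∈ P, f y - ε ≤ f (τ h x) := by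
  rcases P.eq_empty_or_nonempty with rfl | hne
  · obtain ⟨g, -⟩ := hτ.one
    exact ⟨g, by simp⟩
  have hc : (0 : ℝ) < P.card := by exact_mod_cast hne.card_pos
  have hb : ∑ x ∈ P, (P.card : ℝ)⁻¹ • x ∈ K :=
    hK.cvx.sum_mem (fun _ _ => by positivity) (by simp [hc.ne']) hP
  obtain ⟨h, hh⟩ := hK.sup hτ f hb hy (ε := ε / P.card) (by positivity)
  refine ⟨h, fun x hx => ?_⟩
  simp only [map_sum, map_smul, smul_eq_mul, ← mul_sum] at hh
  have h1 := single_le_sum (f := fun x => f y - f (τ h x))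
    (fun x hx => sub_nonneg.2 (hmax _ (hK.inv h x (hP x hx)))) hx
  simp only [sum_sub_distrib, sum_const, nsmul_eq_mul] at h1
  have h2 := mul_le_mul_of_nonneg_left hh hc.le
  rw [mul_sub, mul_div_cancel₀ _ hc.ne', ← mul_assoc, mul_inv_cancel₀ hc.ne', one_mul] at h2
  linarith

theorem hg_step (hτ : Act τ) (hK : Minl τ K) (P : Finset E) (hP : ∀ x ∈ P, x ∈ K)
    (T : Set (E →L[ℝ] ℝ)) (hT : ∀ t ∈ T, -t ∈ T) {B c₀ : ℝ}
    (hB : ∀ t ∈ T, ∀ x ∈ K, |t x| ≤ B) (hc₀ : 0 < c₀)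
    (hS : ∀ g, ∃ x ∈ P, ∃ y ∈ P, ∃ t ∈ T, c₀ ≤ t (τ g x) - t (τ g y)) (β : E)
    (f : E →L[ℝ] ℝ) {y : E} (hy : y ∈ K) (hmax : ∀ x ∈ K, f x ≤ f y) {ρ : ℝ} (hρ : 0 < ρ) :
    ∃ t ∈ T, ∃ (f' : E →L[ℝ] ℝ) (y' : E) (ρ' : ℝ), y' ∈ K ∧ (∀ x ∈ K, f' x ≤ f' y') ∧ 0 < ρ' ∧
      ∀ x ∈ K, f' y' - ρ' ≤ f' x → f y - ρ ≤ f x ∧ t β + c₀ / 4 ≤ t x := by
  set lam : ℝ := ρ / (4 * (|B| + 1)) with hlam
  have hl : 0 < lam := by positivity
  have hlB : lam * (|B| + 1) = ρ / 4 := by rw [hlam]; field_simp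
  obtain ⟨h, hh⟩ := hg_high hτ hK f hy hmax P hP (ε := lam * c₀ / 8) (by positivity)
  obtain ⟨t, ht, ζ, hζ, h1, h2⟩ : ∃ t ∈ T, ∃ ζ ∈ K, f y - lam * c₀ / 8 ≤ f ζ ∧
      t β + c₀ / 2 ≤ t ζ := by
    obtain ⟨x₁, hx₁, x₂, hx₂, t, ht, h3⟩ := hS h
    by_cases h4 : t β + c₀ / 2 ≤ t (τ h x₁)
    · exact ⟨t, ht, _, hK.inv h _ (hP _ hx₁), hh _ hx₁, h4⟩
    · refine ⟨-t, hT t ht, _, hK.inv h _ (hP _ hx₂), hh _ hx₂, ?_⟩
      simp only [_root_.neg_apply]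
      linarith
  obtain ⟨y', hy', hm⟩ := hK.cpt.exists_isMaxOn hK.ne (f + lam • t).continuous.continuousOn
  refine ⟨t, ht, f + lam • t, y', min (ρ / 2) (lam * c₀ / 8), hy', fun x hx => hm hx,
    lt_min (by positivity) (by positivity), fun x hx h3 => ?_⟩
  have h4 : (f + lam • t) y ≤ (f + lam • t) y' := hm hy
  have h5 : (f + lam • t) ζ ≤ (f + lam • t) y' := hm hζ
  simp only [_root_.add_apply, _root_.smul_apply, smul_eq_mul] at h3 h4 h5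
  have h6 := abs_le.1 ((hB t ht x hx).trans (le_abs_self B))
  have h7 := abs_le.1 ((hB t ht y hy).trans (le_abs_self B))
  have h8 := min_le_left (ρ / 2) (lam * c₀ / 8)
  have h9 := min_le_right (ρ / 2) (lam * c₀ / 8)
  have h10 := hmax x hx
  constructor
  · nlinarith [mul_le_mul_of_nonneg_left h6.2 hl.le, mul_le_mul_of_nonneg_left h7.1 hl.le]
  · refine le_of_mul_le_mul_left ?_ hl
    nlinarith [mul_le_mul_of_nonneg_left h2 hl.le]

theorem hg_seq (hτ : Act τ) (hK : Minl τ K) {J : ℕ} {c : ℕ → ℝ} {Λ : ℝ} (hk : Ker J c Λ)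
    (hΛ : 0 < Λ) {x₀ : E} (hx₀ : x₀ ∈ K) (P : Finset E) (hP : ∀ x ∈ P, x ∈ K)
    (T : ℕ → Set (E →L[ℝ] ℝ)) (hT : ∀ i, ∀ t ∈ T i, -t ∈ T i) {B c₀ : ℝ}
    (hB : ∀ i, ∀ t ∈ T i, ∀ x ∈ K, |t x| ≤ B) (hc₀ : 0 < c₀) (n : ℕ)
    (hS : ∀ i < n, ∀ g, ∃ x ∈ P, ∃ y ∈ P, ∃ t ∈ T i, c₀ ≤ t (τ g x) - t (τ g y)) :
    ∃ (t : ℕ → E →L[ℝ] ℝ) (g : ℕ → G), (∀ i < n, t i ∈ T i) ∧ ∀ i k, i < k → k < n →
      ∑ j ∈ range J, c j * t i (τ (g (i - 1 - j)) x₀) + Λ * c₀ / 4 ≤ Λ * t i (τ (g k) x₀) := by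
  suffices h : ∃ (t : ℕ → E →L[ℝ] ℝ) (g : ℕ → G) (f : E →L[ℝ] ℝ) (y : E) (ρ : ℝ), y ∈ K ∧
      (∀ x ∈ K, f x ≤ f y) ∧ 0 < ρ ∧ (∀ i < n, t i ∈ T i) ∧
      (∀ i < n, ∀ x ∈ K, f y - ρ ≤ f x →
        ∑ j ∈ range J, c j * t i (τ (g (i - 1 - j)) x₀) + Λ * c₀ / 4 ≤ Λ * t i x) ∧
      ∀ i k, i < k → k < n →
        ∑ j ∈ range J, c j * t i (τ (g (i - 1 - j)) x₀) + Λ * c₀ / 4 ≤
          Λ * t i (τ (g k) x₀) by
    obtain ⟨t, g, -, -, -, -, -, -, h1, -, h2⟩ := h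
    exact ⟨t, g, h1, h2⟩
  induction n with
  | zero =>
    obtain ⟨g, -⟩ := hτ.one
    exact ⟨0, fun _ => g, 0, x₀, 1, hx₀, by simp, one_pos, by simp, by simp, by simp⟩
  | succ n ih =>
    obtain ⟨t, g, f, y, ρ, hy, hmax, hρ, h1, h2, h3⟩ := ih fun i hi => hS i (by omega)
    obtain ⟨gn, hgn⟩ := hK.sup hτ f hx₀ hy hρ
    obtain ⟨t₀, ht₀, f', y', ρ', hy', hmax', hρ', h4⟩ := hg_step hτ hK P hP (T n) (hT n) (hB n) hc₀
      (hS n (by omega)) (∑ j ∈ range J, (c j / Λ) • τ (Function.update g n gn (n - 1 - j)) x₀)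
      f hy hmax hρ
    have hg : ∀ i < n, ∀ j, Function.update g n gn (i - 1 - j) = g (i - 1 - j) := fun i hi j =>
      Function.update_of_ne (by omega) _ _
    refine ⟨Function.update t n t₀, Function.update g n gn, f', y', ρ', hy', hmax', hρ',
      fun i hi => ?_, fun i hi x hx h5 => ?_, fun i k hik hk => ?_⟩
    · rcases Nat.lt_succ_iff_lt_or_eq.1 hi with hi | rfl
      · rw [Function.update_of_ne hi.ne]
        exact h1 i hi
      · rwa [Function.update_self]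
    · rcases Nat.lt_succ_iff_lt_or_eq.1 hi with hi | rfl
      · simp only [Function.update_of_ne hi.ne, hg i hi]
        exact h2 i hi x hx (h4 x hx h5).1
      · have h6 := mul_le_mul_of_nonneg_left (h4 x hx h5).2 hΛ.le
        simp only [map_sum, map_smul, smul_eq_mul, mul_add, mul_sum] at h6
        simp only [Function.update_self]
        refine le_trans (le_of_eq ?_) h6
        congr 1
        · refine sum_congr rfl fun j _ => ?_
          field_simp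
        · ring
    · have hi : i < n := by omega
      simp only [Function.update_of_ne hi.ne, hg i hi]
      rcases Nat.lt_succ_iff_lt_or_eq.1 hk with hk | rfl
      · rw [Function.update_of_ne hk.ne]
        exact h3 i k hik hk
      · rw [Function.update_self]
        exact h2 i hi _ (hK.inv _ _ hx₀) hgn

theorem hg_row {J : ℕ} {c : ℕ → ℝ} {Λ : ℝ} (hk : Ker J c Λ) {i : ℕ} (h1 : J ≤ i) (h2 : i < 2 * J)
    (a : ℕ → ℝ) : ∑ k ∈ range (3 * J), kw c i k * a k =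
      ∑ j ∈ range J, c j * a (i + 1 + j) - ∑ j ∈ range J, c j * a (i - 1 - j) := by
  have e : 3 * J = (i + 1) + (3 * J - (i + 1)) := by omega
  rw [e, sum_range_add, sum_range_succ]
  have e1 : ∑ k ∈ range i, kw c i k * a k = -∑ j ∈ range J, c j * a (i - 1 - j) := by
    rw [← sum_range_reflect, ← sum_neg_distrib]
    symm
    refine sum_subset_zero_on_sdiff (range_subset_range.2 h1) (fun j hj => ?_) fun j hj => ?_
    · simp only [mem_sdiff, mem_range, not_lt] at hj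
      rw [kw, if_neg (by omega), if_pos (by omega), hk.zero _ (by omega)]
      simp
    · rw [mem_range] at hj
      rw [kw, if_neg (by omega), if_pos (by omega), show i - (i - 1 - j) - 1 = j by omega]
      ring
  have e2 : ∑ k ∈ range (3 * J - (i + 1)), kw c i (i + 1 + k) * a (i + 1 + k) =
      ∑ j ∈ range J, c j * a (i + 1 + j) := by
    symm
    refine sum_subset_zero_on_sdiff (range_subset_range.2 (by omega)) (fun j hj => ?_)
      fun j _ => ?_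
    · simp only [mem_sdiff, mem_range, not_lt] at hj
      rw [kw, if_pos (by omega), hk.zero _ (by omega)]
      simp
    · rw [kw, if_pos (by omega), show i + 1 + j - i - 1 = j by omega]
  rw [e1, e2, kw]
  simp only [lt_irrefl, if_false]
  ring

theorem hg (hτ : Act τ) (hK : Minl τ K) {J : ℕ} {c : ℕ → ℝ} {Λ : ℝ} (hk : Ker J c Λ)
    (hΛ : 0 < Λ) {x₀ : E} (hx₀ : x₀ ∈ K) (P : Finset E) (hP : ∀ x ∈ P, x ∈ K)
    (T : ℕ → Set (E →L[ℝ] ℝ)) (hT : ∀ i, ∀ t ∈ T i, -t ∈ T i) {B c₀ : ℝ}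
    (hB : ∀ i, ∀ t ∈ T i, ∀ x ∈ K, |t x| ≤ B) (hc₀ : 0 < c₀)
    (hS : ∀ i < 3 * J, ∀ g, ∃ x ∈ P, ∃ y ∈ P, ∃ t ∈ T i, c₀ ≤ t (τ g x) - t (τ g y)) :
    ∃ (t : ℕ → E →L[ℝ] ℝ) (g : ℕ → G), (∀ i < 3 * J, t i ∈ T i) ∧
      J * Λ * c₀ / 4 ≤ ∑ i ∈ Ico J (2 * J), ∑ k ∈ range (3 * J), kw c i k * t i (τ (g k) x₀) := by
  obtain ⟨t, g, h1, h2⟩ := hg_seq hτ hK hk hΛ hx₀ P hP T hT hB hc₀ _ hS
  refine ⟨t, g, h1, le_trans (le_of_eq ?_) (sum_le_sum (f := fun _ => Λ * c₀ / 4) fun i hi => ?_)⟩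
  · rw [sum_const, Nat.card_Ico, show 2 * J - J = J by omega, nsmul_eq_mul]
    ring
  · rw [mem_Ico] at hi
    rw [hg_row hk hi.1 hi.2 fun k => t i (τ (g k) x₀)]
    refine le_of_mul_le_mul_left ?_ hΛ
    have h3 : ∑ j ∈ range J, c j * (∑ j ∈ range J, c j * t i (τ (g (i - 1 - j)) x₀) +
        Λ * c₀ / 4) ≤ ∑ j ∈ range J, c j * (Λ * t i (τ (g (i + 1 + j)) x₀)) :=
      sum_le_sum fun j hj => mul_le_mul_of_nonneg_left
        (h2 i _ (by omega) (by rw [mem_range] at hj; omega)) (hk.nonneg j)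
    rw [← sum_mul, hk.sum] at h3
    simp only [mul_left_comm _ Λ, ← mul_sum] at h3
    linarith

end Vale.Agent.KR
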