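import Vale.Agent.KR.Defs

/-!
# The homotopy on lists (notes, section 0)
All proofs are inductions on the list, generalizing the function and the head.
* `DD_congr`: `DD F x l` only uses `F` on lists of length `l.length`; `HH p q F x l` only on lists of length `l.length + 2`; `UU` on length `l.length + 1`.
* head shift: `DD (fun l => G (a ·l)) y l = DD G (a y) l` where `a · (y :: l) = a y :: l` (for `l ≠ []`, or `G [] = 0`), the same for `HH`.
* `DD_DD`: `DD (unc (DD G)) x l = 0` for `l ≠ []`.
* `homotopy`: `F (x :: l) - UU F x l = DD (unc (HH F)) x l + HH (unc (DD F)) x l`. For the step, with `F ω = fun l => F (x p ω :: l)`: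
  `DD (fun l => unc (HH F) (x :: l)) y l = avc (DD (fun l => F (x p :: q :: l)) y l - DD (unc (HH (F ω))) (q y) l)` and
  `HH (fun l => unc (DD F) (x p :: l)) (q y) l = HH F (x y) l - HH (unc (DD (F ω))) (q y) l`.
* `rel_prim`: `HH (unc (DD F)) x l = x * HH (unc fun a l => a * F l) 1 l` for `l.length = n` by `Rel` (left linearity), so the new primitive is `F - unc (DD (unc (HH F)))` on lists of
  length `n + 1`.
-/

namespace Vale.Agent.KR

open Vale.Agent.P104 Finset
open scoped InnerProductSpace

variable {R : Type*} [NormedRing R] [NormedAlgebra ℂ R] {Ω : Type*} [Fintype Ω]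

theorem DD_congr {F G : List R → R} (x : R) (l : List R)
    (h : ∀ l' : List R, l'.length = l.length → F l' = G l') : DD F x l = DD G x l := by
  sorry

theorem DD_add (F G : List R → R) (x : R) (l : List R) :
    DD (fun l => F l + G l) x l = DD F x l + DD G x l := by
  sorry

theorem DD_smul (c : ℂ) (F : List R → R) (x : R) (l : List R) :
    DD (fun l => c • F l) x l = c • DD F x l := by
  sorry

theorem DD_mul_left (c : R) (F : List R → R) (x : R) (l : List R) :
    DD (fun l => c * F l) x l = c * DD F x l := by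
  sorry

theorem DD_DD (G : List R → R) (x y : R) (l : List R) : DD (unc (DD G)) x (y :: l) = 0 := by
  sorry

theorem homotopy [Nonempty Ω] {p q : Ω → R} (hpq : ∀ ω, p ω * q ω = 1) (F : List R → R) (x : R)
    (l : List R) : F (x :: l) - UU p q id F x l =
      DD (unc (HH p q F)) x l + HH p q (unc (DD F)) x l := by
  sorry

theorem rel_prim [Nonempty Ω] {p q : Ω → R} (hpq : ∀ ω, p ω * q ω = 1) {n : ℕ} {F : List R → R}
    (hF : Rel n F F) :
    Rel n F (unc fun x l => UU p q id F x l + x * HH p q (unc fun a l => a * F l) 1 l) := by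
  sorry

theorem rel_left [Nonempty Ω] {p q : Ω → R} (hpq : ∀ ω, p ω * q ω = 1) {n : ℕ}
    {F Φ : List R → R} (h : Rel n F Φ) :
    Rel n F (unc fun x l => avc fun ω => p ω * Φ (q ω * x :: l)) := by
  sorry

theorem rel_one {p q : R} (hpq : p * q = 1) {n : ℕ} {F Φ : List R → R} (h : Rel n F Φ) :
    Rel n F (unc fun x l => p * Φ (q * x :: l)) := by
  sorry

theorem Rel.congr {n : ℕ} {F Φ Φ' : List R → R} (h : Rel n F Φ)
    (e : ∀ l : List R, l.length = n + 1 → Φ' l = Φ l) : Rel n F Φ' := by
  sorry

end Vale.Agent.KR
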