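import Vale.Agent.KR.Defs

/-!
# Minimal invariant sets
* `exists_minl`: Zorn (`zorn_superset_nonempty`), the intersection of a chain of nonempty compact sets is nonempty.
* `sup`: by contradiction, `C = {z | ∀ g, f (τ g z) ≤ f y - ε}` is closed, convex, invariant (`Act.comp`), contains `x`;
  by `Minl.all` it contains `y`; use `Act.one`.
* `family`: take `K'` minimal in `K`; the image of `K'` under the coordinate `t` is `Inv` (`Inv.image`) and contains a fixed point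
  `x₀`; `{x | x t = x₀}` is closed, convex, invariant.
-/

namespace Vale.Agent.KR

open Vale.Agent.P104 Finset
open scoped InnerProductSpace

variable {E : Type*} [AddCommGroup E] [Module ℝ E] [TopologicalSpace E] [IsTopologicalAddGroup E]
  [ContinuousSMul ℝ E] [T2Space E] {G : Type*} {τ : G → E →L[ℝ] E} {K : Set E}

theorem Inv.inter (hK : Inv τ K) {C : Set E} (hne : ∃ x ∈ K, x ∈ C) (hc : IsClosed C)
    (hv : Convex ℝ C) (hi : ∀ g, ∀ x ∈ K, x ∈ C → τ g x ∈ C) : Inv τ (K ∩ C) := by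
  exact ⟨hne, hK.cpt.inter_right hc, hK.cvx.inter hv,
    fun g x hx => ⟨hK.inv g x hx.1, hi g x hx.1 hx.2⟩⟩

theorem Inv.exists_minl (hK : Inv τ K) : ∃ K' ⊆ K, Minl τ K' := by
  have := zorn_superset_nonempty {C : Set E | Inv τ C} (fun c hc hch hne => ?_) K hK
  · obtain ⟨m, hmK, hm⟩ := this
    exact ⟨m, hmK, ⟨hm.prop, fun K' h1 h2 => hm.le_of_le h2 h1⟩⟩
  · have : Nonempty c := hne.to_subtype
    refine ⟨⋂₀ c, ⟨?_, ?_, ?_, ?_⟩, fun s hs => Set.sInter_subset_of_mem hs⟩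
    · exact IsCompact.nonempty_sInter_of_directed_nonempty_isCompact_isClosed
        (fun a ha b hb => (hch.total ha hb).elim (fun h => ⟨a, ha, le_rfl, h⟩)
          fun h => ⟨b, hb, h, le_rfl⟩) (fun U hU => (hc hU).ne) (fun U hU => (hc hU).cpt)
        (fun U hU => (hc hU).cpt.isClosed)
    · obtain ⟨U, hU⟩ := hne
      exact (hc hU).cpt.of_isClosed_subset (isClosed_sInter fun V hV => (hc hV).cpt.isClosed)
        (Set.sInter_subset_of_mem hU)
    · exact convex_sInter fun U hU => (hc hU).cvx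
    · exact fun g x hx U hU => (hc hU).inv g x (hx U hU)

theorem Minl.all (hK : Minl τ K) {C : Set E} (hne : ∃ x ∈ K, x ∈ C) (hc : IsClosed C)
    (hv : Convex ℝ C) (hi : ∀ g, ∀ x ∈ K, x ∈ C → τ g x ∈ C) : ∀ x ∈ K, x ∈ C := by
  exact fun x hx => (hK.min _ Set.inter_subset_left (hK.toInv.inter hne hc hv hi) hx).2

theorem Minl.sup (hτ : Act τ) (hK : Minl τ K) (f : E →L[ℝ] ℝ) {x y : E} (hx : x ∈ K) (hy : y ∈ K)
    {ε : ℝ} (hε : 0 < ε) : ∃ g, f y - ε ≤ f (τ g x) := by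
  by_contra hcon
  push Not at hcon
  have h := hK.all (C := {z | ∀ g, f (τ g z) ≤ f y - ε}) ⟨x, hx, fun g => (hcon g).le⟩ ?_ ?_ ?_ y hy
  · obtain ⟨g, hg⟩ := hτ.one
    have := h g
    rw [hg] at this
    linarith
  · rw [Set.ofPred_forall]
    exact isClosed_iInter fun g => isClosed_le (f.continuous.comp (τ g).continuous) continuous_const
  · intro a ha b hb s t hs ht hst g
    have h1 := mul_le_mul_of_nonneg_left (ha g) hs
    have h2 := mul_le_mul_of_nonneg_left (hb g) ht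
    simp only [map_add, map_smul, smul_eq_mul]
    calc s * f (τ g a) + t * f (τ g b) ≤ s * (f y - ε) + t * (f y - ε) := add_le_add h1 h2
      _ = f y - ε := by rw [← add_mul, hst, one_mul]
  · intro g z _ hz h
    obtain ⟨k, hk⟩ := hτ.comp h g
    rw [hk]
    exact hz k

theorem fip {X : Type*} [TopologicalSpace X] {K : Set X} (hK : IsCompact K) {I : Type*}
    (C : I → Set X) (hc : ∀ i, IsClosed (C i))
    (h : ∀ s : Finset I, ∃ x ∈ K, ∀ i ∈ s, x ∈ C i) : ∃ x ∈ K, ∀ i, x ∈ C i := by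
  have := hK.inter_iInter_nonempty C hc fun s => by
    obtain ⟨x, hx, h'⟩ := h s
    exact ⟨x, hx, by simpa using h'⟩
  obtain ⟨x, hx, h'⟩ := this
  exact ⟨x, hx, Set.mem_iInter.1 h'⟩

theorem Inv.image (hK : Inv τ K) {E' : Type*} [AddCommGroup E'] [Module ℝ E'] [TopologicalSpace E']
    {G' : Type*} {τ' : G' → E' →L[ℝ] E'} (π : E →L[ℝ] E')
    (h : ∀ g', ∃ g, ∀ x, τ' g' (π x) = π (τ g x)) : Inv τ' (π '' K) := by
  refine ⟨hK.ne.image _, hK.cpt.image π.continuous, hK.cvx.linear_image π.toLinearMap, ?_⟩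
  rintro g' _ ⟨x, hx, rfl⟩
  obtain ⟨g, hg⟩ := h g'
  exact ⟨τ g x, hK.inv g x hx, (hg x).symm⟩

theorem Inv.avg_mem (hK : Inv τ K) {Ω : Type*} [Fintype Ω] [Nonempty Ω] (x : Ω → E)
    (hx : ∀ ω, x ω ∈ K) : (Fintype.card Ω : ℝ)⁻¹ • ∑ ω, x ω ∈ K := by
  rw [Finset.smul_sum]
  have hc : (0 : ℝ) < Fintype.card Ω := by exact_mod_cast Fintype.card_pos
  refine hK.cvx.sum_mem (fun _ _ => by positivity) ?_ fun ω _ => hx ω
  rw [Finset.sum_const, Finset.card_univ, nsmul_eq_mul, mul_inv_cancel₀ hc.ne']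

theorem family {T : Type*} {K : Set (T → E)} (hK : Inv (diag T τ) K)
    (h : ∀ t, ∀ K' ⊆ (fun x => x t) '' K, Inv τ K' → ∃ x ∈ K', ∀ g, τ g x = x) :
    ∃ x ∈ K, ∀ g t, τ g (x t) = x t := by
  obtain ⟨K', hK'K, hK'⟩ := hK.exists_minl
  obtain ⟨x, hx⟩ := hK'.ne
  refine ⟨x, hK'K hx, fun g t => ?_⟩
  have h1 : Inv τ ((ContinuousLinearMap.proj t : (T → E) →L[ℝ] E) '' K') :=
    hK'.toInv.image _ fun g' => ⟨g', fun _ => rfl⟩
  obtain ⟨x₀, ⟨y, hy, hy0⟩, h0⟩ := h t _ (Set.image_mono hK'K) h1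
  have h2 := hK'.all (C := {z | z t = x₀}) ⟨y, hy, hy0⟩
    (isClosed_eq (continuous_apply t) continuous_const) ?_ ?_ x hx
  · rw [show x t = x₀ from h2, h0]
  · intro a ha b hb s r _ _ hsr
    change s • a t + r • b t = x₀
    rw [show a t = x₀ from ha, show b t = x₀ from hb, ← add_smul, hsr, one_smul]
  · intro g' z _ hz
    change τ g' (z t) = x₀
    rw [show z t = x₀ from hz, h0]

end Vale.Agent.KR
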