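import Vale.Agent.KR.Min

/-!
# Basic facts on `Mp M`
* `isCompact_ball`: `isCompact_iff_ultrafilter_le_nhds`, `exists_wot_lim` for each `x` (bound on the set of the ultrafilter; replace
  the maps outside the ball by `0`), the limit is in `M` (`mem_iff_comm`, `polar_wot_eq`) and linear; `nhds_induced`, `tendsto_pi_nhds`.
* `isClosed_sumsq`: `∑ ‖V i‖² ≤ c ↔ ∀ w, 2 re ∑ <w i, V i> - ∑ ‖w i‖² ≤ c`.
* `CBn.mono`: pad with zeros (`Fin.castLE`, or one step at a time with `Fin.snoc`, `Fin.sum_univ_castSucc`).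
-/

namespace Vale.Agent.KR

open Vale.Agent.P104 Finset
open scoped InnerProductSpace

variable {H : Type*} [NormedAddCommGroup H] [InnerProductSpace ℂ H] [CompleteSpace H]
  {M : VonNeumannAlgebra H}
variable {F : Type*} [NormedAddCommGroup F] [InnerProductSpace ℂ F]

theorem act_Act (S : Set M) : Act (act S) := by
  refine ⟨⟨⟨1, one_mem _, fun s _ => by rw [one_mul, mul_one]⟩, fun ψ => Mp.ext fun x => ?_⟩,
    fun g h => ⟨⟨h.1 * g.1, mul_mem h.2.1 g.2.1, fun s hs => ?_⟩, fun ψ => Mp.ext fun x => ?_⟩⟩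
  · simp only [act, tau_apply, star_one, one_mul]
  · rw [mul_assoc, g.2.2 s hs, ← mul_assoc, h.2.2 s hs, mul_assoc]
  · simp only [act, tau_apply, star_mul, mul_assoc]

theorem Inv.restrict {KK : Set (Mp M)} (hK : Inv (act (∅ : Set M)) KK) (S : Set M) :
    Inv (act S) KK := by
  exact ⟨hK.ne, hK.cpt, hK.cvx, fun g => hK.inv ⟨g.1, g.2.1, fun _ h => h.elim⟩⟩

theorem Inv.tau_mem {KK : Set (Mp M)} (hK : Inv (act (∅ : Set M)) KK) {u : M} (hu : u ∈ unitary M)
    {ψ : Mp M} (hψ : ψ ∈ KK) : tau u ψ ∈ KK :=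
  hK.inv ⟨u, hu, fun _ h => h.elim⟩ ψ hψ

theorem Mp.sum_apply {I : Type*} (s : Finset I) (ψ : I → Mp M) (x : M) :
    (∑ i ∈ s, ψ i) x = ∑ i ∈ s, ψ i x := by
  classical
  induction s using Finset.induction_on with
  | empty => rw [Finset.sum_empty, Finset.sum_empty, Mp.zero_apply]
  | insert a s ha ih => rw [Finset.sum_insert ha, Finset.sum_insert ha, Mp.add_apply, ih]

theorem isCompact_ball (K : ℝ) : IsCompact (Ball M K) := by
  classical
  rw [isCompact_iff_ultrafilter_le_nhds']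
  intro U hU
  obtain ⟨ψ₀, h₀⟩ := U.nonempty_of_mem hU
  let r : Mp M → Mp M := fun ψ => if ψ ∈ Ball M K then ψ else ψ₀
  have hr : ∀ ψ, r ψ ∈ Ball M K := fun ψ => by
    simp only [r]
    split_ifs with h
    · exact h
    · exact h₀
  choose L hL1 hL2 using fun x : M =>
    exists_wot_lim U (fun ψ => (r ψ x : H →L[ℂ] H)) (K * ‖x‖) fun ψ => hr ψ x
  have hM : ∀ x, L x ∈ M := fun x => (mem_iff_comm M).2 fun s hs => by
    have := polar_wot_eq (hL2 x) s 1 1 s fun ψ => by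
      rw [mul_one, one_mul]
      exact comm_of_mem hs (r ψ x).2
    simpa using this
  let φ : M →ₗ[ℂ] M :=
    { toFun := fun x => ⟨L x, hM x⟩
      map_add' := fun x y => Subtype.ext (ContinuousLinearMap.ext fun ξ =>
        ext_inner_left ℂ fun η => tendsto_nhds_unique (hL2 (x + y) ξ η) (by
          simpa [inner_add_right] using (hL2 x ξ η).add (hL2 y ξ η)))
      map_smul' := fun c x => Subtype.ext (ContinuousLinearMap.ext fun ξ =>
        ext_inner_left ℂ fun η => tendsto_nhds_unique (hL2 (c • x) ξ η) (by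
          simpa [inner_smul_right] using (hL2 x ξ η).const_mul c)) }
  refine ⟨φ, hL1, le_trans (Filter.tendsto_iff_comap.1 (tendsto_pi_nhds.2 fun p => ?_))
    (nhds_induced (coef (M := M)) φ).ge⟩
  refine (hL2 p.1 p.2.1 p.2.2).congr' ?_
  filter_upwards [hU] with ψ hψ
  simp only [r, if_pos hψ, coef]

theorem convex_ball (K : ℝ) : Convex ℝ (Ball M K) := by
  intro ψ hψ φ hφ s t hs ht hst x
  rw [Mp.add_apply, Mp.rsmul_apply, Mp.rsmul_apply]
  refine (norm_add_le _ _).trans ?_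
  rw [norm_smul, norm_smul, Complex.norm_of_nonneg hs, Complex.norm_of_nonneg ht]
  calc _ ≤ s * (K * ‖x‖) + t * (K * ‖x‖) := by
        gcongr
        · exact hψ x
        · exact hφ x
    _ = K * ‖x‖ := by rw [← add_mul, hst, one_mul]

theorem tau_ball {K : ℝ} (hK : 0 ≤ K) {a : M} (ha : ‖a‖ ≤ 1) {ψ : Mp M} (hψ : ψ ∈ Ball M K) :
    tau a ψ ∈ Ball M K := by
  intro x
  rw [tau_apply]
  have h1 : ‖a * x‖ ≤ ‖x‖ := (norm_mul_le _ _).trans (mul_le_of_le_one_left (norm_nonneg _) ha)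
  refine (norm_mul_le _ _).trans ?_
  rw [norm_star]
  exact (mul_le_of_le_one_left (norm_nonneg _) ha).trans
    ((hψ _).trans (mul_le_mul_of_nonneg_left h1 hK))

theorem MpTop_coe_unitary {u : M} (hu : u ∈ unitary M) :
    (u : H →L[ℂ] H) ∈ unitary (H →L[ℂ] H) :=
  ⟨congrArg Subtype.val hu.1, congrArg Subtype.val hu.2⟩

theorem unitary_norm_le {u : M} (hu : u ∈ unitary M) : ‖u‖ ≤ 1 := by
  refine (u : H →L[ℂ] H).opNorm_le_bound zero_le_one fun ξ => ?_
  rw [one_mul, ContinuousLinearMap.norm_map_of_mem_unitary (MpTop_coe_unitary hu)]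

theorem isClosed_op_eq (a b c d : H →L[ℂ] H) (x y : M) :
    IsClosed {ψ : Mp M | a * (ψ x : H →L[ℂ] H) * b = c * (ψ y : H →L[ℂ] H) * d} := by
  have e : {ψ : Mp M | a * (ψ x : H →L[ℂ] H) * b = c * (ψ y : H →L[ℂ] H) * d} =
      ⋂ ξ, ⋂ η, {ψ : Mp M | ⟪star a η, (ψ x : H →L[ℂ] H) (b ξ)⟫_ℂ =
        ⟪star c η, (ψ y : H →L[ℂ] H) (d ξ)⟫_ℂ} := by
    ext ψ
    simp only [Set.mem_iInter, Set.mem_ofPred_eq, inner_star_left]
    exact ⟨fun h ξ η => congrArg (fun T : H →L[ℂ] H => ⟪η, T ξ⟫_ℂ) h,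
      fun h => ContinuousLinearMap.ext fun ξ => ext_inner_left ℂ fun η => h ξ η⟩
  rw [e]
  exact isClosed_iInter fun ξ => isClosed_iInter fun η =>
    isClosed_eq (Mp.continuous_inner _ _ _) (Mp.continuous_inner _ _ _)

theorem isClosed_mod (a b x y : M) : IsClosed {ψ : Mp M | a * ψ x = b * ψ y} := by
  have e : {ψ : Mp M | a * ψ x = b * ψ y} = {ψ : Mp M |
      (a : H →L[ℂ] H) * (ψ x : H →L[ℂ] H) * 1 = (b : H →L[ℂ] H) * (ψ y : H →L[ℂ] H) * 1} := by
    ext ψ
    simp only [Set.mem_ofPred_eq, mul_one]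
    exact Subtype.ext_iff
  rw [e]
  exact isClosed_op_eq _ _ _ _ _ _

theorem convex_mod (a b x y : M) : Convex ℝ {ψ : Mp M | a * ψ x = b * ψ y} := by
  intro ψ hψ φ hφ s t _ _ _
  have h1 : a * ψ x = b * ψ y := hψ
  have h2 : a * φ x = b * φ y := hφ
  simp only [Set.mem_ofPred_eq, Mp.add_apply, Mp.rsmul_apply, mul_add, mul_smul_comm, h1, h2]

theorem isClosed_sumsq {X : Type*} [TopologicalSpace X] {I : Type*} [Fintype I] (V : I → X → F)
    (h : ∀ i w, Continuous fun x => ⟪w, V i x⟫_ℂ) (c : ℝ) :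
    IsClosed {x | ∑ i, ‖V i x‖ ^ 2 ≤ c} := by
  have e : {x | ∑ i, ‖V i x‖ ^ 2 ≤ c} =
      ⋂ w : I → F, {x | ∑ i, (2 * (⟪w i, V i x⟫_ℂ).re - ‖w i‖ ^ 2) ≤ c} := by
    ext x
    simp only [Set.mem_iInter, Set.mem_ofPred_eq]
    refine ⟨fun hx w => le_trans (Finset.sum_le_sum fun i _ => ?_) hx,
      fun hx => le_trans (le_of_eq (Finset.sum_congr rfl fun i _ => ?_)) (hx fun i => V i x)⟩
    · have h1 := norm_sub_sq (𝕜 := ℂ) (w i) (V i x)
      have h2 := sq_nonneg ‖w i - V i x‖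
      simp only [RCLike.re_to_complex] at h1
      linarith
    · have h1 := inner_self_eq_norm_sq (𝕜 := ℂ) (V i x)
      simp only [RCLike.re_to_complex] at h1
      linarith
  rw [e]
  exact isClosed_iInter fun w => isClosed_le (continuous_finsetSum _ fun i _ =>
    (continuous_const.mul (Complex.continuous_re.comp (h i (w i)))).sub continuous_const)
    continuous_const

theorem isClosed_cbn (n : ℕ) (z : H →L[ℂ] H) (K : ℝ) : IsClosed {ψ : Mp M | CBn n z K ψ} := by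
  simp only [CBn, Set.ofPred_forall]
  refine isClosed_iInter fun x => isClosed_iInter fun C => isClosed_iInter fun _ =>
    isClosed_iInter fun _ => isClosed_iInter fun η => isClosed_iInter fun ξ =>
    isClosed_iInter fun _ => isClosed_le ?_ continuous_const
  exact (continuous_finsetSum _ fun k _ => continuous_finsetSum _ fun i _ =>
    Mp.continuous_inner _ _ _).norm

theorem convex_cbn (n : ℕ) (z : H →L[ℂ] H) (K : ℝ) : Convex ℝ {ψ : Mp M | CBn n z K ψ} := by
  intro ψ hψ φ hφ s t hs ht hst x C hC hx η ξ hη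
  have h1 := hψ x C hC hx η ξ hη
  have h2 := hφ x C hC hx η ξ hη
  have e : ∀ (y : M) (a b : H), ⟪a, ((s • ψ + t • φ) y : H →L[ℂ] H) b⟫_ℂ =
      (s : ℂ) * ⟪a, (ψ y : H →L[ℂ] H) b⟫_ℂ + (t : ℂ) * ⟪a, (φ y : H →L[ℂ] H) b⟫_ℂ := by
    intro y a b
    rw [← inner_smul_right, ← inner_smul_right, ← inner_add_right]
    rfl
  simp only [e, Finset.sum_add_distrib, ← Finset.mul_sum]
  refine (norm_add_le _ _).trans ?_
  rw [norm_mul, norm_mul, Complex.norm_of_nonneg hs, Complex.norm_of_nonneg ht]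
  refine (add_le_add (mul_le_mul_of_nonneg_left h1 hs) (mul_le_mul_of_nonneg_left h2 ht)).trans ?_
  rw [← add_mul, hst, one_mul]

theorem CBn.tau {n : ℕ} {z : H →L[ℂ] H} (hz : CProj M z) {K : ℝ} {ψ : Mp M} (h : CBn n z K ψ)
    {u : M} (hu : u ∈ unitary M) : CBn n z K (tau u ψ) := by
  intro x C hC hx η ξ hη
  have hn := ContinuousLinearMap.norm_map_of_mem_unitary (MpTop_coe_unitary hu)
  have h1 := h (fun k i => u * x k i) C hC (fun β => by
    refine le_trans (le_of_eq (Finset.sum_congr rfl fun k _ => ?_)) (hx β)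
    rw [← hn (∑ i, (x k i : H →L[ℂ] H) (β i)), map_sum]
    rfl) (fun k => (u : H →L[ℂ] H) (η k)) ξ fun k => by
      rw [← mul_apply_eq_comp, hz.comm u.2, mul_apply_eq_comp, hη k]
  simp only [hn] at h1
  refine le_trans (le_of_eq (congrArg _ (Finset.sum_congr rfl fun k _ =>
    Finset.sum_congr rfl fun i _ => ?_))) h1
  exact inner_star_right (u : H →L[ℂ] H) (η k) _

theorem MpTop_cbn_succ {n : ℕ} {z : H →L[ℂ] H} {K : ℝ} {ψ : Mp M}
    (h : CBn (n + 1) z K ψ) : CBn n z K ψ := by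
  intro x C hC hx η ξ hη
  have h1 := h (Fin.cons 0 fun k => Fin.cons 0 (x k)) C hC (fun β => by
    have h2 := hx fun i => β i.succ
    have h3 : 0 ≤ C ^ 2 * ‖β 0‖ ^ 2 := by positivity
    simp only [Fin.sum_univ_succ, Fin.cons_zero, Fin.cons_succ, Pi.zero_apply,
      ZeroMemClass.coe_zero, _root_.zero_apply, Finset.sum_const_zero, add_zero, norm_zero,
      zero_add, mul_add]
    linarith) (Fin.cons 0 η) (Fin.cons 0 ξ) fun k => by
      refine Fin.cases ?_ (fun k => ?_) k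
      · simp
      · simpa using hη k
  simpa [Fin.sum_univ_succ] using h1

theorem CBn.mono {n n' : ℕ} (hn : n ≤ n') {z : H →L[ℂ] H} {K : ℝ} {ψ : Mp M}
    (h : CBn n' z K ψ) : CBn n z K ψ := by
  induction n', hn using Nat.le_induction with
  | base => exact h
  | succ m _ ih => exact ih (MpTop_cbn_succ h)

end Vale.Agent.KR
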