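import Vale.Agent.KR.Defs

/-!
# Decoupling, first layer (notes, section 4 NL; compare `returns_point` and `returns` in `P104/Returns.lean`)
`Z₁, Z₂` the two sign unitaries, `B = r Z₂ X`, `A = U X (Z₁ B)^j`, `Y c = A Z₁ r q c`, `A d = U X (Z₁ (1 - q d) B)^j`, `Y c d = A d Z₁ (1 - q d) r q c`, `h d = sg (g.1 d)`.
`ρ = ∑ c, ‖Δ (Y c)‖² = (0) + (1) + (2)`,
(0) `∑ c d, re <Δ (A d h d q d r q c), Δ (Y c d)>` has mean zero (`av_update`, `Zc_update`);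
(1) `∑ c, re <Δ (W r q c), Δ (Y c)> ≤ ρ/2 + (L²/2) 16 ‖ev W‖²`, `W = ∑ d, (A - A d) h d q d`, `returns_one`; `ret (B (Z₁ B)^i) ≤ 4 ret (star ..)` and `returns` for
`(X*, r*)` with `g` swapped (`av_equiv`, `Zc_star`);
(2) `∑ c d, re <Δ (A d h d q d r q c), Δ (Y c - Y c d)> ≤ (1/(2 l)) ∑ ‖Δ (A d q d r q c)‖² + (l/2) L² (j+1)² ‖ev 1‖²` (as `returns_three`, without the left `q c`), and
`∑ ‖Δ (A d q d r q c)‖² ≤ 2 δ + 2 L² ∑ c d, ‖ev ((A - A d) q d r q c)‖²`, the last sum is `≤ 16 ∑ d, ‖ev ((A - A d) q d)‖² ≤ 16 j ∑ ret` (as `R1` in `P104/Decouple.lean`).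
Choose `l`, then `δ`, then `m₀` (`Core.param'`).
-/

namespace Vale.Agent.KR

open Vale.Agent.P104 Finset
open scoped InnerProductSpace

variable {R E : Type*} [Ring R] [StarRing R] [Algebra ℂ R] [StarModule ℂ R]
  [NormedAddCommGroup E] [InnerProductSpace ℂ E]

omit [Algebra ℂ R] [StarModule ℂ R] in
theorem sg_star (b : Bool) : star (sg R b) = sg R b := by
  cases b <;> simp [sg]

omit [Algebra ℂ R] [StarModule ℂ R] in
theorem sg_fam {C : Type*} (q : C → R) : Fam q (sg R) where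
  uni b := by cases b <;> simp [sg, Unitary.mem_iff]
  comm b c := by cases b <;> simp [sg]
  sum := by simp [sg]

theorem wd_unitary {C : Type*} [Fintype C] [DecidableEq C] {q : C → R} (hq : Cells q) {X r : R}
    (hX : X ∈ unitary R) (hr : r ∈ unitary R) (g : (C → Bool) × (C → Bool)) :
    wd q X r g ∈ unitary R :=
  mul_mem (mul_mem (mul_mem hX (Zc_unitary hq (sg_fam q) _)) hr) (Zc_unitary hq (sg_fam q) _)

section

variable (Q : QT R E) {C : Type*} [Fintype C] [DecidableEq C] {q : C → R}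

theorem nl1_a (hq : Cells q) {X Z B : R} (hX : Q.Ctr X) (hZ : Q.Ctr Z) (hB : Q.Ctr B)
    {h : C → R} (hh : ∀ d, Q.Ctr (h d)) (hc : ∀ d, h d * q d = q d * h d) (s : ℕ) :
    ∑ d, ‖Q.ev (X * ((Z * B) ^ s - (Z * (1 - q d) * B) ^ s) * h d * q d)‖ ^ 2 ≤
      16 * s * ∑ i ∈ range s, ret Q q (B * (Z * B) ^ i) := by
  have h1 : ∀ d, ‖Q.ev (X * ((Z * B) ^ s - (Z * (1 - q d) * B) ^ s) * h d * q d)‖ ^ 2 ≤
      s * ∑ i ∈ range s, (4 * ‖Q.ev (q d * (B * (Z * B) ^ i) * q d)‖) ^ 2 := by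
    intro d
    rw [returns_tele, mul_sum, sum_mul, sum_mul]
    refine returns_norm_sum Q s _ _ fun i => ?_
    have h2 : X * ((Z * (1 - q d) * B) ^ (s - 1 - i) * (Z * B - Z * (1 - q d) * B) *
        (Z * B) ^ i) * h d * q d = X * (Z * (1 - q d) * B) ^ (s - 1 - i) * Z *
          (q d * (B * (Z * B) ^ i) * q d * h d) := by
      rw [mul_assoc _ (h d), hc]
      noncomm_ring
    rw [h2]
    exact ((hX.mul (((hZ.mul (returns_ctr_q' Q hq d)).mul hB).pow _)).mul hZ _).trans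
      ((hh d).right _)
  refine (sum_le_sum fun d _ => h1 d).trans (le_of_eq ?_)
  unfold ret
  rw [← mul_sum, sum_comm]
  simp only [mul_pow, ← mul_sum]
  ring

theorem nl1_b (hq : Cells q) {r : R} (hr : r ∈ unitary R) (W : R) :
    ∑ c, ‖Q.ev (W * r * q c)‖ ^ 2 ≤ 16 * ‖Q.ev W‖ ^ 2 := by
  have h1 : ∀ c, ‖Q.ev (W * r * q c)‖ ^ 2 ≤ 4 * ‖Q.ev (q c * (star r * star W))‖ ^ 2 := by
    intro c
    have := Gamma_star_sq Q (q c * (star r * star W))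
    simpa only [star_mul, star_star, hq.star_eq] using this
  refine (sum_le_sum fun c _ => h1 c).trans ?_
  rw [← mul_sum, Q.pyth hq, Q.norm_unitary (Unitary.star_mem hr)]
  linarith [Gamma_star_sq Q W]

theorem nl1_c (hq : Cells q) {X Z B U : R} (hX : Q.Ctr X) (hZ : Q.Ctr Z) (hB : Q.Ctr B)
    (hU : Q.Ctr U) (s : ℕ) :
    ∑ c, ∑ d, ‖Q.ev (X * ((Z * B) ^ s - (Z * (1 - q d) * B) ^ s) * U * q c)‖ ^ 2 ≤
      s ^ 2 * ‖Q.ev 1‖ ^ 2 := by
  have h1 : ∀ c d, ‖Q.ev (X * ((Z * B) ^ s - (Z * (1 - q d) * B) ^ s) * U * q c)‖ ^ 2 ≤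
      s * ∑ i ∈ range s, ‖Q.ev (q d * (B * (Z * B) ^ i * U * q c))‖ ^ 2 := by
    intro c d
    rw [returns_tele, mul_sum, sum_mul, sum_mul]
    refine returns_norm_sum Q s _ _ fun i => ?_
    have h2 : X * ((Z * (1 - q d) * B) ^ (s - 1 - i) * (Z * B - Z * (1 - q d) * B) *
        (Z * B) ^ i) * U * q c = X * (Z * (1 - q d) * B) ^ (s - 1 - i) * Z *
          (q d * (B * (Z * B) ^ i * U * q c)) := by
      noncomm_ring
    rw [h2]
    exact (hX.mul (((hZ.mul (returns_ctr_q' Q hq d)).mul hB).pow _)).mul hZ _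
  calc ∑ c, ∑ d, ‖Q.ev (X * ((Z * B) ^ s - (Z * (1 - q d) * B) ^ s) * U * q c)‖ ^ 2
      ≤ ∑ c, ∑ d, s * ∑ i ∈ range s, ‖Q.ev (q d * (B * (Z * B) ^ i * U * q c))‖ ^ 2 := by
        gcongr with c _ d
        exact h1 c d
    _ = ∑ c, s * ∑ i ∈ range s, ‖Q.ev (B * (Z * B) ^ i * U * q c)‖ ^ 2 := by
        refine sum_congr rfl fun c _ => ?_
        rw [← mul_sum, sum_comm]
        simp only [Q.pyth hq]
    _ ≤ ∑ c, s * ∑ _i ∈ range s, ‖Q.ev (q c)‖ ^ 2 := by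
        gcongr with c _ i
        exact (hB.mul ((hZ.mul hB).pow i)).mul hU _
    _ = _ := by
        simp only [sum_const, card_range, nsmul_eq_mul, ← mul_sum]
        rw [Q.sum_norm_cells hq]
        ring

omit [StarModule ℂ R] in
theorem nl_sq {Δ : R →ₗ[ℂ] E} {L : ℝ} (hΔ : ∀ a, ‖Δ a‖ ≤ L * ‖Q.ev a‖) (a : R) :
    ‖Δ a‖ ^ 2 ≤ L ^ 2 * ‖Q.ev a‖ ^ 2 := by
  rw [← mul_pow]
  exact pow_le_pow_left₀ (norm_nonneg _) (hΔ a) 2

theorem nl1_point (hq : Cells q) {X Z B U r : R} (hX : Q.Ctr X) (hZ : Q.Ctr Z)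
    (hB : Q.Ctr B) (hU : Q.Ctr U) (hr : r ∈ unitary R) (hBU : B * U = r)
    {h : C → R} (hh : ∀ d, Q.Ctr (h d)) (hc : ∀ d, h d * q d = q d * h d)
    (hZh : ∀ d, Z * q d = h d * q d) (s : ℕ) {Δ : R →ₗ[ℂ] E} {L δ l : ℝ} (hl : 0 < l)
    (hΔ : ∀ a, ‖Δ a‖ ≤ L * ‖Q.ev a‖)
    (hδ : ∑ c, ∑ d, ‖Δ (X * (Z * B) ^ s * Z * q d * r * q c)‖ ^ 2 ≤ δ) :
    ∑ c, ‖Δ (X * (Z * B) ^ s * Z * r * q c)‖ ^ 2 ≤
      2 * ∑ c, ∑ d, (⟪Δ (X * (Z * (1 - q d) * B) ^ s * h d * (q d * r * q c)),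
        Δ (X * (Z * (1 - q d) * B) ^ s * (Z * (1 - q d)) * r * q c)⟫_ℂ).re +
      (4096 + 512 * l) * L ^ 2 * s * ∑ i ∈ range s, ret Q q (B * (Z * B) ^ i) +
      (2 * l * δ + L ^ 2 * (s + 1) ^ 2 * ‖Q.ev 1‖ ^ 2 / l) := by
  set Y : C → R := fun c => X * (Z * B) ^ s * Z * r * q c with hY
  set e : C → R := fun d => X * ((Z * B) ^ s - (Z * (1 - q d) * B) ^ s) * h d * q d with he
  set D : R := ∑ d, e d with hD
  set u : C → C → R := fun c d => X * (Z * (1 - q d) * B) ^ s * h d * (q d * r * q c) with hu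
  set v : C → C → R := fun c d =>
    X * ((Z * B) ^ (s + 1) - (Z * (1 - q d) * B) ^ (s + 1)) * U * q c with hv
  set w : C → C → R := fun c d =>
    X * (Z * (1 - q d) * B) ^ s * (Z * (1 - q d)) * r * q c with hw
  have hue : ∀ c d, u c d = X * (Z * B) ^ s * Z * q d * r * q c - e d * r * q c := by
    intro c d
    simp only [hu, he]
    rw [mul_assoc _ Z (q d), hZh]
    noncomm_ring
  have hYu : ∀ c, Y c = D * r * q c + ∑ d, u c d := by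
    intro c
    simp only [hY, hD, hue, sum_sub_distrib, ← sum_mul, ← mul_sum, hq.sum]
    noncomm_ring
  have hYv : ∀ c d, Y c = w c d + v c d := by
    intro c d
    simp only [hY, hw, hv]
    rw [← hBU, pow_succ, pow_succ]
    noncomm_ring
  have h1 : ∀ c, ‖Δ (Y c)‖ ^ 2 ≤ ∑ d, (⟪Δ (u c d), Δ (w c d)⟫_ℂ).re +
      (1 / 2 * (L ^ 2 * ‖Q.ev (D * r * q c)‖ ^ 2) + 1 / 2 * ‖Δ (Y c)‖ ^ 2) +
      ∑ d, (l / 2 * (2 * ‖Δ (X * (Z * B) ^ s * Z * q d * r * q c)‖ ^ 2 +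
        2 * (L ^ 2 * ‖Q.ev (e d * r * q c)‖ ^ 2)) +
          1 / (2 * l) * (L ^ 2 * ‖Q.ev (v c d)‖ ^ 2)) := by
    intro c
    have h2 : ‖Δ (Y c)‖ ^ 2 = (⟪Δ (D * r * q c), Δ (Y c)⟫_ℂ).re +
        ∑ d, ((⟪Δ (u c d), Δ (w c d)⟫_ℂ).re + (⟪Δ (u c d), Δ (v c d)⟫_ℂ).re) := by
      have h3 : ‖Δ (Y c)‖ ^ 2 = (⟪Δ (D * r * q c + ∑ d, u c d), Δ (Y c)⟫_ℂ).re := by
        rw [← hYu c]
        exact (inner_self_eq_norm_sq (𝕜 := ℂ) _).symm
      rw [h3, map_add, map_sum, inner_add_left, sum_inner, Complex.add_re, Complex.re_sum]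
      congr 1
      refine sum_congr rfl fun d _ => ?_
      rw [hYv c d, map_add, inner_add_right, Complex.add_re]
    have h3 := returns_amgm (Δ (D * r * q c)) (Δ (Y c)) one_pos
    have h4 := nl_sq Q hΔ (D * r * q c)
    have h5 : ∑ d, (⟪Δ (u c d), Δ (v c d)⟫_ℂ).re ≤
        ∑ d, (l / 2 * (2 * ‖Δ (X * (Z * B) ^ s * Z * q d * r * q c)‖ ^ 2 +
          2 * (L ^ 2 * ‖Q.ev (e d * r * q c)‖ ^ 2)) +
            1 / (2 * l) * (L ^ 2 * ‖Q.ev (v c d)‖ ^ 2)) := by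
      refine sum_le_sum fun d _ => (returns_amgm _ _ hl).trans ?_
      have h6 : ‖Δ (u c d)‖ ^ 2 ≤ 2 * ‖Δ (X * (Z * B) ^ s * Z * q d * r * q c)‖ ^ 2 +
          2 * (L ^ 2 * ‖Q.ev (e d * r * q c)‖ ^ 2) := by
        rw [hue, map_sub, sub_eq_add_neg]
        refine (Dec.norm_add_sq_le _ _).trans ?_
        rw [norm_neg]
        linarith [nl_sq Q hΔ (e d * r * q c)]
      gcongr
      exact nl_sq Q hΔ _
    rw [sum_add_distrib] at h2
    linarith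
  have h2 := sum_le_sum fun c (_ : c ∈ univ) => h1 c
  simp only [sum_add_distrib, ← mul_sum] at h2
  have h3 := returns_one Q hq hX hZ hB hh hc s
  have h4 := nl1_b Q hq hr D
  have h5 := nl1_c Q hq hX hZ hB hU (s + 1)
  have h6 : ∑ c, ∑ d, ‖Q.ev (e d * r * q c)‖ ^ 2 ≤
      16 * (16 * s * ∑ i ∈ range s, ret Q q (B * (Z * B) ^ i)) := by
    rw [sum_comm]
    refine (sum_le_sum fun d _ => nl1_b Q hq hr (e d)).trans ?_
    rw [← mul_sum]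
    exact mul_le_mul_of_nonneg_left (nl1_a Q hq hX hZ hB hh hc s) (by norm_num)
  change ∑ c, ‖Δ (Y c)‖ ^ 2 ≤ 2 * ∑ c, ∑ d, (⟪Δ (u c d), Δ (w c d)⟫_ℂ).re + _ + _
  change ∑ c, ∑ d, ‖Q.ev (v c d)‖ ^ 2 ≤ _ at h5
  change ‖Q.ev D‖ ^ 2 ≤ _ at h3
  have hL : 0 ≤ L ^ 2 := sq_nonneg L
  have h7 := mul_le_mul_of_nonneg_left (h4.trans (mul_le_mul_of_nonneg_left h3 (by norm_num))) hL
  have h8 := mul_le_mul_of_nonneg_left (mul_le_mul_of_nonneg_left h5 hL)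
    (by positivity : 0 ≤ 1 / (2 * l))
  have h9 := mul_le_mul_of_nonneg_left (mul_le_mul_of_nonneg_left h6 hL) hl.le
  have h10 := mul_le_mul_of_nonneg_left hδ hl.le
  have h11 : L ^ 2 * ((s : ℝ) + 1) ^ 2 * ‖Q.ev 1‖ ^ 2 / l =
      2 * (1 / (2 * l) * (L ^ 2 * (((s + 1 : ℕ) : ℝ) ^ 2 * ‖Q.ev 1‖ ^ 2))) := by
    push_cast
    field_simp
  rw [h11]
  linarith

end

omit [StarRing R] [StarModule ℂ R] in
theorem nl1_zero {G : Type*} [Fintype G] {γ : G → R} (hγ : ∑ x, γ x = 0) (Δ : R →ₗ[ℂ] E)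
    (a b : R) (w : E) : av (fun x => (⟪Δ (a * γ x * b), w⟫_ℂ).re) = 0 := by
  unfold av
  rw [← Complex.re_sum, ← sum_inner, ← map_sum, ← sum_mul, ← mul_sum, hγ]
  simp

theorem nl1 (Q : QT R E) (j : ℕ) {L ε : ℝ} (hL : 0 ≤ L) (hε : 0 < ε) :
    ∃ δ : ℝ, 0 < δ ∧ ∃ m₀ : ℕ, ∀ m : ℕ, m₀ ≤ m → ∀ q : Fin m → R, Cells q → ∀ r X U : R,
      Flat q r → X ∈ unitary R → U ∈ unitary R → ∀ Δ : R →ₗ[ℂ] E,
      (∀ a, ‖Δ a‖ ≤ L * ‖Q.ev a‖) →
      (∀ W ∈ unitary R, ∑ c, ∑ d, ‖Δ (W * q d * r * q c)‖ ^ 2 ≤ δ) →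
      av (fun g : (Fin m → Bool) × (Fin m → Bool) =>
        ∑ c, ‖Δ (U * (wd q X r g ^ j * (X * Zc q (sg R) g.1 * r)) * q c)‖ ^ 2) ≤ ε := by
  choose K hK0 hK using returns Q Bool
  obtain ⟨l, hl, hl1⟩ : ∃ l : ℝ, 0 < l ∧ L ^ 2 * (j + 1) ^ 2 * ‖Q.ev 1‖ ^ 2 / l ≤ ε / 3 := by
    refine ⟨(L ^ 2 * (j + 1) ^ 2 * ‖Q.ev 1‖ ^ 2 + 1) / (ε / 3), by positivity, ?_⟩
    rw [div_le_iff₀ (by positivity), mul_div_cancel₀ _ (by positivity)]
    linarith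
  obtain ⟨m₀, hm₀⟩ := Core.param' (c := (4096 + 512 * l) * L ^ 2 * j * ∑ i ∈ range j, 4 * K i)
    (η := ε / 3) (by positivity)
  refine ⟨ε / (6 * l), by positivity, m₀ + 1, ?_⟩
  intro m hm q hq r X U hr hX hU Δ hΔ hδ
  have hm0 : 0 < m := by omega
  have h₁ := sg_fam q
  have hs : (fun x => star (sg R x)) = sg R := funext sg_star
  have hpt : ∀ g : (Fin m → Bool) × (Fin m → Bool),
      ∑ c, ‖Δ (U * (wd q X r g ^ j * (X * Zc q (sg R) g.1 * r)) * q c)‖ ^ 2 ≤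
      2 * ∑ c, ∑ d, (⟪Δ (U * X * (Zc q (sg R) g.1 * (1 - q d) * (r * Zc q (sg R) g.2 * X)) ^ j *
          sg R (g.1 d) * (q d * r * q c)),
        Δ (U * X * (Zc q (sg R) g.1 * (1 - q d) * (r * Zc q (sg R) g.2 * X)) ^ j *
          (Zc q (sg R) g.1 * (1 - q d)) * r * q c)⟫_ℂ).re +
      (4096 + 512 * l) * L ^ 2 * j * ∑ i ∈ range j, 4 * ret Q q
        ((star X * Zc q (sg R) g.2 * star r * Zc q (sg R) g.1) ^ i *
          (star X * Zc q (sg R) g.2 * star r)) + (ε / 3 + ε / 3) := by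
    intro g
    have hZ₁ := Zc_unitary hq h₁ g.1
    have hZ₂ := Zc_unitary hq h₁ g.2
    have hB := mul_mem (mul_mem hr.uni hZ₂) hX
    have h1 := nl1_point Q hq (X := U * X) (Z := Zc q (sg R) g.1) (B := r * Zc q (sg R) g.2 * X)
      (U := star X * star (Zc q (sg R) g.2)) (Q.ctr_unitary (mul_mem hU hX)) (Q.ctr_unitary hZ₁)
      (Q.ctr_unitary hB)
      ((Q.ctr_unitary hX).star.mul (Q.ctr_unitary hZ₂).star) hr.uni (by
        rw [mul_assoc, ← mul_assoc X, Unitary.mul_star_self_of_mem hX, one_mul, mul_assoc,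
          Unitary.mul_star_self_of_mem hZ₂, mul_one])
      (h := fun d => sg R (g.1 d)) (fun d => Q.ctr_unitary (h₁.uni _)) (fun d => h₁.comm _ _)
      (fun d => by rw [Zc_mul_q hq h₁, h₁.comm]) j hl hΔ
      (hδ _ (mul_mem (mul_mem (mul_mem hU hX) (pow_mem (mul_mem hZ₁ hB) j)) hZ₁))
    have h2 : U * (wd q X r g ^ j * (X * Zc q (sg R) g.1 * r)) =
        U * X * (Zc q (sg R) g.1 * (r * Zc q (sg R) g.2 * X)) ^ j * Zc q (sg R) g.1 * r := by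
      have h3 := mul_pow_mul X (Zc q (sg R) g.1 * (r * Zc q (sg R) g.2)) j
      simp only [wd, mul_assoc] at h3 ⊢
      rw [← mul_assoc _ X, h3, mul_assoc]
    rw [h2]
    refine h1.trans ?_
    have h4 : 2 * l * (ε / (6 * l)) = ε / 3 := by field_simp; ring
    rw [h4]
    gcongr with i
    have h3 := Q.ret_star_le hq
      (star (r * Zc q (sg R) g.2 * X * (Zc q (sg R) g.1 * (r * Zc q (sg R) g.2 * X)) ^ i))
    rw [star_star] at h3
    refine h3.trans (le_of_eq ?_)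
    simp only [star_mul, star_pow, Zc_star hq h₁, hs, mul_assoc]
  refine (av_le_av hpt).trans ?_
  rw [av_add, av_add, av_const, av_mul_left, av_mul_left, av_sum, av_sum]
  have h0 : ∀ c, av (fun g : (Fin m → Bool) × (Fin m → Bool) => ∑ d,
      (⟪Δ (U * X * (Zc q (sg R) g.1 * (1 - q d) * (r * Zc q (sg R) g.2 * X)) ^ j *
          sg R (g.1 d) * (q d * r * q c)),
        Δ (U * X * (Zc q (sg R) g.1 * (1 - q d) * (r * Zc q (sg R) g.2 * X)) ^ j *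
          (Zc q (sg R) g.1 * (1 - q d)) * r * q c)⟫_ℂ).re) = 0 := by
    intro c
    rw [av_sum]
    refine sum_eq_zero fun d _ => ?_
    rw [av_prod']
    refine (congrArg av (funext fun g₂ => ?_)).trans (av_const 0)
    rw [av_update d]
    refine (congrArg av (funext fun g₁ => ?_)).trans (av_const 0)
    simp only [Zc_update hq h₁, Function.update_self]
    exact nl1_zero h₁.sum Δ _ _ _
  rw [sum_eq_zero fun c _ => h0 c, mul_zero, zero_add]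
  have h5 := hm₀ m (by omega)
  rw [mul_div_assoc, sum_div] at h5
  have h6 : ∑ i ∈ range j, av (fun g : (Fin m → Bool) × (Fin m → Bool) => 4 * ret Q q
      ((star X * Zc q (sg R) g.2 * star r * Zc q (sg R) g.1) ^ i *
        (star X * Zc q (sg R) g.2 * star r))) ≤ ∑ i ∈ range j, 4 * K i / Real.sqrt m := by
    refine sum_le_sum fun i _ => ?_
    rw [av_mul_left, mul_div_assoc]
    gcongr
    have h1 := hK i m hm0 q hq _ _ h₁ h₁ _ _ hr.star (Unitary.star_mem hX)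
    rw [← av_equiv (Equiv.prodComm _ _)] at h1
    exact h1
  have h7 := mul_le_mul_of_nonneg_left h6
    (by positivity : 0 ≤ (4096 + 512 * l) * L ^ 2 * (j : ℝ))
  linarith

end Vale.Agent.KR
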