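import Vale.Agent.KR.MpBasic

/-!
# Finite type I (notes, section 3)
As in `typeI_core` (`P104/TypeI.lean`): `covering` gives `z, v i`; `typeI_shrink` with `typeI_split` (`typeI_comm`) gives `0 ≠ e ≤ p z` with
`v i e = 0` or `(v i)* v i e = e`; `z' = csupp e`, `p z' = e` (`Abel`), `I' = {i | v i e ≠ 0}`, `ε i j = v i e (v j)*`, `∑ ε i i = z'`.
`twirl_mod` gives `ψ`. Fix `i₀`. A projection `g ≤ ε i₀ i₀` is `c ε i₀ i₀` with `c = csupp (v* g v)` central, so `ψ (g x) = g ψ x` by `central_mod`.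
`binary` with `L b = ± re / im <η, (ψ (b x) - b ψ x) ξ>` needs a functional on all operators: extend `b ↦ <η, ψ (b x) ξ>` from `M` by Hahn-Banach
(`exists_extension_norm_eq`), or reprove `binary` for functionals on `M`. Then every `b ∈ ε i₀ i₀ M ε i₀ i₀` is a combination of positive ones, and
`z' a = ∑ ε i i₀ (ε i₀ i a ε j i₀) ε i₀ j`.
-/

namespace Vale.Agent.KR

open Vale.Agent.P104 Finset
open scoped InnerProductSpace

variable {H : Type*} [NormedAddCommGroup H] [InnerProductSpace ℂ H] [CompleteSpace H]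
  {M : VonNeumannAlgebra H}

theorem typeI_key {V : Type*} [NormedAddCommGroup V] [NormedSpace ℂ V] (D : M →ₗ[ℂ] V) {C : ℝ}
    (hC0 : 0 ≤ C) (hC : ∀ b, ‖D b‖ ≤ C * ‖b‖) {q : H →L[ℂ] H}
    (hD : ∀ g : M, IsStarProjection (g : H →L[ℂ] H) → q * g = g → D g = 0) (n : ℕ) :
    ∀ (b : H →L[ℂ] H) (hb : b ∈ M), IsSelfAdjoint b → (∀ ξ, 0 ≤ qf b ξ) →
      (∀ ξ, qf b ξ ≤ ‖ξ‖ ^ 2) → q * b = b → ‖D ⟨b, hb⟩‖ ≤ C * (1 / 2) ^ n := by
  induction n with
  | zero =>
    intro b hb hsa h0 h1 _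
    have h2 : ‖b‖ ≤ 1 := norm_le_of_qf hsa zero_le_one fun ξ => by
      rw [abs_of_nonneg (h0 ξ), one_mul]; exact h1 ξ
    rw [pow_zero]
    exact (hC ⟨b, hb⟩).trans (mul_le_mul_of_nonneg_left h2 hC0)
  | succ n ih =>
    intro b hb hsa h0 h1 hpb
    obtain ⟨e, heM, he, heb, h2, h3, h4⟩ := cut M hb hsa (1 / 2)
    have hpe : q * e = e := by
      have := h4 (by norm_num) (1 - q) (by rw [sub_mul, one_mul, hpb, sub_self])
      rw [sub_mul, one_mul, sub_eq_zero] at this
      exact this.symm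
    have hq : ∀ ξ, qf ((2 : ℝ) • b - e) ξ =
        2 * (qf b (e ξ) + qf b (ξ - e ξ)) - ‖e ξ‖ ^ 2 := by
      intro ξ
      rw [qf_sub, qf_rsmul, polar_qf_proj he, ← polar_split he heb]
    have h5 := ih ((2 : ℝ) • b - e) (sub_mem (vn_rsmul_mem _ hb) heM)
      (((IsSelfAdjoint.all (2 : ℝ)).smul hsa).sub he.isSelfAdjoint)
      (fun ξ => by rw [hq]; linarith [h2 ξ, h0 (ξ - e ξ)])
      (fun ξ => by rw [hq, polar_pyth he ξ]; linarith [h3 ξ, h1 (e ξ)])
      (by rw [mul_sub, mul_smul_comm, hpb, hpe])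
    have h6 : (⟨(2 : ℝ) • b - e, sub_mem (vn_rsmul_mem _ hb) heM⟩ : M) =
        (2 : ℂ) • ⟨b, hb⟩ - ⟨e, heM⟩ := Subtype.ext (by
      change (2 : ℝ) • b - e = (2 : ℂ) • b - e
      rw [two_smul, two_smul])
    rw [h6, map_sub, hD ⟨e, heM⟩ he hpe, sub_zero, map_smul, norm_smul, Complex.norm_ofNat] at h5
    rw [pow_succ]
    linarith

/-- A bounded linear map which kills the projections of a corner kills the corner. -/
theorem typeI_zero {V : Type*} [NormedAddCommGroup V] [NormedSpace ℂ V] (D : M →ₗ[ℂ] V) {C : ℝ}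
    (hC0 : 0 ≤ C) (hC : ∀ b, ‖D b‖ ≤ C * ‖b‖) {q : H →L[ℂ] H} (hq : IsStarProjection q)
    (hqM : q ∈ M) (hD : ∀ g : M, IsStarProjection (g : H →L[ℂ] H) → q * g = g → D g = 0)
    (b : M) (h1 : q * b = b) (h2 : b * q = b) : D b = 0 := by
  have key : ∀ (b : H →L[ℂ] H) (hb : b ∈ M), IsSelfAdjoint b → (∀ ξ, 0 ≤ qf b ξ) →
      (∀ ξ, qf b ξ ≤ ‖ξ‖ ^ 2) → q * b = b → D ⟨b, hb⟩ = 0 := by
    intro b hb hsa h0 h1 hpb
    have h2 : Filter.Tendsto (fun n : ℕ => C * (1 / 2 : ℝ) ^ n) Filter.atTop (nhds (C * 0)) :=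
      (tendsto_pow_atTop_nhds_zero_of_lt_one (by norm_num) (by norm_num)).const_mul _
    rw [mul_zero] at h2
    exact norm_le_zero_iff.1
      (ge_of_tendsto' h2 fun n => typeI_key D hC0 hC hD n b hb hsa h0 h1 hpb)
  have sa : ∀ b : M, IsSelfAdjoint (b : H →L[ℂ] H) → q * b = b → D b = 0 := by
    rintro ⟨b, hb⟩ hsa hpb
    change IsSelfAdjoint b at hsa
    change q * b = b at hpb
    have hbq : b * q = b := by
      have := congrArg star hpb
      rwa [star_mul, hsa.star_eq, hq.isSelfAdjoint.star_eq] at this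
    have hc : 0 < 2 * ‖b‖ + 1 := by positivity
    have hqf : ∀ ξ, qf b ξ = qf b (q ξ) := fun ξ => by
      rw [← qf_conj, hq.isSelfAdjoint.star_eq, hpb, hbq]
    have hM : (2 * ‖b‖ + 1)⁻¹ • (b + ‖b‖ • q) ∈ M :=
      vn_rsmul_mem _ (add_mem hb (vn_rsmul_mem _ hqM))
    have h3 := key _ hM
      ((IsSelfAdjoint.all _).smul (hsa.add ((IsSelfAdjoint.all _).smul hq.isSelfAdjoint)))
      (fun ξ => by
        rw [qf_rsmul, qf_add, qf_rsmul, polar_qf_proj hq, hqf]
        refine mul_nonneg (inv_nonneg.2 hc.le) ?_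
        have := (neg_le_abs _).trans (abs_qf_le b (q ξ))
        linarith)
      (fun ξ => by
        rw [qf_rsmul, inv_mul_le_iff₀ hc, qf_add, qf_rsmul, polar_qf_proj hq]
        have h4 := (le_abs_self _).trans (abs_qf_le b ξ)
        have h5 := polar_pyth hq ξ
        have h6 : ‖b‖ * ‖q ξ‖ ^ 2 ≤ ‖b‖ * ‖ξ‖ ^ 2 :=
          mul_le_mul_of_nonneg_left (by nlinarith [sq_nonneg ‖ξ - q ξ‖]) (norm_nonneg _)
        nlinarith [sq_nonneg ‖ξ‖])
      (by rw [mul_smul_comm, mul_add, hpb, mul_smul_comm, hq.isIdempotentElem.eq])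
    have h7 : (⟨_, hM⟩ : M) = (((2 * ‖b‖ + 1)⁻¹ : ℝ) : ℂ) •
        ((⟨b, hb⟩ : M) + ((‖b‖ : ℝ) : ℂ) • (⟨q, hqM⟩ : M)) := rfl
    rw [h7, map_smul, map_add, map_smul, hD ⟨q, hqM⟩ hq hq.isIdempotentElem.eq, smul_zero,
      add_zero, smul_eq_zero] at h3
    exact h3.resolve_left (by exact_mod_cast (inv_pos.2 hc).ne')
  have h3 : q * star (b : H →L[ℂ] H) = star (b : H →L[ℂ] H) := by
    have := congrArg star h2
    rwa [star_mul, hq.isSelfAdjoint.star_eq] at this
  have h4 := sa (b + star b) (IsSelfAdjoint.add_star_self (b : H →L[ℂ] H))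
    (by change q * ((b : H →L[ℂ] H) + star (b : H →L[ℂ] H)) = b + star (b : H →L[ℂ] H)
        rw [mul_add, h1, h3])
  have h5 := sa (Complex.I • (b - star b))
    (by change IsSelfAdjoint (Complex.I • ((b : H →L[ℂ] H) - star (b : H →L[ℂ] H)))
        rw [IsSelfAdjoint, star_smul, star_sub, star_star, Complex.star_def, Complex.conj_I,
          neg_smul, ← smul_neg, neg_sub])
    (by change q * (Complex.I • ((b : H →L[ℂ] H) - star (b : H →L[ℂ] H))) =
          Complex.I • ((b : H →L[ℂ] H) - star (b : H →L[ℂ] H))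
        rw [mul_smul_comm, mul_sub, h1, h3])
  rw [map_smul, smul_eq_zero, map_sub] at h5
  rw [map_add] at h4
  have h6 := h5.resolve_left Complex.I_ne_zero
  have h7 : (2 : ℂ) • D b = 0 := by
    rw [two_smul]
    nth_rewrite 2 [sub_eq_zero.1 h6]
    exact h4
  exact (smul_eq_zero.1 h7).resolve_left two_ne_zero

theorem typeI_csupp {p e : H →L[ℂ] H} (hp : IsStarProjection p) (hab : Abel M p)
    (he : IsStarProjection e) (heM : e ∈ M) (hpe : p * e = e) :
    ∃ w, CProj M w ∧ w * e = e ∧ p * w = e ∧ ∀ z, CProj M z → z * e = e → z * w = w := by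
  obtain ⟨w, hw, hwe, hwmin⟩ := csupp M heM
  refine ⟨w, hw, hwe, ?_, fun z hz hze => ?_⟩
  · have := hwmin (p - e) fun x hx => by
      have h := congrArg star (hab e heM he hpe _ (star_mem hx))
      simpa only [star_mul, star_sub, star_star, star_zero, hp.isSelfAdjoint.star_eq,
        he.isSelfAdjoint.star_eq, ← mul_assoc] using h
    rw [sub_mul, sub_eq_zero] at this
    rw [this, ← hw.comm heM, hwe]
  · have := hwmin (1 - z) fun x hx => by
      rw [hz.one_sub.comm hx, mul_assoc, sub_mul, one_mul, hze, sub_self, mul_zero]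
    rw [sub_mul, one_mul, sub_eq_zero] at this
    exact this.symm

/-- Modularity for the corner of an abelian projection. -/
theorem typeI_corner {K : ℝ} {KK : Set (Mp M)} (hK : Minl (act (∅ : Set M)) KK)
    (hB : KK ⊆ Ball M K) {p : H →L[ℂ] H} (hp : IsStarProjection p) (hab : Abel M p) {e v : M}
    (he : IsStarProjection (e : H →L[ℂ] H)) (hpe : p * e = e) {ψ : Mp M} (hψ : ψ ∈ KK)
    (hv : ∀ x, ψ (v * e * star v * x) = v * e * star v * ψ x) (b x : M) :
    ψ (v * (e * b * e) * star v * x) = v * (e * b * e) * star v * ψ x := by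
  let D : M →ₗ[ℂ] M :=
    { toFun := fun b => ψ (v * b * star v * x) - v * b * star v * ψ x
      map_add' := fun b c => by simp only [mul_add, add_mul, map_add]; abel
      map_smul' := fun c b => by
        simp only [mul_smul_comm, smul_mul_assoc, map_smul, RingHom.id_apply, smul_sub] }
  have hD : ∀ b, D b = ψ (v * b * star v * x) - v * b * star v * ψ x := fun _ => rfl
  have ee : e * e = e := Subtype.ext he.isIdempotentElem.eq
  have h := typeI_zero D (C := |K| * (‖v‖ * ‖star v‖ * ‖x‖) + ‖v‖ * ‖star v‖ * ‖ψ x‖)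
    (by positivity) (fun b => ?_) he e.2 (fun g hg heg => ?_) (e * b * e)
    (congrArg Subtype.val (show e * (e * b * e) = e * b * e by rw [← mul_assoc, ← mul_assoc, ee]))
    (congrArg Subtype.val (show e * b * e * e = e * b * e by rw [mul_assoc, ee]))
  · exact sub_eq_zero.1 h
  · have h1 : ∀ y : M, ‖v * b * star v * y‖ ≤ ‖v‖ * ‖star v‖ * ‖y‖ * ‖b‖ := fun y => by
      refine (norm_mul_le _ _).trans ?_
      have := mul_le_mul_of_nonneg_right (norm_mul₃_le (a := v) (b := b) (c := star v))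
        (norm_nonneg y)
      linarith
    have h2 := hB hψ (v * b * star v * x)
    have h3 := mul_le_mul_of_nonneg_right (le_abs_self K) (norm_nonneg (v * b * star v * x))
    have h4 := mul_le_mul_of_nonneg_left (h1 x) (abs_nonneg K)
    have h5 := h1 (ψ x)
    have h6 := norm_sub_le (ψ (v * b * star v * x)) (v * b * star v * ψ x)
    rw [hD]
    linarith
  · obtain ⟨c, hc, hcg, hpc, -⟩ := typeI_csupp hp hab hg g.2 (by rw [← heg, ← mul_assoc, hpe])
    have hep : (e : H →L[ℂ] H) * p = e := by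
      have := congrArg star hpe
      rwa [star_mul, hp.isSelfAdjoint.star_eq, he.isSelfAdjoint.star_eq] at this
    have h1 : v * g * star v = ⟨c, hc.mem⟩ * (v * e * star v) := Subtype.ext (by
      change (v : H →L[ℂ] H) * g * star (v : H →L[ℂ] H) = c * (v * e * star (v : H →L[ℂ] H))
      rw [← mul_assoc, hc.comm (mul_mem v.2 e.2), ← heg, ← hpc, ← mul_assoc (e : H →L[ℂ] H), hep]
      simp only [mul_assoc])
    rw [hD, h1, mul_assoc, central_mod hK (z := ⟨c, hc.mem⟩) hc ψ hψ, hv, ← mul_assoc, sub_self]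

theorem typeI {K : ℝ} {KK : Set (Mp M)} (hK : Minl (act (∅ : Set M)) KK) (hB : KK ⊆ Ball M K)
    {z₀ p : H →L[ℂ] H} (hz₀ : CProj M z₀) (hN : NoPI M z₀) (hp : IsStarProjection p) (hpM : p ∈ M)
    (hp0 : p ≠ 0) (hpz : z₀ * p = p) (hab : Abel M p) :
    ∃ z', CProj M z' ∧ z' ≠ 0 ∧ z₀ * z' = z' ∧ ∃ ψ ∈ KK, ModOn z' ψ := by
  classical
  obtain ⟨z, hz, hzz, hpz0, k, v, vM, vP, vp, vo, vs⟩ := covering M hz₀ hN hp hpM hp0 hpz
  have vp' : ∀ i, p * star (v i) = star (v i) := fun i => by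
    have := congrArg star (vp i)
    rwa [star_mul, hp.isSelfAdjoint.star_eq] at this
  obtain ⟨e, m1, p1, n1, l1, h1⟩ := typeI_shrink (M := M) (p := p)
    (fun i e => v i * e = 0 ∨ star (v i) * v i * e = e)
    (by
      rintro i e e' (h | h) _ hee
      · left; rw [← hee, ← mul_assoc, h, zero_mul]
      · right; rw [← hee, ← mul_assoc, h])
    (fun i e heM he he0 hpe => typeI_split he heM he0 (vP i) (vM i)
      (typeI_comm hp hab he heM hpe (mul_mem (star_mem (vM i)) (vM i))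
        (by rw [← mul_assoc, vp']) (by rw [mul_assoc, vp])))
    (mul_mem hpM hz.mem) (hp.mul hz.proj (hz.comm hpM).symm) hpz0
    (by rw [← mul_assoc, hp.isIdempotentElem.eq])
  have hpe : p * e = e := by rw [← l1, ← mul_assoc, ← mul_assoc, hp.isIdempotentElem.eq]
  have hze : z * e = e := by
    rw [← l1, ← hz.comm hpM, ← mul_assoc, ← mul_assoc, hz.proj.isIdempotentElem.eq]
  have h3 : ∀ i, v i * e ≠ 0 → star (v i) * v i * e = e := fun i hi => (h1 i).resolve_left hi
  obtain ⟨w, hw, hwe, hpw, hwm⟩ := typeI_csupp hp hab p1 m1 hpe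
  have hzw : z * w = w := hwm z hz hze
  let E : M := ⟨e, m1⟩
  let V : Fin k → M := fun i => ⟨v i, vM i⟩
  let W : M := ⟨w, hw.mem⟩
  have EE : E * E = E := Subtype.ext p1.isIdempotentElem.eq
  have Es : star E = E := Subtype.ext p1.isSelfAdjoint.star_eq
  let ε : {i // v i * e ≠ 0} → {i // v i * e ≠ 0} → M := fun i j => V i * E * star (V j)
  have hε : MUnits ε := by
    constructor
    · intro a b
      simp only [ε, star_mul, star_star, Es, mul_assoc]
    · intro a b c d
      have : ε a b * ε c d = V a * E * (star (V b) * V c * E) * star (V d) := by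
        simp only [ε, mul_assoc]
      rw [this]
      split_ifs with h
      · subst h
        have h4 : star (V b) * V b * E = E := Subtype.ext (h3 b b.2)
        rw [h4, mul_assoc _ E E, EE]
      · have h4 : star (V b) * V c = 0 := Subtype.ext (vo b c fun h' => h (Subtype.ext h'))
        rw [h4, zero_mul, mul_zero, zero_mul]
  have hsum : ∑ a, ε a a = W := by
    apply Subtype.ext
    rw [AddSubmonoidClass.coe_finsetSum]
    change ∑ a : {i // v i * e ≠ 0}, v a * e * star (v a) = w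
    have h4 : ∑ a : {i // v i * e ≠ 0}, v a * e * star (v a) = ∑ i, v i * e * star (v i) := by
      rw [← Finset.sum_subtype (Finset.univ.filter fun i => v i * e ≠ 0) (by simp)
        fun i => v i * e * star (v i)]
      refine Finset.sum_filter_of_ne fun i _ h h' => h ?_
      rw [h', zero_mul]
    rw [h4, ← hzw, ← vs, Finset.sum_mul]
    refine Finset.sum_congr rfl fun i _ => ?_
    rw [← hpw, ← mul_assoc, vp, mul_assoc, hw.comm (star_mem (vM i)), mul_assoc]
  obtain ⟨ψ, hψ, hmod⟩ := twirl_mod hK.toInv hε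
  refine ⟨w, hw, fun h0 => n1 (by rw [← hwe, h0, zero_mul]),
    by rw [← hzw, ← mul_assoc, hzz], ψ, hψ, fun a x => ?_⟩
  have h5 : W * a = ∑ i : {i // v i * e ≠ 0}, ∑ j : {i // v i * e ≠ 0},
      V i * (E * (star (V i) * a * V j) * E) * star (V i) * ε i j := by
    have h6 : W * a = W * a * W := Subtype.ext (by
      change w * a = w * a * w
      rw [hw.comm a.2, mul_assoc, hw.proj.isIdempotentElem.eq])
    rw [h6, ← hsum, sum_mul, sum_mul]
    refine sum_congr rfl fun i _ => ?_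
    rw [mul_sum]
    refine sum_congr rfl fun j _ => ?_
    have h7 : ε j j = ε j i * ε i j := by rw [hε.mul, if_pos rfl]
    rw [h7]
    simp only [ε, mul_assoc]
  have h8 : W * ψ (a * x) = W * (a * ψ x) := by
    rw [← central_mod hK (z := W) hw ψ hψ, ← mul_assoc, ← mul_assoc, h5]
    simp only [sum_mul, map_sum]
    refine sum_congr rfl fun i _ => sum_congr rfl fun j _ => ?_
    rw [mul_assoc _ (ε i j), typeI_corner hK hB hp hab (e := E) (v := V i) p1 hpe hψ (hmod i i),
      hmod, ← mul_assoc]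
  exact congrArg Subtype.val h8

end Vale.Agent.KR
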