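import Vale.Agent.KR.CoreII
import Vale.Agent.KR.Corner
import Vale.Agent.KR.TypeI

/-!
# The main averaging theorem
* `exists_trD`: `ev y = (y Ξ i)` in `PiLp 2` (compare `Core.exists_QT` in `P104/CoreII.lean`); `dom`: `y η = ∑ s i (y Ξ i) + y (η - ∑ s i Ξ i)`.
* `typeII`: as `typeII_good`, `typeII_aux` in `P104/Restrict.lean`: `H₀ = range z`, `i`, `M₀ = rstAlg i M`, `π : Mp M →L[ℝ] Mp M₀`, `π ψ y = rstC i (ψ (rstE i y))`. For a unitary `u₀` of `M₀`,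
  `u = rstE i u₀ + (1 - z)` is a unitary of `M` and `tau u₀ (π ψ) = π (tau u ψ)`. `Inv.image`, `coreII`, and `central_mod`.
* `rho`: take `KK'` minimal. Under every nonzero central `z₀` there is a nonzero central `z'` with `ModOn z'` (if `z₀ zP ≠ 0` use `cbcase` for `z₀ zP`; otherwise `NoPI M z₀`, and argue as in
  `main_bound`, `P104/MainB.lean`); `modOn_all`. `w = projOn (⋃ ranges of good z')` is central (`projOn_comm` for `M` and `M'`), `1 - w = 0`, and `D* w = 0` for `D = ψ (a x) - a ψ x`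
  (`mul_projOn_eq_zero`).
-/

namespace Vale.Agent.KR

open Vale.Agent.P104 Finset
open scoped InnerProductSpace

variable {H : Type*} [NormedAddCommGroup H] [InnerProductSpace ℂ H] [CompleteSpace H]
  {M : VonNeumannAlgebra H}

theorem exists_trD {k : ℕ} (Ξ : Fin k → H) (hΞ : QTr M Ξ)
    (hd : ∀ (η : H) (ε : ℝ), 0 < ε → ∃ s : Fin k → H →L[ℂ] H,
      (∀ i, s i ∈ M.commutant) ∧ ‖η - ∑ i, s i (Ξ i)‖ ≤ ε) :
    ∃ Q : QT M (PiLp 2 fun _ : Fin k => H), TrD M Q := by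
  let ev : M →ₗ[ℂ] (PiLp 2 fun _ : Fin k => H) :=
    { toFun := fun y => WithLp.toLp 2 fun i => (y : H →L[ℂ] H) (Ξ i)
      map_add' := fun y y' => by ext p; simp
      map_smul' := fun c y => by ext p; simp }
  have hn : ∀ y : M, ‖ev y‖ ^ 2 = ∑ i, ‖(y : H →L[ℂ] H) (Ξ i)‖ ^ 2 := fun y =>
    PiLp.norm_sq_eq_of_L2 _ _
  refine ⟨⟨ev, fun a b c => ?_, fun y => ?_⟩, ⟨k, Ξ, hn⟩, fun a b => ?_, fun x w => ?_,
    fun η ε hε => ?_⟩
  · simp only [PiLp.inner_apply]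
    refine sum_congr rfl fun p _ => ?_
    exact (inner_star_right (a : H →L[ℂ] H) _ _).symm
  · refine abs_le_of_sq_le_sq' ?_ (by positivity) |>.2
    rw [mul_pow, hn, hn]
    refine (hΞ _ y.2).trans (le_of_eq ?_)
    norm_num
  · refine abs_le_of_sq_le_sq' ?_ (by positivity) |>.2
    change ‖ev (a * b)‖ ^ 2 ≤ (‖a‖ * ‖ev b‖) ^ 2
    rw [mul_pow, hn, hn, mul_sum]
    refine sum_le_sum fun i _ => ?_
    rw [← mul_pow]
    exact pow_le_pow_left₀ (norm_nonneg _) ((a : H →L[ℂ] H).le_opNorm _) 2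
  · simp only [PiLp.inner_apply]
    exact continuous_finsetSum _ fun i _ => Mp.continuous_inner x (Ξ i) (w i)
  · obtain ⟨s, hs, hs'⟩ := hd η ε hε
    refine ⟨∑ i, ‖s i‖, by positivity, fun y => ?_⟩
    have e : (y : H →L[ℂ] H) η = ∑ i, s i ((y : H →L[ℂ] H) (Ξ i)) +
        (y : H →L[ℂ] H) (η - ∑ i, s i (Ξ i)) := by
      have e1 : ∀ i, s i ((y : H →L[ℂ] H) (Ξ i)) = (y : H →L[ℂ] H) (s i (Ξ i)) := fun i =>
        congrArg (fun Y : H →L[ℂ] H => Y (Ξ i)) (comm_of_mem (hs i) y.2)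
      simp only [e1, map_sub, map_sum, add_sub_cancel]
    rw [e]
    refine (norm_add_le _ _).trans (add_le_add ((norm_sum_le _ _).trans ?_) ?_)
    · rw [sum_mul]
      refine sum_le_sum fun i _ => ((s i).le_opNorm _).trans
        (mul_le_mul_of_nonneg_left ?_ (norm_nonneg _))
      exact PiLp.norm_apply_le (ev y) i
    · rw [mul_comm]
      exact ((y : H →L[ℂ] H).le_opNorm _).trans (mul_le_mul_of_nonneg_left hs' (norm_nonneg _))

section Rst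

variable {H₀ : Type*} [NormedAddCommGroup H₀] [InnerProductSpace ℂ H₀] [CompleteSpace H₀]
  {i : H₀ →L[ℂ] H} {z : H →L[ℂ] H}

theorem rho_C_E (h : RstIso i z) (y : H₀ →L[ℂ] H₀) : rstC i (rstE i y) = y := by
  ext ξ
  rw [rstC_apply, rstE_apply, h.left, h.left]

theorem rho_E_C (h : RstIso i z) {y : H →L[ℂ] H} (hy : z * y = y * z) :
    rstE i (rstC i y) = z * y := by
  ext η
  rw [rstE_apply, h.C_adj hy, h.right, mul_apply_eq_comp]

theorem rho_E_mul (h : RstIso i z) (x y : H₀ →L[ℂ] H₀) :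
    rstE i x * rstE i y = rstE i (x * y) := by
  ext η
  rw [mul_apply_eq_comp, rstE_apply, rstE_apply, rstE_apply, h.left, mul_apply_eq_comp]

theorem rho_E_one (h : RstIso i z) : rstE i 1 = z := by
  ext η
  exact h.right η

theorem rho_z_E (h : RstIso i z) (y : H₀ →L[ℂ] H₀) : (1 - z) * rstE i y = 0 := by
  rw [sub_mul, ← rho_E_one h, rho_E_mul h, one_mul, one_mul, sub_self]

theorem rho_E_z (h : RstIso i z) (y : H₀ →L[ℂ] H₀) : rstE i y * (1 - z) = 0 := by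
  rw [mul_sub, ← rho_E_one h, rho_E_mul h, mul_one, mul_one, sub_self]

theorem rho_C_add (x y : H →L[ℂ] H) : rstC i (x + y) = rstC i x + rstC i y := by
  ext ξ
  simp [rstC_apply]

theorem rho_C_compl (h : RstIso i z) : rstC i (1 - z) = 0 := by
  ext ξ
  simp [rstC_apply, h.z_i]

/-- Compression as a linear map to the reduced algebra. -/
noncomputable def rhoC (h : RstIso i z) (hz : CProj M z) : M →ₗ[ℂ] rstAlg i M where
  toFun y := ⟨rstC i y, h.C_mem hz y.2⟩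
  map_add' x y := Subtype.ext (rho_C_add _ _)
  map_smul' c y := Subtype.ext (by ext ξ; simp [rstC_apply])

/-- Extension by zero as a linear map from the reduced algebra. -/
noncomputable def rhoE (h : RstIso i z) (hz : CProj M z) : rstAlg i M →ₗ[ℂ] M where
  toFun y := ⟨rstE i y, h.E_mem hz y.2⟩
  map_add' x y := Subtype.ext (by ext ξ; simp [rstE_apply])
  map_smul' c y := Subtype.ext (by ext ξ; simp [rstE_apply])

/-- Compression of maps. -/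
noncomputable def rhoPi (h : RstIso i z) (hz : CProj M z) : Mp M →L[ℝ] Mp (rstAlg i M) where
  toFun ψ := (rhoC h hz ∘ₗ (ψ : M →ₗ[ℂ] M) ∘ₗ rhoE h hz :)
  map_add' _ _ := Mp.ext fun _ => map_add (rhoC h hz) _ _
  map_smul' r _ := Mp.ext fun _ => map_smul (rhoC h hz) (r : ℂ) _
  cont := Mp.continuous_iff.2 fun x ξ η =>
    (Mp.continuous_inner (rhoE h hz x) (i ξ) (i η)).congr fun _ =>
      (ContinuousLinearMap.adjoint_inner_right i η _).symm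

theorem rho_pi_apply (h : RstIso i z) (hz : CProj M z) (ψ : Mp M) (x : rstAlg i M) :
    (rhoPi h hz ψ x : H₀ →L[ℂ] H₀) = rstC i (ψ (rhoE h hz x)) := rfl

theorem rho_lift (h : RstIso i z) (hz : CProj M z) (u₀ : UG (∅ : Set (rstAlg i M))) :
    ∃ u : UG (∅ : Set M), ∀ ψ, act ∅ u₀ (rhoPi h hz ψ) = rhoPi h hz (act ∅ u ψ) := by
  obtain ⟨u₀, hu₀, hc⟩ := u₀
  have hp := hz.one_sub.proj
  have h1 : star (u₀ : H₀ →L[ℂ] H₀) * u₀ = 1 := congrArg Subtype.val (Unitary.mem_iff.1 hu₀).1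
  have h2 : (u₀ : H₀ →L[ℂ] H₀) * star (u₀ : H₀ →L[ℂ] H₀) = 1 :=
    congrArg Subtype.val (Unitary.mem_iff.1 hu₀).2
  let u : M := ⟨rstE i u₀ + (1 - z), add_mem (h.E_mem hz u₀.2) hz.one_sub.mem⟩
  have hs : star (u : H →L[ℂ] H) = rstE i (star (u₀ : H₀ →L[ℂ] H₀)) + (1 - z) := by
    change star (rstE i u₀ + (1 - z)) = _
    rw [star_add, rstE_star, hp.isSelfAdjoint.star_eq]
  have hm : ∀ x y : H₀ →L[ℂ] H₀, x * y = 1 →
      (rstE i x + (1 - z)) * (rstE i y + (1 - z)) = 1 := fun x y hxy => by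
    rw [add_mul, mul_add, mul_add, rho_E_mul h, hxy, rho_E_one h, rho_E_z h, rho_z_E h,
      hp.isIdempotentElem.eq]
    abel
  refine ⟨⟨u, Unitary.mem_iff.2 ⟨Subtype.ext ?_, Subtype.ext ?_⟩, fun _ h => h.elim⟩,
    fun ψ => Mp.ext fun x => Subtype.ext ?_⟩
  · change star (u : H →L[ℂ] H) * u = 1
    rw [hs]
    exact hm _ _ h1
  · change (u : H →L[ℂ] H) * star (u : H →L[ℂ] H) = 1
    rw [hs]
    exact hm _ _ h2
  · have h3 : u * rhoE h hz x = rhoE h hz (u₀ * x) := Subtype.ext (by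
      change (rstE i u₀ + (1 - z)) * rstE i x = rstE i (u₀ * x)
      rw [add_mul, rho_E_mul h, rho_z_E h, add_zero])
    change star (u₀ : H₀ →L[ℂ] H₀) * rstC i (ψ (rhoE h hz (u₀ * x))) =
      rstC i (star (u : H →L[ℂ] H) * ψ (u * rhoE h hz x))
    rw [h3, ← h.C_mul _ (hz.comm (ψ _).2), hs, rho_C_add, rho_C_E h, rho_C_compl h, add_zero]

theorem rho_typeII_aux {K : ℝ} (hK0 : 0 ≤ K) {KK : Set (Mp M)} (hK : Minl (act (∅ : Set M)) KK)
    (hB : KK ⊆ Ball M K) (hz : CProj M z) {k : ℕ} (Ξ : Fin k → H) (hΞ : QTr M Ξ)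
    (hd : ∀ (η : H) (ε : ℝ), 0 < ε → ∃ s : Fin k → H →L[ℂ] H,
      (∀ i, s i ∈ M.commutant) ∧ ‖z η - ∑ i, s i (Ξ i)‖ ≤ ε)
    (hm : ∀ m₀, ∃ m, m₀ ≤ m ∧ ∃ ε : Fin m → Fin m → H →L[ℂ] H,
      MUnits ε ∧ (∀ a b, ε a b ∈ M) ∧ ∑ a, ε a a = z) (h : RstIso i z) :
    ∃ ψ ∈ KK, ModOn z ψ := by
  obtain ⟨Q, hQ⟩ := exists_trD (M := rstAlg i M) (fun n => i.adjoint (Ξ n))
    (fun y hy => by
      have h1 := hΞ _ (h.E_mem hz hy)
      simp only [rstE_star, rstE_apply, h.norm_i] at h1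
      exact h1)
    (fun η ε hε => by
      obtain ⟨s, hs, hs'⟩ := hd (i η) ε hε
      refine ⟨fun n => rstC i (s n), fun n => rstC_mem_commutant (hs n),
        le_trans (le_of_eq ?_) ((h.norm_adj _).trans hs')⟩
      rw [map_sub, map_sum, h.adj_z, h.left]
      simp only [h.C_adj (hz.comm' (hs _))])
  have hD : Diffuse (rstAlg i M) := fun m₀ => by
    obtain ⟨m, hm₀, ε, hε, hεM, hε1⟩ := hm m₀
    refine ⟨m, hm₀, fun a b => rhoC h hz ⟨ε a b, hεM a b⟩,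
      ⟨fun a b => Subtype.ext ?_, fun a b c d => Subtype.ext ?_⟩, Subtype.ext ?_⟩
    · change star (rstC i (ε a b)) = rstC i (ε b a)
      rw [rstC_star, hε.star_eq]
    · change rstC i (ε a b) * rstC i (ε c d) = _
      rw [h.C_mul _ (hz.comm (hεM c d)), hε.mul]
      split_ifs
      · rfl
      · ext ξ
        simp [rstC_apply]
    · rw [← map_sum]
      change rstC i ((∑ a, (⟨ε a a, hεM a a⟩ : M) : M) : H →L[ℂ] H) = 1
      rw [AddSubmonoidClass.coe_finsetSum, hε1, h.C_z]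
  have hB₀ : rhoPi h hz '' KK ⊆ Ball (rstAlg i M) K := by
    rintro _ ⟨ψ, hψ, rfl⟩ x
    exact (h.norm_C _).trans ((hB hψ _).trans (mul_le_mul_of_nonneg_left (h.norm_E _) hK0))
  obtain ⟨_, ⟨ψ, hψ, rfl⟩, hmod⟩ :=
    coreII hQ hD hK0 (hK.toInv.image (rhoPi h hz) (rho_lift h hz)) hB₀
  refine ⟨ψ, hψ, fun a x => ?_⟩
  let z' : M := ⟨z, hz.mem⟩
  have h1 : ∀ y : M, rhoE h hz (rhoC h hz y) = z' * y := fun y =>
    Subtype.ext (rho_E_C h (hz.comm y.2))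
  have h2 : ∀ y y' : M, rhoC h hz y * rhoC h hz y' = rhoC h hz (y * y') := fun y y' =>
    Subtype.ext (h.C_mul _ (hz.comm y'.2))
  have h3 : ∀ y : M, rhoC h hz (z' * y) = rhoC h hz y := fun y => by
    rw [← h2, show rhoC h hz z' = 1 from Subtype.ext h.C_z, one_mul]
  have h4 : ∀ y : M, rhoPi h hz ψ (rhoC h hz y) = rhoC h hz (ψ y) := fun y => by
    change rhoC h hz (ψ (rhoE h hz (rhoC h hz y))) = _
    rw [h1, central_mod hK (z := z') hz ψ hψ, h3]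
  have h5 := hmod (rhoC h hz a) (rhoC h hz x)
  rw [h2, h4, h4, h2] at h5
  have h6 := congrArg (rhoE h hz) h5
  rw [h1, h1] at h6
  exact congrArg Subtype.val h6

end Rst

theorem typeII {K : ℝ} (hK0 : 0 ≤ K) {KK : Set (Mp M)} (hK : Minl (act (∅ : Set M)) KK)
    (hB : KK ⊆ Ball M K) {z : H →L[ℂ] H} (hz : CProj M z) {k : ℕ} (Ξ : Fin k → H)
    (hΞ : QTr M Ξ)
    (hd : ∀ (η : H) (ε : ℝ), 0 < ε → ∃ s : Fin k → H →L[ℂ] H,
      (∀ i, s i ∈ M.commutant) ∧ ‖z η - ∑ i, s i (Ξ i)‖ ≤ ε) (hzΞ : ∀ i, z (Ξ i) = Ξ i)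
    (hm : ∀ m₀, ∃ m, m₀ ≤ m ∧ ∃ ε : Fin m → Fin m → H →L[ℂ] H,
      MUnits ε ∧ (∀ a b, ε a b ∈ M) ∧ ∑ a, ε a a = z) :
    ∃ ψ ∈ KK, ModOn z ψ := by
  obtain ⟨U, _, h⟩ := exists_rstIso hz.proj
  exact rho_typeII_aux hK0 hK hB hz Ξ hΞ hd hm h

theorem rho_local {zP : H →L[ℂ] H} (hz : CProj M zP) (hfin : NoPI M (1 - zP)) {K : ℝ}
    (hK0 : 0 ≤ K) {KK : Set (Mp M)} (hK : Minl (act (∅ : Set M)) KK) (hB : KK ⊆ Ball M K)
    (hcb : ∀ ψ ∈ KK, ∀ n, CBn n zP K ψ) {z₀ : H →L[ℂ] H} (hz₀ : CProj M z₀) (h0 : z₀ ≠ 0) :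
    ∃ z', CProj M z' ∧ z' ≠ 0 ∧ z₀ * z' = z' ∧ ∃ ψ ∈ KK, ModOn z' ψ := by
  by_cases h1 : z₀ * zP = 0
  · have hPI : NoPI M z₀ := fun p hp hpz => hfin p hp (by
      rw [sub_mul, one_mul, ← hpz, ← mul_assoc zP, hz.comm hz₀.mem, h1, zero_mul, sub_zero])
    by_cases hAb : NoAbel M z₀
    · obtain ⟨z, hz', hz0, hzz, k, Ξ, h1, h2, h3⟩ := qtrace M hz₀ h0 hPI
      exact ⟨z, hz', hz0, hzz, typeII hK0 hK hB hz' Ξ h2 h3 h1 (munits M hAb hz'.proj hz'.mem hzz)⟩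
    · simp only [NoAbel, not_forall] at hAb
      obtain ⟨p, hpM, hp, hpz, hab, hp0⟩ := hAb
      exact typeI hK hB hz₀ hPI hp hpM hp0 hpz hab
  · obtain ⟨z', hz', h2, h3, h4⟩ := cbcase hK0 hK.toInv hB hz (hz₀.mul hz) h1 (by
      rw [← hz.comm hz₀.mem, ← mul_assoc, hz.proj.isIdempotentElem.eq]) hcb
    refine ⟨z', hz', h2, ?_, h4⟩
    rw [← h3, ← mul_assoc, ← mul_assoc, hz₀.proj.isIdempotentElem.eq]

theorem rho {zP : H →L[ℂ] H} (hz : CProj M zP) (hfin : NoPI M (1 - zP)) {K : ℝ} (hK0 : 0 ≤ K)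
    {KK : Set (Mp M)} (hK : Inv (act (∅ : Set M)) KK) (hB : KK ⊆ Ball M K)
    (hcb : ∀ ψ ∈ KK, ∀ n, CBn n zP K ψ) : ∃ ψ ∈ KK, ∀ a x : M, ψ (a * x) = a * ψ x := by
  obtain ⟨K', hK', hm⟩ := hK.exists_minl
  obtain ⟨ψ, hψ⟩ := hm.ne
  refine ⟨ψ, hK' hψ, fun a x => ?_⟩
  let W : Set H := {ξ | ∃ z', CProj M z' ∧ ModOn z' ψ ∧ z' ξ = ξ}
  have hw : CProj M (projOn W) := by
    refine ⟨projOn_proj W, ?_, projOn_comm ?_⟩
    · rw [← M.commutant_commutant]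
      refine projOn_comm ?_
      rintro s hs ξ ⟨z', h1, h2, h3⟩
      exact ⟨z', h1, h2, by rw [← mul_apply_eq_comp, h1.comm' hs, mul_apply_eq_comp, h3]⟩
    · rintro s hs ξ ⟨z', h1, h2, h3⟩
      exact ⟨z', h1, h2, by rw [← mul_apply_eq_comp, h1.comm hs, mul_apply_eq_comp, h3]⟩
  have hw1 : projOn W = 1 := by
    by_contra hne
    obtain ⟨z', h1, h2, h3, ψ₀, h4, h5⟩ := rho_local hz hfin hK0 hm (hK'.trans hB)
      (fun φ hφ => hcb φ (hK' hφ)) hw.one_sub fun e => hne (sub_eq_zero.1 e).symm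
    refine h2 ?_
    rw [← h3]
    ext ξ
    have h6 : z' ξ ∈ W := ⟨z', h1, modOn_all hm h1 h4 h5 ψ hψ, by
      rw [← mul_apply_eq_comp, h1.proj.isIdempotentElem.eq]⟩
    change z' ξ - projOn W (z' ξ) = 0
    rw [projOn_apply_of_mem h6, sub_self]
  have hD : star ((ψ (a * x) : H →L[ℂ] H) - (a : H →L[ℂ] H) * ψ x) * projOn W = 0 := by
    refine mul_projOn_eq_zero ?_
    rintro ξ ⟨z', h1, h2, h3⟩
    rw [← h3, ← mul_apply_eq_comp, ← h1.proj.isSelfAdjoint.star_eq, ← star_mul, mul_sub, h2 a x,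
      sub_self, star_zero]
    rfl
  rw [hw1, mul_one, star_eq_zero, sub_eq_zero] at hD
  exact Subtype.ext hD

end Vale.Agent.KR
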